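import Crest.Agent.Row56.Cube

/-! Bonami lemma and a KKL-type inequality on the `p`-biased discrete cube. -/

set_option autoImplicit false
set_option linter.unusedSectionVars false

namespace Crest.Agent.Row56

open Finset Crest.FinProb

variable {ι : Type*} [Fintype ι] [DecidableEq ι]

lemma av_singleton (p : ℝ) (e : ι) (f : (ι → Bool) → ℝ) (x : ι → Bool) :
    av p {e} f x = p * f (Function.update x e true) + (1 - p) * f (Function.update x e false) := by
  unfold av
  have h1 : (fun y : ι → Bool => f (({e} : Finset ι).piecewise y x))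
      = fun y => ∏ i, (if i = e then f (Function.update x e (y i)) else 1) := by
    funext y
    rw [Finset.prod_ite_eq' Finset.univ e (fun i => f (Function.update x e (y i)))]
    simp only [Finset.mem_univ, if_true]
    congr 1
    funext i
    by_cases h : i = e
    · subst h; simp [Finset.piecewise]
    · simp [Finset.piecewise, h]
  rw [h1, Ex_prod p (fun i b => if i = e then f (Function.update x e b) else 1)]
  rw [Finset.prod_eq_single e]
  · simp
  · intro i _ hi
    simp [hi]
  · intro h; exact absurd (Finset.mem_univ _) h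

lemma av_empty (p : ℝ) (f : (ι → Bool) → ℝ) (x : ι → Bool) : av p ∅ f x = f x := by
  unfold av
  simp [Ex_const]

lemma av_univ (p : ℝ) (f : (ι → Bool) → ℝ) (x : ι → Bool) : av p Finset.univ f x = Ex p f := by
  unfold av
  simp

lemma av_insert (p : ℝ) (F : Finset ι) (e : ι) (he : e ∉ F) (f : (ι → Bool) → ℝ)
    (x : ι → Bool) :
    av p (insert e F) f x = p * av p F f (Function.update x e true)
      + (1 - p) * av p F f (Function.update x e false) := by
  have h1 : av p (insert e F) f x
      = Ex p (av p {e} (fun y => f ((insert e F).piecewise y x))) := by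
    rw [Ex_av]; rfl
  have h2 : ∀ y : ι → Bool, ∀ b : Bool,
      (insert e F).piecewise (Function.update y e b) x = F.piecewise y (Function.update x e b) := by
    intro y b
    funext i
    by_cases hi : i = e
    · subst hi; simp [Finset.piecewise, he]
    · by_cases hF : i ∈ F <;> simp [Finset.piecewise, hi, hF]
  rw [h1]
  have h3 : (av p {e} (fun y => f ((insert e F).piecewise y x)))
      = fun y => p * f (F.piecewise y (Function.update x e true))
        + (1 - p) * f (F.piecewise y (Function.update x e false)) := by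
    funext y
    rw [av_singleton]
    simp only [h2]
  rw [h3, Ex_add, Ex_const_mul, Ex_const_mul]
  rfl

/-- Independence of one coordinate from a function not depending on it. -/
lemma Ex_coord_mul (p : ℝ) (e : ι) (ψ : Bool → ℝ) (φ : (ι → Bool) → ℝ)
    (hφ : ∀ x b, φ (Function.update x e b) = φ x) :
    Ex p (fun x => ψ (x e) * φ x) = (p * ψ true + (1 - p) * ψ false) * Ex p φ := by
  rw [← Ex_av p {e} (fun x => ψ (x e) * φ x), ← Ex_const_mul]
  refine Ex_congr (fun x => ?_)
  rw [av_singleton]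
  simp only [hφ, Function.update_self]
  ring

/-- The fourth moment of the one-bit character. -/
noncomputable def m4 (p : ℝ) : ℝ := p * ch p true ^ 4 + (1 - p) * ch p false ^ 4

lemma m4_nonneg {p : ℝ} (hp0 : 0 < p) (hp1 : p < 1) : 0 ≤ m4 p := by
  unfold m4
  have : 0 < 1 - p := by linarith
  positivity

lemma m4_eq {p : ℝ} (hp0 : 0 < p) (hp1 : p < 1) :
    m4 p = 1 / (p * (1 - p)) - 3 := by
  unfold m4
  have h1 := ch_true_sq hp0 hp1
  have h2 := ch_false_sq hp0 hp1
  have h3 : (1 - p) ≠ 0 := by linarith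
  have e1 : ch p true ^ 4 = (ch p true ^ 2) ^ 2 := by ring
  have e2 : ch p false ^ 4 = (ch p false ^ 2) ^ 2 := by ring
  rw [e1, e2, h1, h2]
  field_simp
  ring

/-- The third moment of the one-bit character. -/
noncomputable def m3 (p : ℝ) : ℝ := p * ch p true ^ 3 + (1 - p) * ch p false ^ 3

lemma m3_sq_le {p : ℝ} (hp0 : 0 < p) (hp1 : p < 1) : m3 p ^ 2 ≤ m4 p := by
  have h := Ex_cauchy (ι := Unit) hp0.le hp1.le (fun x => ch p (x ()))
    (fun x => ch p (x ()) ^ 2)
  have e1 : Ex (ι := Unit) p (fun x => ch p (x ()) * ch p (x ()) ^ 2) = m3 p := by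
    have := Ex_prod (ι := Unit) p (fun _ b => ch p b * ch p b ^ 2)
    simp only [Finset.univ_unique, Finset.prod_singleton] at this
    unfold m3
    convert this using 1
    ring
  have e2 : Ex (ι := Unit) p (fun x => ch p (x ()) ^ 2) = 1 := by
    have := Ex_prod (ι := Unit) p (fun _ b => ch p b ^ 2)
    simp only [Finset.univ_unique, Finset.prod_singleton] at this
    have h2 := ch_second hp0 hp1
    refine Eq.trans this ?_
    linarith
  have e3 : Ex (ι := Unit) p (fun x => (ch p (x ()) ^ 2) ^ 2) = m4 p := by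
    have := Ex_prod (ι := Unit) p (fun _ b => (ch p b ^ 2) ^ 2)
    simp only [Finset.univ_unique, Finset.prod_singleton] at this
    unfold m4
    convert this using 1
    ring
  rw [e1, e2, e3, one_mul] at h
  exact h

/-- Bonami lemma in weighted form. -/
lemma bonami {p : ℝ} (hp0 : 0 < p) (hp1 : p < 1) {b : ℝ} (hb4 : 4 ≤ b)
    (hb : 3 * m4 p ≤ b ^ 2) (F : Finset ι) :
    ∀ c : Finset ι → ℝ,
    Ex p (fun x => (∑ S ∈ F.powerset, c S * chi p S x) ^ 4)
      ≤ (∑ S ∈ F.powerset, b ^ S.card * c S ^ 2) ^ 2 := by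
  induction F using Finset.induction_on with
  | empty =>
    intro c
    simp only [Finset.powerset_empty, Finset.sum_singleton, Finset.card_empty, pow_zero, one_mul]
    have : (fun x : ι → Bool => (c ∅ * chi p ∅ x) ^ 4) = fun _ => c ∅ ^ 4 := by
      funext x; simp [chi]
    rw [this, Ex_const]
    exact le_of_eq (by ring)
  | @insert e F he ih =>
    intro c
    set g0 : (ι → Bool) → ℝ := fun x => ∑ S ∈ F.powerset, c S * chi p S x with hg0
    set g1 : (ι → Bool) → ℝ := fun x => ∑ S ∈ F.powerset, c (insert e S) * chi p S x with hg1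
    set Q0 : ℝ := ∑ S ∈ F.powerset, b ^ S.card * c S ^ 2 with hQ0
    set Q1 : ℝ := ∑ S ∈ F.powerset, b ^ S.card * c (insert e S) ^ 2 with hQ1
    have hb0 : 0 < b := by linarith
    have hQ0n : 0 ≤ Q0 := Finset.sum_nonneg (fun S _ => by positivity)
    have hQ1n : 0 ≤ Q1 := Finset.sum_nonneg (fun S _ => by positivity)
    have ih0 := ih c
    have ih1 := ih (fun S => c (insert e S))
    have hsplit : ∀ x : ι → Bool, ∑ S ∈ (insert e F).powerset, c S * chi p S x
        = g0 x + ch p (x e) * g1 x := by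
      intro x
      rw [Finset.sum_powerset_insert he, hg0, hg1]
      simp only [Finset.mul_sum]
      congr 1
      refine Finset.sum_congr rfl (fun S hS => ?_)
      have heS : e ∉ S := fun h => he (Finset.mem_powerset.mp hS h)
      rw [chi_of_mem p (insert e S) e (Finset.mem_insert_self e S), Finset.erase_insert heS]
      ring
    have hQsplit : ∑ S ∈ (insert e F).powerset, b ^ S.card * c S ^ 2 = Q0 + b * Q1 := by
      rw [Finset.sum_powerset_insert he, hQ0, hQ1, Finset.mul_sum]
      congr 1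
      refine Finset.sum_congr rfl (fun S hS => ?_)
      have heS : e ∉ S := fun h => he (Finset.mem_powerset.mp hS h)
      rw [Finset.card_insert_of_notMem heS, pow_succ]
      ring
    have hind0 : ∀ x b', g0 (Function.update x e b') = g0 x := by
      intro x b'
      refine Finset.sum_congr rfl (fun S hS => ?_)
      have heS : e ∉ S := fun h => he (Finset.mem_powerset.mp hS h)
      rw [chi_update_of_not_mem p S e heS]
    have hind1 : ∀ x b', g1 (Function.update x e b') = g1 x := by
      intro x b'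
      refine Finset.sum_congr rfl (fun S hS => ?_)
      have heS : e ∉ S := fun h => he (Finset.mem_powerset.mp hS h)
      rw [chi_update_of_not_mem p S e heS]
    simp only [hsplit, hQsplit]
    -- expand the fourth power
    have hexp : Ex p (fun x => (g0 x + ch p (x e) * g1 x) ^ 4)
        = Ex p (fun x => g0 x ^ 4) + 6 * Ex p (fun x => g0 x ^ 2 * g1 x ^ 2)
          + 4 * m3 p * Ex p (fun x => g0 x * g1 x ^ 3) + m4 p * Ex p (fun x => g1 x ^ 4) := by
      have e0 : (fun x : ι → Bool => (g0 x + ch p (x e) * g1 x) ^ 4)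
          = fun x => (((g0 x ^ 4 + 4 * (ch p (x e) * (g0 x ^ 3 * g1 x)))
            + 6 * ((ch p (x e)) ^ 2 * (g0 x ^ 2 * g1 x ^ 2)))
            + 4 * ((ch p (x e)) ^ 3 * (g0 x * g1 x ^ 3)))
            + (ch p (x e)) ^ 4 * g1 x ^ 4 := by
        funext x; ring
      rw [e0, Ex_add, Ex_add, Ex_add, Ex_add, Ex_const_mul, Ex_const_mul, Ex_const_mul]
      have i1 := Ex_coord_mul p e (fun b' => ch p b') (fun x => g0 x ^ 3 * g1 x)
        (fun x b' => by simp only [hind0, hind1])
      have i2 := Ex_coord_mul p e (fun b' => ch p b' ^ 2) (fun x => g0 x ^ 2 * g1 x ^ 2)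
        (fun x b' => by simp only [hind0, hind1])
      have i3 := Ex_coord_mul p e (fun b' => ch p b' ^ 3) (fun x => g0 x * g1 x ^ 3)
        (fun x b' => by simp only [hind0, hind1])
      have i4 := Ex_coord_mul p e (fun b' => ch p b' ^ 4) (fun x => g1 x ^ 4)
        (fun x b' => by simp only [hind1])
      rw [i1, i2, i3, i4]
      have h2 := ch_second hp0 hp1
      rw [ch_mean hp0 hp1]
      have h2' : p * ch p true ^ 2 + (1 - p) * ch p false ^ 2 = 1 := by
        rw [sq, sq]; exact h2
      rw [h2']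
      unfold m3 m4
      ring
    rw [hexp]
    -- Cauchy–Schwarz bounds
    set A0 := Ex p (fun x => g0 x ^ 4) with hA0
    set A1 := Ex p (fun x => g1 x ^ 4) with hA1
    set M := Ex p (fun x => g0 x ^ 2 * g1 x ^ 2) with hM
    set N := Ex p (fun x => g0 x * g1 x ^ 3) with hN
    have hA0n : 0 ≤ A0 := Ex_nonneg hp0.le hp1.le (fun x => by positivity)
    have hA1n : 0 ≤ A1 := Ex_nonneg hp0.le hp1.le (fun x => by positivity)
    have hMn : 0 ≤ M := Ex_nonneg hp0.le hp1.le (fun x => by positivity)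
    have hM2 : M ^ 2 ≤ A0 * A1 := by
      have := Ex_cauchy hp0.le hp1.le (fun x => g0 x ^ 2) (fun x => g1 x ^ 2)
      have e1 : Ex p (fun x => (g0 x ^ 2) ^ 2) = A0 := Ex_congr (fun x => by ring)
      have e2 : Ex p (fun x => (g1 x ^ 2) ^ 2) = A1 := Ex_congr (fun x => by ring)
      rw [e1, e2] at this
      exact this
    have hN2 : N ^ 2 ≤ M * A1 := by
      have := Ex_cauchy hp0.le hp1.le (fun x => g0 x * g1 x) (fun x => g1 x ^ 2)
      have e1 : Ex p (fun x => (g0 x * g1 x) ^ 2) = M := Ex_congr (fun x => by ring)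
      have e2 : Ex p (fun x => (g1 x ^ 2) ^ 2) = A1 := Ex_congr (fun x => by ring)
      have e3 : Ex p (fun x => g0 x * g1 x * g1 x ^ 2) = N := Ex_congr (fun x => by ring)
      rw [e1, e2, e3] at this
      exact this
    have hm4 := m4_nonneg hp0 hp1
    have hm3 := m3_sq_le hp0 hp1
    -- 4 m3 N ≤ 2 M + 2 m4 A1
    have hmid : 4 * m3 p * N ≤ 2 * M + 2 * (m4 p * A1) := by
      have h1 : (m3 p * N) ^ 2 ≤ M * (m4 p * A1) := by
        calc (m3 p * N) ^ 2 = m3 p ^ 2 * N ^ 2 := by ring
          _ ≤ m4 p * (M * A1) := mul_le_mul hm3 hN2 (sq_nonneg _) hm4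
          _ = M * (m4 p * A1) := by ring
      have h2 : (m3 p * N) ^ 2 ≤ ((M + m4 p * A1) / 2) ^ 2 := by
        nlinarith [sq_nonneg (M - m4 p * A1)]
      have h3 : m3 p * N ≤ (M + m4 p * A1) / 2 := by
        refine le_of_sq_le_sq' ?_ h2
        positivity
      linarith
    have hMQ : M ≤ Q0 * Q1 := by
      refine le_of_sq_le_sq' (by positivity) ?_
      calc M ^ 2 ≤ A0 * A1 := hM2
        _ ≤ Q0 ^ 2 * Q1 ^ 2 := mul_le_mul ih0 ih1 hA1n (by positivity)
        _ = (Q0 * Q1) ^ 2 := by ring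
    calc A0 + 6 * M + 4 * m3 p * N + m4 p * A1
        ≤ A0 + 8 * M + 3 * m4 p * A1 := by linarith
      _ ≤ Q0 ^ 2 + 8 * (Q0 * Q1) + b ^ 2 * Q1 ^ 2 := by
          have t1 : 3 * m4 p * A1 ≤ b ^ 2 * Q1 ^ 2 :=
            mul_le_mul hb ih1 hA1n (by positivity)
          linarith
      _ ≤ (Q0 + b * Q1) ^ 2 := by
          have : 8 * (Q0 * Q1) ≤ 2 * b * (Q0 * Q1) :=
            mul_le_mul_of_nonneg_right (by linarith) (by positivity)
          nlinarith
where
  le_of_sq_le_sq' {a c : ℝ} (hc : 0 ≤ c) (h : a ^ 2 ≤ c ^ 2) : a ≤ c := by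
    exact le_trans (le_abs_self a) (by
      rw [← abs_of_nonneg hc]
      exact sq_le_sq.mp h)

lemma le_of_sq_le_sq'' {a c : ℝ} (hc : 0 ≤ c) (h : a ^ 2 ≤ c ^ 2) : a ≤ c := by
  exact le_trans (le_abs_self a) (by
    rw [← abs_of_nonneg hc]
    exact sq_le_sq.mp h)

/-- Duality step: low-level weight of a function with small `L¹` norm. -/
lemma level_ineq {p : ℝ} (hp0 : 0 < p) (hp1 : p < 1) (P : Finset ι → Prop) [DecidablePred P]
    (h : (ι → Bool) → ℝ) {c K : ℝ} (hK : 0 ≤ K)
    (h1 : Ex p (fun x => |h x|) ≤ c * Ex p (fun x => h x ^ 2))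
    (h4 : Ex p (fun x => proj p P h x ^ 4) ≤ K * (Ex p (fun x => proj p P h x ^ 2)) ^ 2) :
    (Ex p (fun x => proj p P h x ^ 2)) ^ 2 ≤ K * c ^ 2 * (Ex p (fun x => h x ^ 2)) ^ 3 := by
  set g := proj p P h with hg
  set A := Ex p (fun x => g x ^ 2) with hA
  set B := Ex p (fun x => h x ^ 2) with hB
  have hAn : 0 ≤ A := Ex_nonneg hp0.le hp1.le (fun x => sq_nonneg _)
  have hBn : 0 ≤ B := Ex_nonneg hp0.le hp1.le (fun x => sq_nonneg _)
  have hL1 : 0 ≤ Ex p (fun x => |h x|) := Ex_nonneg hp0.le hp1.le (fun x => abs_nonneg _)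
  have hgh : Ex p (fun x => g x * h x) = A := Ex_proj_mul hp0 hp1 P h
  set R := Ex p (fun x => g x ^ 2 * |h x|) with hR
  have hRn : 0 ≤ R := Ex_nonneg hp0.le hp1.le (fun x => by positivity)
  have c1 : A ^ 2 ≤ R * Ex p (fun x => |h x|) := by
    have t1 : Ex p (fun x => g x * h x) ≤ Ex p (fun x => (|g x| * Real.sqrt |h x|)
        * Real.sqrt |h x|) := by
      refine Ex_mono hp0.le hp1.le (fun x => ?_)
      rw [mul_assoc, Real.mul_self_sqrt (abs_nonneg _), ← abs_mul]
      exact le_abs_self _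
    have t2 := Ex_cauchy hp0.le hp1.le (fun x => |g x| * Real.sqrt |h x|)
      (fun x => Real.sqrt |h x|)
    have t3 : Ex p (fun x => (|g x| * Real.sqrt |h x|) ^ 2) = R := by
      refine Ex_congr (fun x => ?_)
      rw [mul_pow, Real.sq_sqrt (abs_nonneg _), sq_abs]
    have t4 : Ex p (fun x => (Real.sqrt |h x|) ^ 2) = Ex p (fun x => |h x|) := by
      refine Ex_congr (fun x => ?_)
      rw [Real.sq_sqrt (abs_nonneg _)]
    rw [t3, t4] at t2
    rw [hgh] at t1
    exact le_trans (pow_le_pow_left₀ hAn t1 2) t2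
  have c2 : R ^ 2 ≤ Ex p (fun x => g x ^ 4) * B := by
    have t2 := Ex_cauchy hp0.le hp1.le (fun x => g x ^ 2) (fun x => |h x|)
    have t3 : Ex p (fun x => (g x ^ 2) ^ 2) = Ex p (fun x => g x ^ 4) :=
      Ex_congr (fun x => by ring)
    have t4 : Ex p (fun x => |h x| ^ 2) = B := Ex_congr (fun x => by rw [sq_abs])
    rw [t3, t4] at t2
    exact t2
  have c3 : A ^ 4 ≤ (K * A ^ 2 * B) * (c * B) ^ 2 := by
    calc A ^ 4 = (A ^ 2) ^ 2 := by ring
      _ ≤ (R * Ex p (fun x => |h x|)) ^ 2 := pow_le_pow_left₀ (by positivity) c1 2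
      _ = R ^ 2 * (Ex p (fun x => |h x|)) ^ 2 := by ring
      _ ≤ (Ex p (fun x => g x ^ 4) * B) * (c * B) ^ 2 :=
          mul_le_mul c2 (pow_le_pow_left₀ hL1 h1 2) (by positivity)
            (le_trans (sq_nonneg R) c2)
      _ ≤ (K * A ^ 2 * B) * (c * B) ^ 2 := by
          refine mul_le_mul_of_nonneg_right ?_ (by positivity)
          exact mul_le_mul_of_nonneg_right h4 hBn
  rcases hAn.eq_or_lt with h0 | hpos
  · rw [← h0]
    have : 0 ≤ Ex p (fun x => g x ^ 4) := Ex_nonneg hp0.le hp1.le (fun x => by positivity)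
    have h5 : (0:ℝ) ≤ K * c ^ 2 * B ^ 3 := by positivity
    simpa using h5
  · have hA2 : 0 < A ^ 2 := by positivity
    have : A ^ 2 * A ^ 2 ≤ A ^ 2 * (K * c ^ 2 * B ^ 3) := by
      calc A ^ 2 * A ^ 2 = A ^ 4 := by ring
        _ ≤ (K * A ^ 2 * B) * (c * B) ^ 2 := c3
        _ = A ^ 2 * (K * c ^ 2 * B ^ 3) := by ring
    exact le_of_mul_le_mul_left this hA2

/-- A function is Boolean-valued. -/
def IsBool (h : (ι → Bool) → ℝ) : Prop := ∀ x, h x = 0 ∨ h x = 1

lemma IsBool.abs_D {h : (ι → Bool) → ℝ} (hh : IsBool h) (e : ι) (x : ι → Bool) :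
    |D e h x| = D e h x ^ 2 := by
  unfold D
  rcases hh (Function.update x e true) with h1 | h1 <;>
    rcases hh (Function.update x e false) with h2 | h2 <;> rw [h1, h2] <;> norm_num

/-- Low-level part of the derivative, as a weight. -/
lemma sum_low {p : ℝ} (hp0 : 0 < p) (hp1 : p < 1) (h : (ι → Bool) → ℝ) (k : ℕ) :
    ∑ S ∈ Finset.univ.filter (fun S : Finset ι => S.card ≤ k), (S.card : ℝ) * fc p h S ^ 2
      = p * (1 - p) * ∑ e, Ex p (fun x => proj p (fun S => S.card + 1 ≤ k) (D e h) x ^ 2) := by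
  have hpq : 0 < p * (1 - p) := mul_pos hp0 (by linarith)
  have h1p : (1 - p) ≠ 0 := by linarith
  have key : ∀ e : ι, p * (1 - p) *
      Ex p (fun x => proj p (fun S => S.card + 1 ≤ k) (D e h) x ^ 2)
      = ∑ S ∈ Finset.univ.filter (fun S : Finset ι => S.card ≤ k),
        if e ∈ S then fc p h S ^ 2 else 0 := by
    intro e
    rw [Ex_proj_sq hp0 hp1, Finset.mul_sum]
    have e1 : ∀ S : Finset ι, p * (1 - p) * fc p (D e h) S ^ 2
        = if e ∉ S then fc p h (insert e S) ^ 2 else 0 := by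
      intro S
      rw [fc_D hp0 hp1]
      by_cases h : e ∈ S
      · simp [h]
      · rw [if_neg h, if_pos h, mul_pow, div_pow, Real.sq_sqrt hpq.le]
        field_simp
    simp only [e1]
    rw [← Finset.sum_filter, ← Finset.sum_filter, Finset.filter_filter, Finset.filter_filter]
    refine Finset.sum_bij' (fun S _ => insert e S) (fun S _ => S.erase e) ?_ ?_ ?_ ?_ ?_
    · intro S hS
      simp only [Finset.mem_filter, Finset.mem_univ, true_and] at hS ⊢
      rw [Finset.card_insert_of_notMem hS.2]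
      exact ⟨hS.1, Finset.mem_insert_self _ _⟩
    · intro S hS
      simp only [Finset.mem_filter, Finset.mem_univ, true_and] at hS ⊢
      rw [Finset.card_erase_add_one hS.2]
      exact ⟨hS.1, Finset.notMem_erase _ _⟩
    · intro S hS
      simp only [Finset.mem_filter, Finset.mem_univ, true_and] at hS
      exact Finset.erase_insert hS.2
    · intro S hS
      simp only [Finset.mem_filter, Finset.mem_univ, true_and] at hS
      exact Finset.insert_erase hS.2
    · intro S _; rfl
  rw [Finset.mul_sum]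
  simp only [key]
  rw [Finset.sum_comm]
  refine Finset.sum_congr rfl (fun S _ => ?_)
  rw [← Finset.sum_filter, Finset.sum_const, nsmul_eq_mul]
  congr 2
  simp

/-- KKL-type inequality for Boolean functions with small maximal influence. -/
lemma kkl {p : ℝ} (hp0 : 0 < p) (hp1 : p < 1) {b : ℝ} (hb4 : 4 ≤ b)
    (hb : 3 * m4 p ≤ b ^ 2) (h : (ι → Bool) → ℝ) (hh : IsBool h) (k : ℕ) {a : ℝ} (ha : 0 < a)
    (hinf : ∀ e, a * inf p e h ≤ tinf p h) :
    var p h ≤ p * (1 - p) * tinf p h * (b ^ k * Real.sqrt (tinf p h / a) + 1 / ((k : ℝ) + 1)) := by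
  have hpq : 0 < p * (1 - p) := mul_pos hp0 (by linarith)
  have hb1 : 1 ≤ b := by linarith
  have hI0 : 0 ≤ tinf p h := tinf_nonneg hp0.le hp1.le h
  -- low part of each derivative
  have hlow : ∀ e : ι, Ex p (fun x => proj p (fun S => S.card + 1 ≤ k) (D e h) x ^ 2)
      ≤ b ^ k * Real.sqrt (tinf p h / a) * inf p e h := by
    intro e
    have hinf0 := inf_nonneg hp0.le hp1.le e h
    set g := proj p (fun S : Finset ι => S.card + 1 ≤ k) (D e h) with hg
    have hbon : Ex p (fun x => g x ^ 4) ≤ (b ^ k) ^ 2 * (Ex p (fun x => g x ^ 2)) ^ 2 := by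
      have h1 := bonami hp0 hp1 hb4 hb (Finset.univ : Finset ι)
        (fun S => if S.card + 1 ≤ k then fc p (D e h) S else 0)
      rw [Finset.powerset_univ] at h1
      have e1 : (fun x => (∑ S : Finset ι, (if S.card + 1 ≤ k then fc p (D e h) S else 0)
          * chi p S x) ^ 4) = fun x => g x ^ 4 := by
        funext x
        rw [hg, proj_eq]
      rw [e1] at h1
      refine le_trans h1 ?_
      rw [← mul_pow]
      refine pow_le_pow_left₀ (Finset.sum_nonneg (fun S _ => by positivity)) ?_ 2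
      rw [hg, Ex_proj_sq hp0 hp1, Finset.mul_sum, Finset.sum_filter]
      refine Finset.sum_le_sum (fun S _ => ?_)
      split_ifs with hS
      · refine mul_le_mul_of_nonneg_right ?_ (sq_nonneg _)
        exact pow_le_pow_right₀ hb1 (by omega)
      · simp
    have hlev := level_ineq hp0 hp1 (fun S : Finset ι => S.card + 1 ≤ k) (D e h)
      (c := 1) (K := (b ^ k) ^ 2) (by positivity)
      (by rw [one_mul]; exact le_of_eq (Ex_congr (fun x => hh.abs_D e x))) hbon
    rw [← hg] at hlev
    refine le_of_sq_le_sq'' (by positivity) ?_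
    refine le_trans hlev ?_
    have e2 : Ex p (fun x => D e h x ^ 2) = inf p e h := rfl
    rw [e2]
    have e3 : (b ^ k * Real.sqrt (tinf p h / a) * inf p e h) ^ 2
        = (b ^ k) ^ 2 * 1 ^ 2 * (inf p e h ^ 2 * (tinf p h / a)) := by
      rw [mul_pow, mul_pow, Real.sq_sqrt (by positivity)]
      ring
    rw [e3]
    refine mul_le_mul_of_nonneg_left ?_ (by positivity)
    have e4 : inf p e h ^ 3 = inf p e h ^ 2 * inf p e h := by ring
    rw [e4]
    refine mul_le_mul_of_nonneg_left ?_ (by positivity)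
    rw [le_div_iff₀ ha, mul_comm]
    exact hinf e
  -- split the variance
  rw [var_eq hp0 hp1]
  have hsplit : ∑ S ∈ Finset.univ.filter (fun S : Finset ι => S ≠ ∅), fc p h S ^ 2
      ≤ ∑ S ∈ Finset.univ.filter (fun S : Finset ι => S.card ≤ k), (S.card : ℝ) * fc p h S ^ 2
        + 1 / ((k : ℝ) + 1) * ∑ S : Finset ι, (S.card : ℝ) * fc p h S ^ 2 := by
    rw [Finset.sum_filter, Finset.sum_filter, Finset.mul_sum, ← Finset.sum_add_distrib]
    refine Finset.sum_le_sum (fun S _ => ?_)
    have hkpos : (0:ℝ) < (k:ℝ) + 1 := by positivity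
    by_cases hS0 : S = ∅
    · subst hS0; simp
    · have hc1 : 1 ≤ S.card := Finset.card_pos.mpr (Finset.nonempty_iff_ne_empty.mpr hS0)
      have hc1' : (1:ℝ) ≤ S.card := by exact_mod_cast hc1
      rw [if_pos hS0]
      by_cases hk : S.card ≤ k
      · rw [if_pos hk]
        have t1 : fc p h S ^ 2 ≤ (S.card : ℝ) * fc p h S ^ 2 := by
          nlinarith [sq_nonneg (fc p h S)]
        have t2 : 0 ≤ 1 / ((k : ℝ) + 1) * ((S.card : ℝ) * fc p h S ^ 2) := by positivity
        linarith
      · rw [if_neg hk, zero_add]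
        have hk' : (k : ℝ) + 1 ≤ S.card := by exact_mod_cast (not_le.mp hk)
        rw [div_mul_eq_mul_div, one_mul, le_div_iff₀ hkpos, mul_comm]
        exact mul_le_mul_of_nonneg_right hk' (sq_nonneg _)
  refine le_trans hsplit ?_
  rw [sum_low hp0 hp1, ← tinf_eq hp0 hp1]
  have hsum : ∑ e, Ex p (fun x => proj p (fun S : Finset ι => S.card + 1 ≤ k) (D e h) x ^ 2)
      ≤ b ^ k * Real.sqrt (tinf p h / a) * tinf p h := by
    refine le_trans (Finset.sum_le_sum (fun e _ => hlow e)) ?_
    rw [← Finset.mul_sum]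
    exact le_of_eq rfl
  calc p * (1 - p) * ∑ e, Ex p (fun x => proj p (fun S : Finset ι => S.card + 1 ≤ k)
        (D e h) x ^ 2) + 1 / ((k : ℝ) + 1) * (p * (1 - p) * tinf p h)
      ≤ p * (1 - p) * (b ^ k * Real.sqrt (tinf p h / a) * tinf p h)
        + 1 / ((k : ℝ) + 1) * (p * (1 - p) * tinf p h) := by
        have := mul_le_mul_of_nonneg_left hsum hpq.le
        linarith
    _ = p * (1 - p) * tinf p h * (b ^ k * Real.sqrt (tinf p h / a) + 1 / ((k : ℝ) + 1)) := by
        ring

end Crest.Agent.Row56
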