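import Crest.Agent.Row56.Main

/-! Translation between the prelude definitions and the library. -/

set_option autoImplicit false
set_option linter.unusedSectionVars false
set_option linter.unusedVariables false

namespace Crest.Agent.Row56

open Finset Crest.FinProb
open Crest.CombinatoricsR.HypergraphCube

lemma bernoulliProb_eq {ι : Type*} [Fintype ι] [DecidableEq ι] (p : ℝ) (E : Set (ι → Bool))
    (g : (ι → Bool) → ℝ) (h1 : ∀ x ∈ E, g x = 1) (h0 : ∀ x, x ∉ E → g x = 0) :
    bernoulliProb p E = Ex p g := by
  classical
  unfold bernoulliProb Ex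
  rw [Finset.sum_filter]
  refine Finset.sum_congr rfl (fun x _ => ?_)
  by_cases h : x ∈ E
  · rw [if_pos h, h1 x h, mul_one]
  · rw [if_neg h, h0 x h, mul_zero]

variable {n r : ℕ}

/-- The real-valued version of a Boolean function. -/
def toR {α : Type*} (f : α → Bool) (x : α) : ℝ := if f x = true then 1 else 0

lemma toR_isBool {ι : Type*} [Fintype ι] [DecidableEq ι] (f : (ι → Bool) → Bool) :
    IsBool (toR f) := by
  intro x
  unfold toR
  by_cases h : f x = true
  · right; rw [if_pos h]
  · left; rw [if_neg h]

lemma toR_inv (f : (HyperedgeSlot n r → Bool) → Bool) (hf : IsSymmetric f) :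
    Inv (toR f) := by
  intro σ x
  have h := hf σ x
  unfold toR
  have h2 : f (fun e => x (slotPerm σ e)) = f x := h
  rw [h2]

lemma probTrue_eq (p : ℝ) (f : (HyperedgeSlot n r → Bool) → Bool) :
    probTrue p f = Ex p (toR f) := by
  unfold probTrue
  refine bernoulliProb_eq p _ _ (fun x hx => ?_) (fun x hx => ?_)
  · rw [Set.mem_setOf_eq] at hx; unfold toR; rw [if_pos hx]
  · rw [Set.mem_setOf_eq] at hx; unfold toR; rw [if_neg hx]

lemma pivotal_eq {ι : Type*} [Fintype ι] [DecidableEq ι] (p : ℝ)
    (f : (ι → Bool) → Bool) (e : ι) :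
    bernoulliProb p {x | f (Function.update x e true) ≠ f (Function.update x e false)}
      = inf p e (toR f) := by
  unfold inf
  refine bernoulliProb_eq p _ _ (fun x hx => ?_) (fun x hx => ?_)
  · simp only [Set.mem_setOf_eq] at hx
    unfold D toR
    cases h1 : f (Function.update x e true) <;> cases h2 : f (Function.update x e false)
    · rw [h1, h2] at hx; exact absurd rfl hx
    · norm_num
    · norm_num
    · rw [h1, h2] at hx; exact absurd rfl hx
  · simp only [Set.mem_setOf_eq, not_not] at hx
    unfold D toR
    rw [hx, sub_self]; norm_num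

lemma totalInfluence_eq (p : ℝ) (f : (HyperedgeSlot n r → Bool) → Bool) :
    totalInfluence p f = tinf p (toR f) := by
  unfold totalInfluence tinf pivotalInfluence
  exact Finset.sum_congr rfl (fun e _ => pivotal_eq p f e)

lemma var_toR (p : ℝ) {ι : Type*} [Fintype ι] [DecidableEq ι] (f : (ι → Bool) → Bool) :
    var p (toR f) = Ex p (toR f) * (1 - Ex p (toR f)) :=
  (toR_isBool f).var_eq p

end Crest.Agent.Row56
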