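import Mathlib
import Crest.Prelude.Def_FinProb

/-! Fourier analysis on the `p`-biased discrete cube. -/

set_option autoImplicit false
set_option linter.unusedSectionVars false

namespace Crest.Agent.Row56

open Finset Crest.FinProb

section basic

variable {ι : Type*} [Fintype ι] [DecidableEq ι]

/-- Expectation on the `p`-biased cube. -/
noncomputable def Ex (p : ℝ) (f : (ι → Bool) → ℝ) : ℝ := ∑ x, bernoulliWeight p x * f x

lemma Ex_add (p : ℝ) (f g : (ι → Bool) → ℝ) :
    Ex p (fun x => f x + g x) = Ex p f + Ex p g := by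
  simp [Ex, mul_add, Finset.sum_add_distrib]

lemma Ex_sub (p : ℝ) (f g : (ι → Bool) → ℝ) :
    Ex p (fun x => f x - g x) = Ex p f - Ex p g := by
  simp [Ex, mul_sub, Finset.sum_sub_distrib]

lemma Ex_const_mul (p : ℝ) (c : ℝ) (f : (ι → Bool) → ℝ) :
    Ex p (fun x => c * f x) = c * Ex p f := by
  simp only [Ex, Finset.mul_sum]
  exact Finset.sum_congr rfl (fun x _ => by ring)

lemma Ex_mul_const (p : ℝ) (c : ℝ) (f : (ι → Bool) → ℝ) :
    Ex p (fun x => f x * c) = Ex p f * c := by
  simp only [Ex, Finset.sum_mul]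
  exact Finset.sum_congr rfl (fun x _ => by ring)

lemma Ex_sum {κ : Type*} (p : ℝ) (s : Finset κ) (f : κ → (ι → Bool) → ℝ) :
    Ex p (fun x => ∑ k ∈ s, f k x) = ∑ k ∈ s, Ex p (f k) := by
  simp only [Ex, Finset.mul_sum]
  exact Finset.sum_comm

lemma wt_nonneg {p : ℝ} (hp0 : 0 ≤ p) (hp1 : p ≤ 1) (x : ι → Bool) :
    0 ≤ bernoulliWeight p x := by
  unfold bernoulliWeight
  refine Finset.prod_nonneg (fun i _ => ?_)
  split_ifs <;> linarith

lemma wt_pos {p : ℝ} (hp0 : 0 < p) (hp1 : p < 1) (x : ι → Bool) :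
    0 < bernoulliWeight p x := by
  unfold bernoulliWeight
  refine Finset.prod_pos (fun i _ => ?_)
  split_ifs <;> linarith

lemma Ex_mono {p : ℝ} (hp0 : 0 ≤ p) (hp1 : p ≤ 1) {f g : (ι → Bool) → ℝ}
    (h : ∀ x, f x ≤ g x) : Ex p f ≤ Ex p g :=
  Finset.sum_le_sum (fun x _ => mul_le_mul_of_nonneg_left (h x) (wt_nonneg hp0 hp1 x))

lemma Ex_nonneg {p : ℝ} (hp0 : 0 ≤ p) (hp1 : p ≤ 1) {f : (ι → Bool) → ℝ}
    (h : ∀ x, 0 ≤ f x) : 0 ≤ Ex p f :=
  Finset.sum_nonneg (fun x _ => mul_nonneg (wt_nonneg hp0 hp1 x) (h x))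

lemma Ex_congr {p : ℝ} {f g : (ι → Bool) → ℝ} (h : ∀ x, f x = g x) : Ex p f = Ex p g := by
  have : f = g := funext h
  rw [this]

/-- Product formula. -/
lemma Ex_prod (p : ℝ) (φ : ι → Bool → ℝ) :
    Ex p (fun x => ∏ i, φ i (x i)) = ∏ i, (p * φ i true + (1 - p) * φ i false) := by
  have h := Finset.prod_univ_sum (fun _ : ι => (Finset.univ : Finset Bool))
    (fun i b => (if b then p else 1 - p) * φ i b)
  rw [Fintype.piFinset_univ] at h
  have h2 : (∏ i, (p * φ i true + (1 - p) * φ i false))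
      = ∏ i, ∑ b ∈ (Finset.univ : Finset Bool), (if b then p else 1 - p) * φ i b := by
    refine Finset.prod_congr rfl (fun i _ => ?_)
    simp
  rw [h2, h]
  unfold Ex bernoulliWeight
  refine Finset.sum_congr rfl (fun x _ => ?_)
  rw [← Finset.prod_mul_distrib]

lemma Ex_const (p c : ℝ) : Ex (ι := ι) p (fun _ => c) = c := by
  have h := Ex_prod (ι := ι) p (fun _ _ => 1)
  simp only [Finset.prod_const_one, mul_one] at h
  have h1 : Ex (ι := ι) p (fun _ => (1:ℝ)) = 1 := by
    rw [h]; simp
  have h2 : Ex (ι := ι) p (fun _ => c) = c * Ex (ι := ι) p (fun _ => (1:ℝ)) := by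
    rw [← Ex_const_mul]; simp
  rw [h2, h1, mul_one]

lemma Ex_cauchy {p : ℝ} (hp0 : 0 ≤ p) (hp1 : p ≤ 1) (f g : (ι → Bool) → ℝ) :
    (Ex p (fun x => f x * g x)) ^ 2 ≤ Ex p (fun x => f x ^ 2) * Ex p (fun x => g x ^ 2) := by
  unfold Ex
  refine Finset.sum_sq_le_sum_mul_sum_of_sq_le_mul _ (fun x _ => ?_) (fun x _ => ?_)
    (fun x _ => ?_)
  · exact mul_nonneg (wt_nonneg hp0 hp1 x) (sq_nonneg _)
  · exact mul_nonneg (wt_nonneg hp0 hp1 x) (sq_nonneg _)
  · exact le_of_eq (by ring)

/-- Averaging over the coordinates in `F`. -/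
noncomputable def av (p : ℝ) (F : Finset ι) (f : (ι → Bool) → ℝ) (x : ι → Bool) : ℝ :=
  Ex p (fun y => f (F.piecewise y x))

lemma wt_piecewise_mul (p : ℝ) (F : Finset ι) (x y : ι → Bool) :
    bernoulliWeight p (F.piecewise y x) * bernoulliWeight p (F.piecewise x y)
      = bernoulliWeight p x * bernoulliWeight p y := by
  unfold bernoulliWeight
  rw [← Finset.prod_mul_distrib, ← Finset.prod_mul_distrib]
  refine Finset.prod_congr rfl (fun i _ => ?_)
  by_cases h : i ∈ F
  · simp only [Finset.piecewise, h, if_true]; ring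
  · simp only [Finset.piecewise, h, if_false]

/-- Merging two independent samples gives a sample. -/
lemma Ex_Ex_piecewise (p : ℝ) (F : Finset ι) (f : (ι → Bool) → ℝ) :
    Ex p (fun x => Ex p (fun y => f (F.piecewise y x))) = Ex p f := by
  have key : ∀ g : (ι → Bool) → (ι → Bool) → ℝ,
      ∑ x, ∑ y, bernoulliWeight p x * bernoulliWeight p y
        * g (F.piecewise y x) (F.piecewise x y)
      = ∑ x, ∑ y, bernoulliWeight p x * bernoulliWeight p y * g x y := by
    intro g
    rw [← Finset.univ.sum_product' Finset.univ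
        (fun x y : ι → Bool => bernoulliWeight p x * bernoulliWeight p y
        * g (F.piecewise y x) (F.piecewise x y)),
      ← Finset.univ.sum_product' Finset.univ
        (fun x y : ι → Bool => bernoulliWeight p x * bernoulliWeight p y * g x y)]
    have hinv : ∀ z : (ι → Bool) × (ι → Bool),
        (F.piecewise (F.piecewise z.1 z.2) (F.piecewise z.2 z.1),
         F.piecewise (F.piecewise z.2 z.1) (F.piecewise z.1 z.2)) = z := by
      intro z
      ext i
      · by_cases h : i ∈ F <;> simp [Finset.piecewise, h]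
      · by_cases h : i ∈ F <;> simp [Finset.piecewise, h]
    refine Finset.sum_bij' (fun z _ => (F.piecewise z.2 z.1, F.piecewise z.1 z.2))
      (fun z _ => (F.piecewise z.2 z.1, F.piecewise z.1 z.2)) ?_ ?_ ?_ ?_ ?_
    · intro z _; simp
    · intro z _; simp
    · intro z _; exact hinv z
    · intro z _; exact hinv z
    · intro z _
      simp only
      rw [wt_piecewise_mul]
  have h1 := key (fun x _ => f x)
  have h2 : Ex p (fun x => Ex p (fun y => f (F.piecewise y x)))
      = ∑ x, ∑ y, bernoulliWeight p x * bernoulliWeight p y * f (F.piecewise y x) := by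
    unfold Ex
    refine Finset.sum_congr rfl (fun x _ => ?_)
    rw [Finset.mul_sum]
    exact Finset.sum_congr rfl (fun y _ => by ring)
  rw [h2, h1]
  unfold Ex
  refine Finset.sum_congr rfl (fun x _ => ?_)
  have h3 := Ex_const (ι := ι) p 1
  unfold Ex at h3
  simp only [mul_one] at h3
  calc ∑ y, bernoulliWeight p x * bernoulliWeight p y * f x
      = bernoulliWeight p x * f x * ∑ y : ι → Bool, bernoulliWeight p y := by
        rw [Finset.mul_sum]; exact Finset.sum_congr rfl (fun y _ => by ring)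
    _ = bernoulliWeight p x * f x := by rw [h3, mul_one]

lemma Ex_av (p : ℝ) (F : Finset ι) (f : (ι → Bool) → ℝ) : Ex p (av p F f) = Ex p f :=
  Ex_Ex_piecewise p F f

end basic

section characters

variable {ι : Type*} [Fintype ι] [DecidableEq ι]

/-- The `p`-biased character of one bit. -/
noncomputable def ch (p : ℝ) (b : Bool) : ℝ :=
  if b then Real.sqrt ((1 - p) / p) else - Real.sqrt (p / (1 - p))

lemma ch_true_sq {p : ℝ} (hp0 : 0 < p) (hp1 : p < 1) : ch p true ^ 2 = (1 - p) / p := by
  simp only [ch, if_true]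
  rw [Real.sq_sqrt]
  exact div_nonneg (by linarith) hp0.le

lemma ch_false_sq {p : ℝ} (hp0 : 0 < p) (hp1 : p < 1) : ch p false ^ 2 = p / (1 - p) := by
  simp only [ch, Bool.false_eq_true, if_false, neg_sq]
  rw [Real.sq_sqrt]
  exact div_nonneg hp0.le (by linarith)

lemma ch_true_mul_false {p : ℝ} (hp0 : 0 < p) (hp1 : p < 1) :
    ch p true * ch p false = -1 := by
  have h1 : 0 < 1 - p := by linarith
  simp only [ch, if_true, Bool.false_eq_true, if_false, mul_neg]
  rw [← Real.sqrt_mul (div_nonneg h1.le hp0.le)]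
  have : (1 - p) / p * (p / (1 - p)) = 1 := by field_simp
  rw [this, Real.sqrt_one]

lemma ch_true_pos {p : ℝ} (hp0 : 0 < p) (hp1 : p < 1) : 0 < ch p true := by
  simp only [ch, if_true]
  exact Real.sqrt_pos.mpr (div_pos (by linarith) hp0)

lemma ch_true_ne {p : ℝ} (hp0 : 0 < p) (hp1 : p < 1) : ch p true ≠ 0 :=
  (ch_true_pos hp0 hp1).ne'

lemma ch_false_eq {p : ℝ} (hp0 : 0 < p) (hp1 : p < 1) : ch p false = - (1 / ch p true) := by
  have h := ch_true_mul_false hp0 hp1
  have h2 := ch_true_ne hp0 hp1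
  field_simp
  linarith

lemma ch_mean {p : ℝ} (hp0 : 0 < p) (hp1 : p < 1) :
    p * ch p true + (1 - p) * ch p false = 0 := by
  have h2 := ch_true_ne hp0 hp1
  have h3 := ch_true_sq hp0 hp1
  rw [ch_false_eq hp0 hp1]
  field_simp
  rw [h3]
  field_simp
  ring

lemma ch_second {p : ℝ} (hp0 : 0 < p) (hp1 : p < 1) :
    p * (ch p true * ch p true) + (1 - p) * (ch p false * ch p false) = 1 := by
  have h1 := ch_true_sq hp0 hp1
  have h2 := ch_false_sq hp0 hp1
  have h3 : 0 < 1 - p := by linarith
  rw [← sq, ← sq, h1, h2]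
  field_simp
  ring

lemma ch_diff {p : ℝ} (hp0 : 0 < p) (hp1 : p < 1) :
    ch p true - ch p false = 1 / Real.sqrt (p * (1 - p)) := by
  have h1 : 0 < 1 - p := by linarith
  have hs : 0 < Real.sqrt (p * (1 - p)) := Real.sqrt_pos.mpr (mul_pos hp0 h1)
  have hsum : 0 < ch p true - ch p false := by
    rw [ch_false_eq hp0 hp1]
    have := ch_true_pos hp0 hp1
    have h5 : 0 < 1 / ch p true := by positivity
    linarith
  have hsq : (ch p true - ch p false) ^ 2 = (1 / Real.sqrt (p * (1 - p))) ^ 2 := by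
    rw [div_pow, Real.sq_sqrt (mul_pos hp0 h1).le]
    have e1 : (ch p true - ch p false) ^ 2
        = ch p true ^ 2 + ch p false ^ 2 - 2 * (ch p true * ch p false) := by ring
    rw [e1, ch_true_sq hp0 hp1, ch_false_sq hp0 hp1, ch_true_mul_false hp0 hp1]
    field_simp
    ring
  have h6 : 0 < 1 / Real.sqrt (p * (1 - p)) := by positivity
  nlinarith [sq_nonneg (ch p true - ch p false - 1 / Real.sqrt (p * (1 - p)))]

/-- The character attached to a set of coordinates. -/
noncomputable def chi (p : ℝ) (S : Finset ι) (x : ι → Bool) : ℝ := ∏ i ∈ S, ch p (x i)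

lemma chi_eq_univ (p : ℝ) (S : Finset ι) (x : ι → Bool) :
    chi p S x = ∏ i, (if i ∈ S then ch p (x i) else 1) := by
  unfold chi
  rw [Finset.prod_ite_mem]
  simp

/-- Fourier coefficient. -/
noncomputable def fc (p : ℝ) (f : (ι → Bool) → ℝ) (S : Finset ι) : ℝ :=
  Ex p (fun x => f x * chi p S x)

lemma Ex_chi_mul_chi {p : ℝ} (hp0 : 0 < p) (hp1 : p < 1) (S T : Finset ι) :
    Ex p (fun x => chi p S x * chi p T x) = if S = T then 1 else 0 := by
  have h := Ex_prod (ι := ι) p (fun i b => (if i ∈ S then ch p b else 1) *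
    (if i ∈ T then ch p b else 1))
  have h1 : (fun x : ι → Bool => chi p S x * chi p T x)
      = fun x => ∏ i, ((if i ∈ S then ch p (x i) else 1) * (if i ∈ T then ch p (x i) else 1)) := by
    funext x
    rw [chi_eq_univ, chi_eq_univ, ← Finset.prod_mul_distrib]
  rw [h1, h]
  split_ifs with hST
  · subst hST
    refine Finset.prod_eq_one (fun i _ => ?_)
    by_cases hi : i ∈ S
    · simp only [hi, if_true]
      exact ch_second hp0 hp1
    · simp only [hi, if_false]; ring
  · have : ∃ i, ¬ (i ∈ S ↔ i ∈ T) := by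
      by_contra hcon
      push Not at hcon
      exact hST (Finset.ext hcon)
    obtain ⟨i, hi⟩ := this
    refine Finset.prod_eq_zero (Finset.mem_univ i) ?_
    by_cases h1 : i ∈ S <;> by_cases h2 : i ∈ T
    · exact absurd (iff_of_true h1 h2) hi
    · simp only [h1, h2, if_true, if_false, mul_one]; exact ch_mean hp0 hp1
    · simp only [h1, h2, if_true, if_false, one_mul]; exact ch_mean hp0 hp1
    · exact absurd (iff_of_false h1 h2) hi

lemma Ex_chi {p : ℝ} (hp0 : 0 < p) (hp1 : p < 1) (S : Finset ι) :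
    Ex p (fun x => chi p S x) = if S = ∅ then 1 else 0 := by
  have h := Ex_chi_mul_chi hp0 hp1 S (∅ : Finset ι)
  simpa [chi] using h

lemma sum_chi_chi {p : ℝ} (hp0 : 0 < p) (hp1 : p < 1) (x y : ι → Bool) :
    ∑ S : Finset ι, chi p S x * chi p S y
      = if x = y then 1 / bernoulliWeight p x else 0 := by
  have h1 : ∑ S : Finset ι, chi p S x * chi p S y = ∏ i, (1 + ch p (x i) * ch p (y i)) := by
    rw [Finset.prod_one_add, Finset.powerset_univ]
    refine Finset.sum_congr rfl (fun S _ => ?_)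
    unfold chi
    rw [← Finset.prod_mul_distrib]
  rw [h1]
  split_ifs with hxy
  · subst hxy
    unfold bernoulliWeight
    rw [one_div, ← Finset.prod_inv_distrib]
    refine Finset.prod_congr rfl (fun i _ => ?_)
    have h3 : 0 < 1 - p := by linarith
    cases hx : x i
    · rw [← sq, ch_false_sq hp0 hp1]; simp; field_simp; ring
    · rw [← sq, ch_true_sq hp0 hp1]; simp; field_simp; ring
  · have : ∃ i, x i ≠ y i := by
      by_contra hcon
      push Not at hcon
      exact hxy (funext hcon)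
    obtain ⟨i, hi⟩ := this
    refine Finset.prod_eq_zero (Finset.mem_univ i) ?_
    have h4 := ch_true_mul_false hp0 hp1
    cases hx : x i <;> cases hy : y i
    · exact absurd (hx.trans hy.symm) hi
    · rw [mul_comm, h4]; ring
    · rw [h4]; ring
    · exact absurd (hx.trans hy.symm) hi

lemma expansion {p : ℝ} (hp0 : 0 < p) (hp1 : p < 1) (f : (ι → Bool) → ℝ) (x : ι → Bool) :
    f x = ∑ S : Finset ι, fc p f S * chi p S x := by
  have h1 : ∑ S : Finset ι, fc p f S * chi p S x
      = ∑ y, bernoulliWeight p y * f y * ∑ S : Finset ι, chi p S x * chi p S y := by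
    unfold fc Ex
    simp only [Finset.sum_mul, Finset.mul_sum]
    rw [Finset.sum_comm]
    refine Finset.sum_congr rfl (fun y _ => Finset.sum_congr rfl (fun S _ => by ring))
  rw [h1]
  simp only [sum_chi_chi hp0 hp1]
  rw [Finset.sum_eq_single x]
  · simp only [if_true]
    have := (wt_pos hp0 hp1 x).ne'
    field_simp
  · intro y _ hy
    rw [if_neg (Ne.symm hy), mul_zero]
  · intro h; exact absurd (Finset.mem_univ _) h

lemma parseval {p : ℝ} (hp0 : 0 < p) (hp1 : p < 1) (f g : (ι → Bool) → ℝ) :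
    Ex p (fun x => f x * g x) = ∑ S : Finset ι, fc p f S * fc p g S := by
  have h1 : (fun x => f x * g x) = fun x => ∑ S : Finset ι, fc p g S * (f x * chi p S x) := by
    funext x
    conv_lhs => rw [expansion hp0 hp1 g x]
    rw [Finset.mul_sum]
    exact Finset.sum_congr rfl (fun S _ => by ring)
  rw [h1, Ex_sum]
  refine Finset.sum_congr rfl (fun S _ => ?_)
  rw [Ex_const_mul]
  unfold fc
  ring

lemma parseval_sq {p : ℝ} (hp0 : 0 < p) (hp1 : p < 1) (f : (ι → Bool) → ℝ) :
    Ex p (fun x => f x ^ 2) = ∑ S : Finset ι, fc p f S ^ 2 := by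
  simp only [sq]
  exact parseval hp0 hp1 f f

lemma fc_sum_chi {p : ℝ} (hp0 : 0 < p) (hp1 : p < 1) (c : Finset ι → ℝ) (S : Finset ι) :
    fc p (fun x => ∑ T : Finset ι, c T * chi p T x) S = c S := by
  unfold fc
  have h1 : (fun x => (∑ T : Finset ι, c T * chi p T x) * chi p S x)
      = fun x => ∑ T : Finset ι, c T * (chi p T x * chi p S x) := by
    funext x
    rw [Finset.sum_mul]
    exact Finset.sum_congr rfl (fun T _ => by ring)
  rw [h1, Ex_sum]
  simp only [Ex_const_mul, Ex_chi_mul_chi hp0 hp1]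
  simp

lemma fc_empty (p : ℝ) (f : (ι → Bool) → ℝ) : fc p f ∅ = Ex p f := by
  unfold fc chi; simp

/-- Projection of `f` on the characters satisfying `P`. -/
noncomputable def proj (p : ℝ) (P : Finset ι → Prop) [DecidablePred P] (f : (ι → Bool) → ℝ)
    (x : ι → Bool) : ℝ :=
  ∑ S ∈ Finset.univ.filter P, fc p f S * chi p S x

lemma proj_eq (p : ℝ) (P : Finset ι → Prop) [DecidablePred P] (f : (ι → Bool) → ℝ)
    (x : ι → Bool) :
    proj p P f x = ∑ S : Finset ι, (if P S then fc p f S else 0) * chi p S x := by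
  unfold proj
  rw [Finset.sum_filter]
  exact Finset.sum_congr rfl (fun S _ => by split_ifs <;> simp)

lemma fc_proj {p : ℝ} (hp0 : 0 < p) (hp1 : p < 1) (P : Finset ι → Prop) [DecidablePred P]
    (f : (ι → Bool) → ℝ) (S : Finset ι) :
    fc p (proj p P f) S = if P S then fc p f S else 0 := by
  have h : proj p P f = fun x => ∑ S : Finset ι, (if P S then fc p f S else 0) * chi p S x := by
    funext x; exact proj_eq p P f x
  rw [h, fc_sum_chi hp0 hp1 (fun S => if P S then fc p f S else 0) S]

lemma Ex_proj_sq {p : ℝ} (hp0 : 0 < p) (hp1 : p < 1) (P : Finset ι → Prop) [DecidablePred P]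
    (f : (ι → Bool) → ℝ) :
    Ex p (fun x => proj p P f x ^ 2) = ∑ S ∈ Finset.univ.filter P, fc p f S ^ 2 := by
  rw [parseval_sq hp0 hp1, Finset.sum_filter]
  refine Finset.sum_congr rfl (fun S _ => ?_)
  rw [fc_proj hp0 hp1]
  split_ifs <;> simp

lemma Ex_proj_mul {p : ℝ} (hp0 : 0 < p) (hp1 : p < 1) (P : Finset ι → Prop) [DecidablePred P]
    (f : (ι → Bool) → ℝ) :
    Ex p (fun x => proj p P f x * f x) = Ex p (fun x => proj p P f x ^ 2) := by
  rw [Ex_proj_sq hp0 hp1, parseval hp0 hp1, Finset.sum_filter]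
  refine Finset.sum_congr rfl (fun S _ => ?_)
  rw [fc_proj hp0 hp1]
  split_ifs
  · ring
  · simp

/-- `av` kills the characters meeting `F`. -/
lemma av_chi {p : ℝ} (hp0 : 0 < p) (hp1 : p < 1) (F S : Finset ι) (x : ι → Bool) :
    av p F (chi p S) x = if Disjoint S F then chi p S x else 0 := by
  unfold av
  have h1 : (fun y : ι → Bool => chi p S (F.piecewise y x))
      = fun y => ∏ i, (if i ∈ S then (if i ∈ F then ch p (y i) else ch p (x i)) else 1) := by
    funext y
    rw [chi_eq_univ]
    refine Finset.prod_congr rfl (fun i _ => ?_)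
    by_cases h1 : i ∈ S <;> by_cases h2 : i ∈ F <;> simp [Finset.piecewise, h1, h2]
  rw [h1, Ex_prod p (fun i b => (if i ∈ S then (if i ∈ F then ch p b else ch p (x i)) else 1))]
  split_ifs with hd
  · rw [chi_eq_univ]
    refine Finset.prod_congr rfl (fun i _ => ?_)
    by_cases h1 : i ∈ S
    · have h2 : i ∉ F := Finset.disjoint_left.mp hd h1
      simp only [h1, h2, if_true, if_false]; ring
    · simp only [h1, if_false]; ring
  · rw [Finset.not_disjoint_iff] at hd
    obtain ⟨i, h1, h2⟩ := hd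
    refine Finset.prod_eq_zero (Finset.mem_univ i) ?_
    simp only [h1, h2, if_true]
    exact ch_mean hp0 hp1

lemma av_eq_proj {p : ℝ} (hp0 : 0 < p) (hp1 : p < 1) (F : Finset ι) (f : (ι → Bool) → ℝ) :
    av p F f = proj p (fun S => Disjoint S F) f := by
  funext x
  have h1 : av p F f x = ∑ S : Finset ι, fc p f S * av p F (chi p S) x := by
    unfold av
    have : (fun y => f (F.piecewise y x))
        = fun y => ∑ S : Finset ι, fc p f S * chi p S (F.piecewise y x) := by
      funext y
      exact expansion hp0 hp1 f _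
    rw [this, Ex_sum]
    exact Finset.sum_congr rfl (fun S _ => Ex_const_mul _ _ _)
  rw [h1]
  unfold proj
  rw [Finset.sum_filter]
  refine Finset.sum_congr rfl (fun S _ => ?_)
  rw [av_chi hp0 hp1]
  split_ifs <;> simp

lemma fc_av {p : ℝ} (hp0 : 0 < p) (hp1 : p < 1) (F : Finset ι) (f : (ι → Bool) → ℝ)
    (S : Finset ι) : fc p (av p F f) S = if Disjoint S F then fc p f S else 0 := by
  rw [av_eq_proj hp0 hp1, fc_proj hp0 hp1]

/-- Discrete derivative. -/
def D (e : ι) (f : (ι → Bool) → ℝ) (x : ι → Bool) : ℝ :=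
  f (Function.update x e true) - f (Function.update x e false)

lemma chi_update_of_not_mem (p : ℝ) (S : Finset ι) (e : ι) (he : e ∉ S) (b : Bool)
    (x : ι → Bool) : chi p S (Function.update x e b) = chi p S x := by
  unfold chi
  refine Finset.prod_congr rfl (fun i hi => ?_)
  rw [Function.update_of_ne]
  rintro rfl
  exact he hi

lemma chi_of_mem (p : ℝ) (S : Finset ι) (e : ι) (he : e ∈ S) (x : ι → Bool) :
    chi p S x = ch p (x e) * chi p (S.erase e) x := by
  unfold chi
  rw [Finset.mul_prod_erase S (fun i => ch p (x i)) he]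

lemma D_chi {p : ℝ} (hp0 : 0 < p) (hp1 : p < 1) (S : Finset ι) (e : ι) (x : ι → Bool) :
    D e (chi p S) x
      = if e ∈ S then (1 / Real.sqrt (p * (1 - p))) * chi p (S.erase e) x else 0 := by
  unfold D
  split_ifs with he
  · rw [chi_of_mem p S e he, chi_of_mem p S e he,
      chi_update_of_not_mem p _ e (Finset.notMem_erase e S),
      chi_update_of_not_mem p _ e (Finset.notMem_erase e S), Function.update_self,
      Function.update_self, ← sub_mul, ch_diff hp0 hp1]
  · rw [chi_update_of_not_mem p _ e he, chi_update_of_not_mem p _ e he, sub_self]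

lemma fc_D {p : ℝ} (hp0 : 0 < p) (hp1 : p < 1) (e : ι) (f : (ι → Bool) → ℝ) (S : Finset ι) :
    fc p (D e f) S
      = if e ∈ S then 0 else (1 / Real.sqrt (p * (1 - p))) * fc p f (insert e S) := by
  have h1 : D e f = fun x => ∑ T : Finset ι, fc p f T * D e (chi p T) x := by
    funext x
    unfold D
    rw [expansion hp0 hp1 f (Function.update x e true),
      expansion hp0 hp1 f (Function.update x e false), ← Finset.sum_sub_distrib]
    exact Finset.sum_congr rfl (fun T _ => by ring)
  have h2 : fc p (D e f) S = ∑ T : Finset ι, fc p f T * fc p (D e (chi p T)) S := by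
    rw [h1]
    unfold fc
    have : (fun x => (∑ T : Finset ι, Ex p (fun x => f x * chi p T x) * D e (chi p T) x)
        * chi p S x) = fun x => ∑ T : Finset ι, Ex p (fun x => f x * chi p T x) *
          (D e (chi p T) x * chi p S x) := by
      funext x
      rw [Finset.sum_mul]
      exact Finset.sum_congr rfl (fun T _ => by ring)
    rw [this, Ex_sum]
    exact Finset.sum_congr rfl (fun T _ => Ex_const_mul _ _ _)
  have h3 : ∀ T : Finset ι, fc p (D e (chi p T)) S
      = if e ∈ T then (1 / Real.sqrt (p * (1 - p))) * (if T.erase e = S then 1 else 0)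
        else 0 := by
    intro T
    unfold fc
    split_ifs with he
    · have : (fun x => D e (chi p T) x * chi p S x)
          = fun x => (1 / Real.sqrt (p * (1 - p))) * (chi p (T.erase e) x * chi p S x) := by
        funext x
        rw [D_chi hp0 hp1, if_pos he]; ring
      rw [this, Ex_const_mul, Ex_chi_mul_chi hp0 hp1, if_pos ‹_›]
    · have : (fun x => D e (chi p T) x * chi p S x)
          = fun x => (1 / Real.sqrt (p * (1 - p))) * (chi p (T.erase e) x * chi p S x) := by
        funext x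
        rw [D_chi hp0 hp1, if_pos he]; ring
      rw [this, Ex_const_mul, Ex_chi_mul_chi hp0 hp1, if_neg ‹_›]
    · have : (fun x => D e (chi p T) x * chi p S x) = fun x => (0:ℝ) := by
        funext x
        rw [D_chi hp0 hp1, if_neg he, zero_mul]
      rw [this, Ex_const]
  rw [h2]
  simp only [h3]
  split_ifs with heS
  · refine Finset.sum_eq_zero (fun T _ => ?_)
    split_ifs with h4 h5
    · exact absurd (h5 ▸ heS) (Finset.notMem_erase e T)
    · simp
    · simp
  · rw [Finset.sum_eq_single (insert e S)]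
    · rw [if_pos (Finset.mem_insert_self e S), Finset.erase_insert heS, if_pos rfl]; ring
    · intro T _ hT
      split_ifs with h4 h5
      · exact absurd (by rw [← h5, Finset.insert_erase h4]) hT
      · simp
      · simp
    · intro h; exact absurd (Finset.mem_univ _) h

/-- Influence of the coordinate `e`, as the second moment of the derivative. -/
noncomputable def inf (p : ℝ) (e : ι) (f : (ι → Bool) → ℝ) : ℝ := Ex p (fun x => D e f x ^ 2)

lemma inf_eq {p : ℝ} (hp0 : 0 < p) (hp1 : p < 1) (e : ι) (f : (ι → Bool) → ℝ) :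
    p * (1 - p) * inf p e f = ∑ S ∈ Finset.univ.filter (fun S : Finset ι => e ∈ S),
      fc p f S ^ 2 := by
  have hpq : 0 < p * (1 - p) := mul_pos hp0 (by linarith)
  unfold inf
  rw [parseval_sq hp0 hp1]
  simp only [fc_D hp0 hp1]
  rw [Finset.mul_sum]
  have h1p : (1 - p) ≠ 0 := by linarith
  have h1 : ∀ S : Finset ι, p * (1 - p) *
      (if e ∈ S then 0 else (1 / Real.sqrt (p * (1 - p))) * fc p f (insert e S)) ^ 2
      = if e ∉ S then fc p f (insert e S) ^ 2 else 0 := by
    intro S
    by_cases h : e ∈ S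
    · simp [h]
    · rw [if_neg h, if_pos h, mul_pow, div_pow, Real.sq_sqrt hpq.le]
      field_simp
  simp only [h1]
  rw [← Finset.sum_filter]
  refine Finset.sum_bij' (fun S _ => insert e S) (fun S _ => S.erase e) ?_ ?_ ?_ ?_ ?_
  · intro S _; simp
  · intro S _; simp
  · intro S hS
    simp only [Finset.mem_filter, Finset.mem_univ, true_and] at hS
    exact Finset.erase_insert hS
  · intro S hS
    simp only [Finset.mem_filter, Finset.mem_univ, true_and] at hS
    exact Finset.insert_erase hS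
  · intro S _; rfl

/-- Total influence. -/
noncomputable def tinf (p : ℝ) (f : (ι → Bool) → ℝ) : ℝ := ∑ e, inf p e f

lemma tinf_eq {p : ℝ} (hp0 : 0 < p) (hp1 : p < 1) (f : (ι → Bool) → ℝ) :
    p * (1 - p) * tinf p f = ∑ S : Finset ι, (S.card : ℝ) * fc p f S ^ 2 := by
  unfold tinf
  rw [Finset.mul_sum]
  simp only [inf_eq hp0 hp1, Finset.sum_filter]
  rw [Finset.sum_comm]
  refine Finset.sum_congr rfl (fun S _ => ?_)
  rw [← Finset.sum_filter, Finset.sum_const, nsmul_eq_mul]
  congr 2
  simp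

/-- Variance. -/
noncomputable def var (p : ℝ) (f : (ι → Bool) → ℝ) : ℝ :=
  Ex p (fun x => f x ^ 2) - (Ex p f) ^ 2

lemma var_eq {p : ℝ} (hp0 : 0 < p) (hp1 : p < 1) (f : (ι → Bool) → ℝ) :
    var p f = ∑ S ∈ Finset.univ.filter (fun S : Finset ι => S ≠ ∅), fc p f S ^ 2 := by
  unfold var
  rw [parseval_sq hp0 hp1, ← fc_empty, ← Finset.sum_filter_add_sum_filter_not Finset.univ
    (fun S : Finset ι => S ≠ ∅)]
  have : Finset.univ.filter (fun S : Finset ι => ¬ S ≠ ∅) = {∅} := by
    ext S; simp
  rw [this, Finset.sum_singleton]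
  ring

lemma inf_nonneg {p : ℝ} (hp0 : 0 ≤ p) (hp1 : p ≤ 1) (e : ι) (f : (ι → Bool) → ℝ) :
    0 ≤ inf p e f := Ex_nonneg hp0 hp1 (fun _ => sq_nonneg _)

lemma tinf_nonneg {p : ℝ} (hp0 : 0 ≤ p) (hp1 : p ≤ 1) (f : (ι → Bool) → ℝ) :
    0 ≤ tinf p f := Finset.sum_nonneg (fun _ _ => inf_nonneg hp0 hp1 _ _)

lemma poincare {p : ℝ} (hp0 : 0 < p) (hp1 : p < 1) (f : (ι → Bool) → ℝ) :
    var p f ≤ p * (1 - p) * tinf p f := by
  rw [var_eq hp0 hp1, tinf_eq hp0 hp1, Finset.sum_filter]
  refine Finset.sum_le_sum (fun S _ => ?_)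
  split_ifs with h
  · have : 1 ≤ S.card := Finset.card_pos.mpr (Finset.nonempty_iff_ne_empty.mpr h)
    have h2 : (1:ℝ) ≤ S.card := by exact_mod_cast this
    nlinarith [sq_nonneg (fc p f S)]
  · positivity

end characters

end Crest.Agent.Row56
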