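import Crest.Agent.Row56.Russo
import Crest.Prelude.Def_RandomGraph

/-! Transfer from random graphs to the 2-uniform hypergraph cube. -/

set_option autoImplicit false
set_option linter.unusedSectionVars false
set_option linter.unusedVariables false

namespace Crest.Agent.Row56

open Finset Crest.FinProb
open Crest.CombinatoricsR.HypergraphCube Crest.CombinatoricsR.RandomGraph

variable {n : ℕ}

/-- An unordered pair as a two-element set. -/
def pairSlot (z : EdgeSlot n) : HyperedgeSlot n 2 :=
  ⟨z.1.toFinset, Sym2.card_toFinset_of_not_isDiag z.1 z.2⟩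

lemma pairSlot_bijective : Function.Bijective (pairSlot (n := n)) := by
  constructor
  · intro z z' h
    have h1 : z.1.toFinset = z'.1.toFinset := congrArg Subtype.val h
    refine Subtype.ext (Sym2.ext (fun x => ?_))
    rw [← Sym2.mem_toFinset, ← Sym2.mem_toFinset, h1]
  · intro e
    obtain ⟨a, b, hab, he⟩ := Finset.card_eq_two.mp e.2
    refine ⟨⟨s(a, b), by rwa [Sym2.mk_isDiag_iff]⟩, ?_⟩
    refine Subtype.ext ?_
    change (s(a, b) : Sym2 (Fin n)).toFinset = e.1
    rw [Sym2.toFinset_mk_eq, he]

/-- The equivalence between the two kinds of slots. -/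
noncomputable def pairEquiv (n : ℕ) : EdgeSlot n ≃ HyperedgeSlot n 2 :=
  Equiv.ofBijective pairSlot pairSlot_bijective

/-- The graph of a point of the 2-uniform cube. -/
def gr (x : HyperedgeSlot n 2 → Bool) : SimpleGraph (Fin n) := graphOf (fun z => x (pairSlot z))

lemma gr_adj (x : HyperedgeSlot n 2 → Bool) (i j : Fin n) :
    (gr x).Adj i j ↔ ∃ h : i ≠ j, x ⟨{i, j}, Finset.card_pair h⟩ = true := by
  unfold gr graphOf
  rw [SimpleGraph.fromEdgeSet_adj]
  constructor
  · rintro ⟨⟨h, hx⟩, hij⟩
    refine ⟨hij, ?_⟩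
    have : pairSlot (n := n) ⟨s(i, j), h⟩ = ⟨{i, j}, Finset.card_pair hij⟩ := by
      refine Subtype.ext ?_
      change (s(i, j) : Sym2 (Fin n)).toFinset = {i, j}
      exact Sym2.toFinset_mk_eq
    simp only [this] at hx
    exact hx
  · rintro ⟨hij, hx⟩
    have h : ¬ (s(i, j) : Sym2 (Fin n)).IsDiag := by rwa [Sym2.mk_isDiag_iff]
    refine ⟨⟨h, ?_⟩, hij⟩
    have : pairSlot (n := n) ⟨s(i, j), h⟩ = ⟨{i, j}, Finset.card_pair hij⟩ := by
      refine Subtype.ext ?_
      change (s(i, j) : Sym2 (Fin n)).toFinset = {i, j}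
      exact Sym2.toFinset_mk_eq
    simp only [this]
    exact hx

lemma gr_mono (x y : HyperedgeSlot n 2 → Bool) (h : ∀ e, x e = true → y e = true) :
    gr x ≤ gr y := by
  intro i j hij
  rw [gr_adj] at hij ⊢
  obtain ⟨hne, hx⟩ := hij
  exact ⟨hne, h _ hx⟩

lemma gr_perm (σ : Equiv.Perm (Fin n)) (x : HyperedgeSlot n 2 → Bool) :
    (gr (fun e => x (slotPerm σ e))).map σ.toEmbedding = gr x := by
  ext i j
  rw [SimpleGraph.map_adj]
  constructor
  · rintro ⟨i', j', hij, rfl, rfl⟩
    rw [gr_adj] at hij ⊢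
    obtain ⟨hne, hx⟩ := hij
    have hne' : σ i' ≠ σ j' := fun h => hne (σ.injective h)
    refine ⟨hne', ?_⟩
    have : slotPerm σ (⟨{i', j'}, Finset.card_pair hne⟩ : HyperedgeSlot n 2)
        = ⟨{σ i', σ j'}, Finset.card_pair hne'⟩ := by
      refine Subtype.ext ?_
      change ({i', j'} : Finset (Fin n)).map σ.toEmbedding = {σ i', σ j'}
      simp
    rw [this] at hx
    exact hx
  · intro hij
    rw [gr_adj] at hij
    obtain ⟨hne, hx⟩ := hij
    refine ⟨σ.symm i, σ.symm j, ?_, by simp, by simp⟩
    rw [gr_adj]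
    have hne' : σ.symm i ≠ σ.symm j := fun h => hne (σ.symm.injective h)
    refine ⟨hne', ?_⟩
    have : slotPerm σ (⟨{σ.symm i, σ.symm j}, Finset.card_pair hne'⟩ : HyperedgeSlot n 2)
        = ⟨{i, j}, Finset.card_pair hne⟩ := by
      refine Subtype.ext ?_
      change ({σ.symm i, σ.symm j} : Finset (Fin n)).map σ.toEmbedding = {i, j}
      simp
    rw [this]
    exact hx

open Classical in
/-- The Boolean function of a graph property. -/
noncomputable def propF (P : Set (SimpleGraph (Fin n))) (x : HyperedgeSlot n 2 → Bool) : Bool :=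
  decide (gr x ∈ P)

lemma propF_eq_true (P : Set (SimpleGraph (Fin n))) (x : HyperedgeSlot n 2 → Bool) :
    propF P x = true ↔ gr x ∈ P := by
  unfold propF; simp

lemma propF_sym (P : Set (SimpleGraph (Fin n)))
    (hsymm : ∀ σ : Equiv.Perm (Fin n), ∀ G : SimpleGraph (Fin n), G ∈ P →
      G.map σ.toEmbedding ∈ P) : IsSymmetric (propF P) := by
  intro σ x
  have key : gr (relabel σ x) ∈ P ↔ gr x ∈ P := by
    have h1 : (gr (relabel σ x)).map σ.toEmbedding = gr x := gr_perm σ x
    constructor
    · intro h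
      rw [← h1]
      exact hsymm σ _ h
    · intro h
      have h2 := hsymm σ.symm _ h
      rw [← h1] at h2
      have h3 : ((gr (relabel σ x)).map σ.toEmbedding).map σ.symm.toEmbedding
          = gr (relabel σ x) := by
        ext i j
        simp only [SimpleGraph.map_adj]
        constructor
        · rintro ⟨a, b, ⟨a', b', hab, rfl, rfl⟩, rfl, rfl⟩
          simpa using hab
        · intro h
          exact ⟨σ i, σ j, ⟨i, j, h, rfl, rfl⟩, by simp, by simp⟩
      rwa [h3] at h2
  rw [Bool.eq_iff_iff, propF_eq_true, propF_eq_true]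
  exact key

lemma gnpProb_eq (p : ℝ) (P : Set (SimpleGraph (Fin n))) :
    gnpProb n p P = Ex p (toR (propF P)) := by
  unfold gnpProb
  rw [bernoulliProb_eq p _ (fun ω : EdgeSlot n → Bool =>
    toR (propF P) (fun e => ω ((pairEquiv n).symm e)))]
  · unfold Ex
    refine Finset.sum_bij' (fun ω _ => fun e => ω ((pairEquiv n).symm e))
      (fun x _ => fun z => x (pairEquiv n z)) ?_ ?_ ?_ ?_ ?_
    · intro ω _; simp
    · intro x _; simp
    · intro ω _; funext z; simp
    · intro x _; funext e; simp
    · intro ω _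
      congr 1
      unfold bernoulliWeight
      exact (Equiv.prod_comp (pairEquiv n).symm (fun z => if ω z then p else 1 - p)).symm
  · intro ω hω
    have h1 : gr (fun e => ω ((pairEquiv n).symm e)) = graphOf ω := by
      unfold gr
      congr 1
      funext z
      exact congrArg ω ((pairEquiv n).symm_apply_apply z)
    unfold toR
    rw [if_pos]
    rw [propF_eq_true, h1]
    exact hω
  · intro ω hω
    have h1 : gr (fun e => ω ((pairEquiv n).symm e)) = graphOf ω := by
      unfold gr
      congr 1
      funext z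
      exact congrArg ω ((pairEquiv n).symm_apply_apply z)
    unfold toR
    rw [if_neg]
    rw [propF_eq_true, h1]
    exact hω

lemma propF_mono (P : Set (SimpleGraph (Fin n)))
    (hmono : ∀ G G' : SimpleGraph (Fin n), G ≤ G' → G ∈ P → G' ∈ P)
    (x y : HyperedgeSlot n 2 → Bool) (h : ∀ e, x e = true → y e = true) :
    toR (propF P) x ≤ toR (propF P) y := by
  unfold toR
  by_cases h1 : propF P x = true
  · have h2 : propF P y = true := by
      rw [propF_eq_true] at h1 ⊢
      exact hmono _ _ (gr_mono x y h) h1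
    rw [if_pos h1, if_pos h2]
  · rw [if_neg h1]
    split_ifs <;> norm_num

end Crest.Agent.Row56
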