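import Crest.Agent.Row56.Step2

/-! The main inequality: variance against total influence for invariant Boolean functions. -/

set_option autoImplicit false
set_option linter.unusedSectionVars false
set_option linter.unusedVariables false

namespace Crest.Agent.Row56

open Finset Crest.FinProb
open Crest.CombinatoricsR.HypergraphCube

variable {n r : ℕ}

lemma HH_le (n r v : ℕ) {l : ℝ} (hl : 0 < l) (hn : 1 ≤ n) (hv : 2 * v ≤ n)
    (hκ : (1 / l) ^ ((2 * v + 1) ^ (r - 1)) * (5 * Real.sqrt (2 * v / n)) ≤ 1) :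
    HH n r v l ≤ Real.exp (14 * v) := by
  have hn0 : (0:ℝ) < n := by exact_mod_cast hn
  unfold HH
  have hκ0 : (0:ℝ) ≤ (1 / l) ^ ((2 * v + 1) ^ (r - 1)) := by
    generalize (2 * v + 1) ^ (r - 1) = m
    positivity
  generalize (1 / l) ^ ((2 * v + 1) ^ (r - 1)) = κ at hκ hκ0
  have ht0 : (0:ℝ) ≤ 2 * v / n := by positivity
  have ht1 : (2 * v / n : ℝ) ≤ 1 := by
    rw [div_le_one hn0]; exact_mod_cast hv
  have htn : (2 * v / n : ℝ) * n = 2 * v := by field_simp
  generalize (2 * v / n : ℝ) = t at hκ ht0 ht1 htn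
  set s := Real.sqrt t with hs
  have hs0 : 0 ≤ s := Real.sqrt_nonneg _
  have hs2 : s ^ 2 = t := Real.sq_sqrt ht0
  have hs1 : s ≤ 1 := by
    rw [hs, Real.sqrt_le_iff]; exact ⟨zero_le_one, by linarith⟩
  have h1 : 4 * (κ * s ^ 3) + κ * s ^ 4 ≤ t := by
    have e1 : 4 * (κ * s ^ 3) + κ * s ^ 4 = t * (κ * (4 * s + s * s)) := by
      rw [← hs2]; ring
    rw [e1]
    have h2 : κ * (4 * s + s * s) ≤ 1 := by
      refine le_trans (mul_le_mul_of_nonneg_left ?_ hκ0) hκ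
      nlinarith
    calc t * (κ * (4 * s + s * s)) ≤ t * 1 := mul_le_mul_of_nonneg_left h2 ht0
      _ = t := mul_one t
  have h3 : 1 + 6 * t + 4 * (κ * s ^ 3) + κ * s ^ 4 ≤ Real.exp (7 * t) := by
    have := Real.add_one_le_exp (7 * t)
    linarith
  have h4 : 0 ≤ 1 + 6 * t + 4 * (κ * s ^ 3) + κ * s ^ 4 := by positivity
  calc (1 + 6 * t + 4 * (κ * s ^ 3) + κ * s ^ 4) ^ (n - 1)
      ≤ (Real.exp (7 * t)) ^ (n - 1) := pow_le_pow_left₀ h4 h3 _
    _ = Real.exp ((n - 1 : ℕ) * (7 * t)) := by rw [← Real.exp_nat_mul]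
    _ ≤ Real.exp (14 * v) := by
        refine Real.exp_le_exp.mpr ?_
        have h5 : ((n - 1 : ℕ) : ℝ) ≤ n := by exact_mod_cast Nat.sub_le n 1
        calc ((n - 1 : ℕ) : ℝ) * (7 * t) ≤ n * (7 * t) :=
              mul_le_mul_of_nonneg_right h5 (by positivity)
          _ = 7 * (t * n) := by ring
          _ = 14 * v := by rw [htn]; ring

/-- An upper bound for the logarithm. -/
lemma log_le_lin (L : ℝ) (hL : 0 < L) : Real.log L ≤ L / 128 + 3.86 := by
  have h1 : Real.log (L / 128) ≤ L / 128 - 1 := Real.log_le_sub_one_of_pos (by positivity)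
  rw [Real.log_div hL.ne' (by norm_num)] at h1
  have h2 : Real.log 128 = 7 * Real.log 2 := by
    rw [show (128:ℝ) = 2 ^ 7 by norm_num, Real.log_pow]; norm_num
  have h3 := Real.log_two_lt_d9
  rw [h2] at h1
  linarith

/-- Splitting of the variance. -/
lemma var_split {p : ℝ} (hp0 : 0 < p) (hp1 : p < 1) (F : (HyperedgeSlot n r → Bool) → ℝ)
    (v : ℕ) :
    var p F ≤ Wt p F (fun S => S ≠ ∅ ∧ (supp vs S).card ≤ v + 1)
      + Wt p F (fun S => v + 2 ≤ (supp vs S).card) := by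
  rw [var_eq hp0 hp1, Finset.sum_filter, Wt_eq, Wt_eq, ← Finset.sum_add_distrib]
  refine Finset.sum_le_sum (fun S _ => ?_)
  by_cases hS : S = ∅
  · subst hS
    simp only [ne_eq, not_true_eq_false, false_and, if_false, zero_add]
    split_ifs
    · exact sq_nonneg _
    · exact le_rfl
  · by_cases hc : (supp vs S).card ≤ v + 1
    · rw [if_pos hS, if_pos ⟨hS, hc⟩]
      have : 0 ≤ (if v + 2 ≤ (supp vs S).card then fc p F S ^ 2 else 0) := by
        split_ifs
        · exact sq_nonneg _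
        · exact le_rfl
      linarith
    · rw [if_pos hS, if_neg (fun h => hc h.2), if_pos (by omega)]
      linarith

/-- The constants: everything needed from Step 2. -/
lemma step2_combined {p : ℝ} (hp0 : 0 < p) (hp1 : p < 1) {b : ℝ} (hb4 : 4 ≤ b)
    (hb : 3 * m4 p ≤ b ^ 2) (F : (HyperedgeSlot n r → Bool) → ℝ)
    (hF : Inv F) (hB : IsBool F) (m k v : ℕ) {s : ℝ} (hs : 0 < s) (hn : 1 ≤ n) (hm : 1 ≤ m)
    (hmv : m * (v + 2) ≤ n)
    (hsa : s ^ 4 ≤ (m : ℝ) - r)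
    (h1 : b ^ k * ((k : ℝ) + 1) ≤ s) (h2 : (k : ℝ) + 1 ≤ 8 * (p * (1 - p)) * s ^ 2) :
    ((v : ℝ) + 2) * ((k : ℝ) + 1) * Wt p F (fun S => v + 2 ≤ (supp vs S).card)
      ≤ 4 * r * (p * (1 - p) * tinf p F) := by
  have hk : (0:ℝ) < (k:ℝ) + 1 := by positivity
  have hm0 : (0:ℝ) < m := by exact_mod_cast hm
  have hn0 : (0:ℝ) < n := by exact_mod_cast hn
  have hmn : m ≤ n := le_trans (Nat.le_mul_of_pos_right m (by omega)) hmv
  obtain ⟨A, hA⟩ : ∃ A : Finset (Fin n), A.card = m := by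
    obtain ⟨A, _, hA⟩ := Finset.exists_subset_card_eq (s := (Finset.univ : Finset (Fin n)))
      (n := m) (by simpa using hmn)
    exact ⟨A, hA⟩
  have hu := step2_upper hp0 hp1 hb4 hb F hF hB A k hs (by rw [hA]; exact hsa) h1 h2
  have hlo := step2_lower p F hF A (v + 2) hn (by rw [hA]; exact hmv)
  rw [hA] at hu hlo
  set Wh := Wt p F (fun S => v + 2 ≤ (supp vs S).card) with hWh
  set Wa := Wt p F (fun S => ¬ Disjoint (supp vs S) A) with hWa
  push_cast at hlo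
  have h3 : (m : ℝ) * ((v:ℝ) + 2) * Wh
      ≤ 2 * (2 * (p * (1 - p)) / ((k : ℝ) + 1) * (m * (r * tinf p F))) := by
    calc (m : ℝ) * ((v:ℝ) + 2) * Wh ≤ 2 * n * Wa := hlo
      _ = 2 * (n * Wa) := by ring
      _ ≤ _ := by linarith
  have h4 : (m : ℝ) * (((v : ℝ) + 2) * ((k : ℝ) + 1) * Wh)
      ≤ m * (4 * r * (p * (1 - p) * tinf p F)) := by
    calc (m : ℝ) * (((v : ℝ) + 2) * ((k : ℝ) + 1) * Wh)
        = ((k : ℝ) + 1) * ((m : ℝ) * ((v:ℝ) + 2) * Wh) := by ring
      _ ≤ ((k : ℝ) + 1) * (2 * (2 * (p * (1 - p)) / ((k : ℝ) + 1) * (m * (r * tinf p F)))) :=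
          mul_le_mul_of_nonneg_left h3 hk.le
      _ = m * (4 * r * (p * (1 - p) * tinf p F)) := by field_simp; ring
  exact le_of_mul_le_mul_left h4 hm0

/-- Numerical facts about the rpow `w = x^(1/(r-1))`. -/
lemma w_facts (r : ℕ) (hr : 2 ≤ r) (x : ℝ) (hx : 0 < x) :
    0 < x ^ ((1:ℝ) / ((r:ℝ) - 1)) ∧ (x ^ ((1:ℝ) / ((r:ℝ) - 1))) ^ (r - 1) = x ∧
    x ^ ((1:ℝ) / ((r:ℝ) - 1)) ≤ 1 + x ∧
    x ^ ((r:ℝ) / ((r:ℝ) - 1)) = x * x ^ ((1:ℝ) / ((r:ℝ) - 1)) := by
  have hr1 : (0:ℝ) < (r:ℝ) - 1 := by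
    have : (2:ℝ) ≤ r := by exact_mod_cast hr
    linarith
  have hrr : ((r - 1 : ℕ) : ℝ) = (r:ℝ) - 1 := by
    rw [Nat.cast_sub (by omega)]; norm_num
  refine ⟨Real.rpow_pos_of_pos hx _, ?_, ?_, ?_⟩
  · rw [← Real.rpow_natCast, ← Real.rpow_mul hx.le, hrr]
    rw [one_div, inv_mul_cancel₀ hr1.ne', Real.rpow_one]
  · rcases le_or_gt x 1 with h | h
    · have : x ^ ((1:ℝ) / ((r:ℝ) - 1)) ≤ 1 := Real.rpow_le_one hx.le h (by positivity)
      linarith
    · have h2 : x ^ ((1:ℝ) / ((r:ℝ) - 1)) ≤ x ^ (1:ℝ) := by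
        refine Real.rpow_le_rpow_of_exponent_le h.le ?_
        rw [div_le_one hr1]
        have : (2:ℝ) ≤ r := by exact_mod_cast hr
        linarith
      rw [Real.rpow_one] at h2
      linarith
  · have : (r:ℝ) / ((r:ℝ) - 1) = 1 + 1 / ((r:ℝ) - 1) := by field_simp; ring
    rw [this, Real.rpow_add hx, Real.rpow_one]

/-- The main inequality. -/
theorem main_ineq (hr : 2 ≤ r) (hn : 2 ≤ n) {p : ℝ} (hp0 : 0 < p) (hp1 : p < 1)
    (F : (HyperedgeSlot n r → Bool) → ℝ) (hF : Inv F) (hB : IsBool F) :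
    var p F ≤ 2 ^ 15 * (r:ℝ) ^ 2 / Real.log n ^ ((r:ℝ) / ((r:ℝ) - 1)) * tinf p F := by
  have hn0 : (0:ℝ) < n := by exact_mod_cast (by omega : 0 < n)
  have hq0 : 0 < 1 - p := by linarith
  have hpq : 0 < p * (1 - p) := mul_pos hp0 hq0
  have hr2 : (2:ℝ) ≤ r := by exact_mod_cast hr
  set L := Real.log n with hLdef
  have hL0 : 0 < L := Real.log_pos (by exact_mod_cast (by omega : 1 < n))
  set ρ := (r:ℝ) / ((r:ℝ) - 1) with hρ
  have hρ1 : 1 ≤ ρ := by rw [hρ, le_div_iff₀ (by linarith)]; linarith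
  have hρ2 : ρ ≤ 2 := by rw [hρ, div_le_iff₀ (by linarith)]; linarith
  set V := var p F with hV
  set I := tinf p F with hI
  have hI0 : 0 ≤ I := tinf_nonneg hp0.le hp1.le F
  have hV4 : V ≤ 1 / 4 := hB.var_le p
  have hpoin : V ≤ p * (1 - p) * I := poincare hp0 hp1 F
  have hLρ0 : 0 < L ^ ρ := Real.rpow_pos_of_pos hL0 _
  by_contra hcon
  push Not at hcon
  -- consequences of the contradiction hypothesis
  have hIpos : 0 < I := by
    rcases hI0.eq_or_lt with h | h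
    · exfalso
      rw [← h] at hcon hpoin
      simp only [mul_zero] at hcon hpoin
      linarith
    · exact h
  have hVpos : 0 < V := lt_of_le_of_lt (by positivity) hcon
  have hCpq : 2 ^ 15 * (r:ℝ) ^ 2 / L ^ ρ < p * (1 - p) :=
    lt_of_mul_lt_mul_right (lt_of_lt_of_le hcon hpoin) hI0
  have hpq4 : p * (1 - p) ≤ 1 / 4 := by nlinarith [sq_nonneg (p - 1 / 2)]
  have hLρ : 2 ^ 17 * (r:ℝ) ^ 2 < L ^ ρ := by
    have h1 : 2 ^ 15 * (r:ℝ) ^ 2 / L ^ ρ < 1 / 4 := lt_of_lt_of_le hCpq hpq4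
    rw [div_lt_iff₀ hLρ0] at h1
    linarith
  have hL1 : 1 < L := by
    by_contra h
    push Not at h
    have : L ^ ρ ≤ 1 := Real.rpow_le_one hL0.le h (by linarith)
    nlinarith
  have hLρL2 : L ^ ρ ≤ L ^ 2 := by
    have := Real.rpow_le_rpow_of_exponent_le hL1.le hρ2
    rwa [Real.rpow_two] at this
  have hL2 : (362 * (r:ℝ)) ^ 2 ≤ L ^ 2 := by nlinarith
  have hLr : 362 * (r:ℝ) ≤ L := le_of_sq_le_sq'' hL0.le hL2
  have hL724 : 724 ≤ L := by linarith
  have hpqL : 1 ≤ L ^ 2 * (p * (1 - p)) := by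
    have h1 : 1 / L ^ 2 ≤ 2 ^ 15 * (r:ℝ) ^ 2 / L ^ ρ := by
      rw [div_le_div_iff₀ (by positivity) hLρ0, one_mul]
      refine le_trans hLρL2 ?_
      have h2 : (1:ℝ) ≤ 2 ^ 15 * (r:ℝ) ^ 2 := by nlinarith only [hr2]
      calc L ^ 2 = 1 * L ^ 2 := by ring
        _ ≤ _ := mul_le_mul_of_nonneg_right h2 (by positivity)
    have h2 : 1 / L ^ 2 ≤ p * (1 - p) := le_trans h1 hCpq.le
    rw [div_le_iff₀ (by positivity)] at h2
    linarith
  -- the bias parameter
  obtain ⟨l, hl0, hlp, hlq, hl2, hpql, hlpq⟩ : ∃ l : ℝ, 0 < l ∧ l ≤ p ∧ l ≤ 1 - p ∧ l ≤ 1 / 2 ∧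
      p * (1 - p) ≤ l ∧ l / 2 ≤ p * (1 - p) := by
    rcases le_or_gt p (1 / 2) with h | h
    · exact ⟨p, hp0, le_refl _, by linarith, h, by nlinarith, by nlinarith⟩
    · exact ⟨1 - p, hq0, by linarith, le_refl _, by linarith, by nlinarith, by nlinarith⟩
  set ℓ := Real.log (1 / l) with hℓ
  have hlog2 := Real.log_two_gt_d9
  have hℓ2 : Real.log 2 ≤ ℓ := by
    refine Real.log_le_log (by norm_num) ?_
    rw [le_div_iff₀ hl0]; linarith
  have hℓ0 : 0 < ℓ := by linarith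
  have hexpℓ : Real.exp ℓ = 1 / l := Real.exp_log (by positivity)
  set x := L / ℓ with hx
  have hx0 : 0 < x := by positivity
  have hxℓ : x * ℓ = L := by rw [hx]; field_simp
  have hxL : x ≤ L / 0.6931 := by
    rw [hx]
    exact div_le_div_of_nonneg_left hL0.le (by norm_num) (by linarith)
  obtain ⟨hw0, hwr, hw1, hwρ⟩ := w_facts r hr x hx0
  set w := x ^ ((1:ℝ) / ((r:ℝ) - 1)) with hw
  set v := ⌊w / 24⌋₊ with hv
  set k := ⌊x / 32⌋₊ with hk
  have hv1 : (v:ℝ) ≤ w / 24 := Nat.floor_le (by positivity)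
  have hv2 : w / 24 < v + 1 := Nat.lt_floor_add_one _
  have hk1 : (k:ℝ) ≤ x / 32 := Nat.floor_le (by positivity)
  have hk2 : x / 32 < k + 1 := Nat.lt_floor_add_one _
  have hv14 : 14 * (v:ℝ) ≤ 0.59 + 0.85 * L := by
    have : x ≤ L / 0.6931 := hxL
    have h1 : 14 * (v:ℝ) ≤ 14 / 24 * (1 + L / 0.6931) := by linarith only [hv1, hw1, this]
    have h2 : L / 0.6931 ≤ 1.443 * L := by
      rw [div_le_iff₀ (by norm_num)]; nlinarith only [hL0]
    linarith only [h1, h2]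
  have hvL : (v:ℝ) ≤ L / 12 := by linarith only [hv14, hL724]
  have hkL : (k:ℝ) ≤ L / 16 := by
    have h2 : L / 0.6931 ≤ 1.443 * L := by
      rw [div_le_iff₀ (by norm_num)]; nlinarith only [hL0]
    linarith only [h2, hxL, hk1, hL0]
  have hnexp : (n:ℝ) = Real.exp L := (Real.exp_log hn0).symm
  have hlogL := log_le_lin L hL0
  -- polynomial versus exponential
  have hexpL : ∀ c : ℝ, 0 ≤ c → ∀ j : ℕ, (j:ℝ) * (L / 128 + 3.86) ≤ c * L →
      L ^ j ≤ Real.exp (c * L) := by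
    intro c hc j hj
    have h1 : L ^ j = Real.exp (j * Real.log L) := by
      rw [Real.exp_nat_mul, Real.exp_log hL0]
    rw [h1]
    refine Real.exp_le_exp.mpr (le_trans ?_ hj)
    exact mul_le_mul_of_nonneg_left hlogL (Nat.cast_nonneg _)
  -- size condition `2 v ≤ n`
  have hL8 : L ≤ Real.exp (L / 8) := by
    have := hexpL (1 / 8) (by norm_num) 1 (by push_cast; linarith only [hL724])
    rw [pow_one] at this
    refine le_trans this (le_of_eq (by ring_nf))
  have hexpmono : Real.exp (L / 8) ≤ Real.exp L := Real.exp_le_exp.mpr (by linarith)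
  have hvn : 2 * v ≤ n := by
    have h1 : (2:ℝ) * v ≤ n := by
      rw [hnexp]
      linarith
    exact_mod_cast h1
  -- Step 1
  have hHH : HH n r v l ≤ Real.exp (14 * v) := by
    refine HH_le n r v hl0 (by omega) hvn ?_
    rcases Nat.eq_zero_or_pos v with h0 | hpos
    · rw [h0]; simp
    · have hv1' : (1:ℝ) ≤ v := by exact_mod_cast hpos
      -- bound on κ
      have hκ : (1 / l) ^ ((2 * v + 1) ^ (r - 1)) ≤ Real.exp (L / 8) := by
        rw [← hexpℓ, ← Real.exp_nat_mul]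
        refine Real.exp_le_exp.mpr ?_
        push_cast
        have h1 : (2 * (v:ℝ) + 1) ^ (r - 1) ≤ (w / 8) ^ (r - 1) := by
          refine pow_le_pow_left₀ (by positivity) ?_ _
          linarith
        have h2 : (w / 8) ^ (r - 1) ≤ x / 8 := by
          rw [div_pow, hwr]
          refine div_le_div_of_nonneg_left hx0.le (by norm_num) ?_
          calc (8:ℝ) = 8 ^ 1 := by norm_num
            _ ≤ 8 ^ (r - 1) := pow_le_pow_right₀ (by norm_num) (by omega)
        calc (2 * (v:ℝ) + 1) ^ (r - 1) * ℓ ≤ x / 8 * ℓ :=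
              mul_le_mul_of_nonneg_right (le_trans h1 h2) hℓ0.le
          _ = L / 8 := by rw [← hxℓ]; ring
      have hs : 5 * Real.sqrt (2 * v / n) ≤ Real.exp (-(L / 8)) := by
        have h1 : Real.sqrt (2 * v / n) ≤ Real.exp (-(L / 8)) / 5 := by
          rw [Real.sqrt_le_iff]
          refine ⟨by positivity, ?_⟩
          rw [div_pow, ← Real.exp_nat_mul, div_le_div_iff₀ hn0 (by norm_num)]
          push_cast
          rw [hnexp, ← Real.exp_add]
          have h2 : 2 * (v:ℝ) * 5 ^ 2 ≤ 50 * L := by linarith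
          have h3 : L ^ 2 ≤ Real.exp (1 / 8 * L) :=
            hexpL (1 / 8) (by norm_num) 2 (by push_cast; linarith only [hL724])
          have h4 : 50 * L ≤ L ^ 2 := by
            rw [sq]; exact mul_le_mul_of_nonneg_right (by linarith only [hL724]) hL0.le
          have h5 : Real.exp (1 / 8 * L) ≤ Real.exp (2 * -(L / 8) + L) :=
            Real.exp_le_exp.mpr (by linarith)
          linarith
        linarith
      calc (1 / l) ^ ((2 * v + 1) ^ (r - 1)) * (5 * Real.sqrt (2 * v / n))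
          ≤ Real.exp (L / 8) * Real.exp (-(L / 8)) :=
            mul_le_mul hκ hs (by positivity) (by positivity)
        _ = 1 := by rw [← Real.exp_add]; simp
  have hs1 := step1 hl0 hlp hlq hr (by omega) F hF hB v hvn
  set Wl := Wt p F (fun S => S ≠ ∅ ∧ (supp vs S).card ≤ v + 1) with hWl
  have hWl0 : 0 ≤ Wl := Wt_nonneg _ _ _
  have hU : (r:ℝ) * (p * (1 - p) * I) ≤ L ^ 2 * V := by
    have h1 : 2 ^ 15 * (r:ℝ) ^ 2 * I < L ^ ρ * V := by
      have := hcon
      rw [div_mul_eq_mul_div, div_lt_iff₀ hLρ0] at this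
      linarith
    have h2 : L ^ ρ * V ≤ L ^ 2 * V := mul_le_mul_of_nonneg_right hLρL2 hVpos.le
    have h3 : (r:ℝ) * (p * (1 - p) * I) ≤ 2 ^ 15 * (r:ℝ) ^ 2 * I := by
      have h4 : (r:ℝ) * (p * (1 - p)) ≤ 2 ^ 15 * (r:ℝ) ^ 2 := by
        have h5 : (r:ℝ) * (p * (1 - p)) ≤ r * (1 / 4) :=
          mul_le_mul_of_nonneg_left hpq4 (by linarith only [hr2])
        nlinarith only [h5, hr2]
      calc (r:ℝ) * (p * (1 - p) * I) = (r:ℝ) * (p * (1 - p)) * I := by ring
        _ ≤ _ := mul_le_mul_of_nonneg_right h4 hI0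
    linarith
  have hlow : Wl ≤ V / 2 := by
    refine le_of_sq_le_sq'' (by positivity) ?_
    refine le_trans hs1 ?_
    rw [div_le_iff₀ hn0]
    have hU0 : 0 ≤ (r:ℝ) * (p * (1 - p) * I) := by positivity
    have h1 : ((r:ℝ) * (p * (1 - p) * I)) ^ 3 ≤ (L ^ 2 * V) ^ 3 := pow_le_pow_left₀ hU0 hU 3
    have hH0 := HH_nonneg n r v hl0
    have h2 : 4 * HH n r v l * ((r:ℝ) * (p * (1 - p) * I)) ^ 3
        ≤ 4 * Real.exp (14 * v) * (L ^ 2 * V) ^ 3 :=
      mul_le_mul (by linarith) h1 (by positivity) (by positivity)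
    refine le_trans h2 ?_
    have h3 : 4 * Real.exp (14 * v) * (L ^ 2 * V) ^ 3
        ≤ Real.exp (14 * v) * L ^ 6 * V ^ 2 := by
      have : 4 * Real.exp (14 * v) * (L ^ 2 * V) ^ 3
          = Real.exp (14 * v) * L ^ 6 * V ^ 2 * (4 * V) := by ring
      rw [this]
      have h5 : 0 ≤ Real.exp (14 * v) * L ^ 6 * V ^ 2 := by positivity
      calc Real.exp (14 * v) * L ^ 6 * V ^ 2 * (4 * V)
          ≤ Real.exp (14 * v) * L ^ 6 * V ^ 2 * 1 :=
            mul_le_mul_of_nonneg_left (by linarith only [hV4]) h5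
        _ = _ := mul_one _
    refine le_trans h3 ?_
    have h4 : 4 * (Real.exp (14 * v) * L ^ 6) ≤ n := by
      have h6 : L ^ 6 ≤ Real.exp (0.08 * L) :=
        hexpL 0.08 (by norm_num) 6 (by push_cast; linarith only [hL724])
      have h7 : (4:ℝ) ≤ Real.exp 2 := by
        have := Real.add_one_le_exp (1:ℝ)
        have e2 : Real.exp 2 = Real.exp 1 * Real.exp 1 := by rw [← Real.exp_add]; norm_num
        rw [e2]; nlinarith only [this]
      calc 4 * (Real.exp (14 * v) * L ^ 6)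
          ≤ Real.exp 2 * (Real.exp (14 * v) * Real.exp (0.08 * L)) := by
            refine mul_le_mul h7 ?_ (by positivity) (by positivity)
            exact mul_le_mul_of_nonneg_left h6 (by positivity)
        _ = Real.exp (2 + (14 * v + 0.08 * L)) := by rw [Real.exp_add, Real.exp_add]
        _ ≤ Real.exp L := Real.exp_le_exp.mpr (by linarith)
        _ = n := hnexp.symm
    calc Real.exp (14 * v) * L ^ 6 * V ^ 2
        = (V / 2) ^ 2 * (4 * (Real.exp (14 * v) * L ^ 6)) := by ring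
      _ ≤ (V / 2) ^ 2 * n := mul_le_mul_of_nonneg_left h4 (by positivity)
  -- Step 2
  set b := Real.sqrt (8 / l) with hbdef
  have hb2 : b ^ 2 = 8 / l := Real.sq_sqrt (by positivity)
  have hb0 : 0 ≤ b := Real.sqrt_nonneg _
  have hb4 : 4 ≤ b := by
    refine le_of_sq_le_sq'' hb0 ?_
    rw [hb2, le_div_iff₀ hl0]; linarith
  have hbm : 3 * m4 p ≤ b ^ 2 := by
    rw [hb2, m4_eq hp0 hp1]
    have h1 : 1 / (p * (1 - p)) ≤ 2 / l := by
      rw [div_le_div_iff₀ hpq hl0]; linarith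
    have h2 : 3 * (2 / l) ≤ 8 / l := by
      rw [mul_div_assoc', div_le_div_iff_of_pos_right hl0]; norm_num
    linarith
  have hbexp : b ≤ Real.exp (2 * ℓ) := by
    refine le_of_sq_le_sq'' (by positivity) ?_
    rw [hb2]
    have h1 : (8:ℝ) ≤ Real.exp (3 * ℓ) := by
      have h2 : (2:ℝ) ≤ Real.exp ℓ := by
        rw [hexpℓ, le_div_iff₀ hl0]; linarith
      have h3 : Real.exp (3 * ℓ) = Real.exp ℓ ^ 3 := by
        rw [← Real.exp_nat_mul]; norm_num
      rw [h3]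
      calc (8:ℝ) = 2 ^ 3 := by norm_num
        _ ≤ _ := pow_le_pow_left₀ (by norm_num) h2 3
    calc 8 / l = 8 * Real.exp ℓ := by rw [hexpℓ]; ring
      _ ≤ Real.exp (3 * ℓ) * Real.exp ℓ := mul_le_mul_of_nonneg_right h1 (by positivity)
      _ = Real.exp (2 * ℓ) ^ 2 := by
          rw [← Real.exp_add, ← Real.exp_nat_mul]; congr 1; push_cast; ring
  set s := Real.exp (L / 8) with hs
  have hs0 : 0 < s := Real.exp_pos _
  have hs4 : s ^ 4 = Real.exp (L / 2) := by
    rw [hs, ← Real.exp_nat_mul]; congr 1; push_cast; ring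
  set m := ⌈Real.exp (L / 2)⌉₊ + r with hm
  have hmr : s ^ 4 ≤ (m:ℝ) - r := by
    rw [hs4, hm]; push_cast
    have := Nat.le_ceil (Real.exp (L / 2))
    linarith
  have hc1 : b ^ k * ((k:ℝ) + 1) ≤ s := by
    have h1 : b ^ k ≤ Real.exp (L / 16) := by
      calc b ^ k ≤ Real.exp (2 * ℓ) ^ k := pow_le_pow_left₀ hb0 hbexp k
        _ = Real.exp (k * (2 * ℓ)) := by rw [← Real.exp_nat_mul]
        _ ≤ Real.exp (L / 16) := by
            refine Real.exp_le_exp.mpr ?_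
            calc (k:ℝ) * (2 * ℓ) ≤ x / 32 * (2 * ℓ) :=
                  mul_le_mul_of_nonneg_right hk1 (by positivity)
              _ = L / 16 := by rw [← hxℓ]; ring
    have h2 : (k:ℝ) + 1 ≤ Real.exp (L / 16) := by
      have := Real.add_one_le_exp (L / 16)
      linarith
    calc b ^ k * ((k:ℝ) + 1) ≤ Real.exp (L / 16) * Real.exp (L / 16) :=
          mul_le_mul h1 h2 (by positivity) (by positivity)
      _ = s := by rw [← Real.exp_add, hs]; congr 1; ring
  have hc2 : (k:ℝ) + 1 ≤ 8 * (p * (1 - p)) * s ^ 2 := by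
    have h1 : s ^ 2 = Real.exp (L / 4) := by
      rw [hs, ← Real.exp_nat_mul]; congr 1; push_cast; ring
    have h2 : L ^ 3 ≤ Real.exp (1 / 4 * L) :=
      hexpL (1 / 4) (by norm_num) 3 (by push_cast; linarith only [hL724])
    have h3 : Real.exp (1 / 4 * L) = s ^ 2 := by rw [h1]; congr 1; ring
    rw [h3] at h2
    calc (k:ℝ) + 1 ≤ L := by linarith
      _ ≤ L * (L ^ 2 * (p * (1 - p))) := by
          have := mul_le_mul_of_nonneg_left hpqL hL0.le
          linarith only [this]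
      _ = (p * (1 - p)) * L ^ 3 := by ring
      _ ≤ (p * (1 - p)) * s ^ 2 := mul_le_mul_of_nonneg_left h2 hpq.le
      _ ≤ 8 * (p * (1 - p)) * s ^ 2 := by
          have : 0 ≤ (p * (1 - p)) * s ^ 2 := by positivity
          linarith
  have hmv : m * (v + 2) ≤ n := by
    have h1 : ((m * (v + 2) : ℕ) : ℝ) ≤ n := by
      push_cast
      have h2 : (m:ℝ) ≤ Real.exp (L / 2) + 1 + r := by
        rw [hm]; push_cast
        have := Nat.ceil_lt_add_one (Real.exp_pos (L / 2)).le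
        linarith
      have h3 : (v:ℝ) + 2 ≤ L := by linarith
      have h5 : L ≤ Real.exp (L / 2) := by
        refine le_trans hL8 (Real.exp_le_exp.mpr (by linarith))
      have h4 : Real.exp (L / 2) + 1 + r ≤ 2 * Real.exp (L / 2) := by
        have : (1:ℝ) + r ≤ L := by linarith
        linarith
      have h6 : 2 * L ≤ Real.exp (L / 2) := by
        have h7 : L ^ 2 ≤ Real.exp (1 / 2 * L) :=
          hexpL (1 / 2) (by norm_num) 2 (by push_cast; linarith only [hL724])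
        have h8 : Real.exp (1 / 2 * L) = Real.exp (L / 2) := by congr 1; ring
        rw [h8] at h7
        refine le_trans ?_ h7
        rw [sq]
        exact mul_le_mul_of_nonneg_right (by linarith only [hL724]) hL0.le
      calc (m:ℝ) * ((v:ℝ) + 2) ≤ (2 * Real.exp (L / 2)) * L :=
            mul_le_mul (le_trans h2 h4) h3 (by positivity) (by positivity)
        _ = Real.exp (L / 2) * (2 * L) := by ring
        _ ≤ Real.exp (L / 2) * Real.exp (L / 2) :=
            mul_le_mul_of_nonneg_left h6 (by positivity)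
        _ = n := by rw [← Real.exp_add, hnexp]; congr 1; ring
    exact_mod_cast h1
  have hst2 := step2_combined hp0 hp1 hb4 hbm F hF hB m k v hs0 (by omega) (by omega) hmv hmr
    hc1 hc2
  set Wh := Wt p F (fun S => v + 2 ≤ (supp vs S).card) with hWh
  have hWh0 : 0 ≤ Wh := Wt_nonneg _ _ _
  have hsplit : V ≤ Wl + Wh := var_split hp0 hp1 F v
  have hVW : V ≤ 2 * Wh := by linarith
  -- conclusion
  have hprod : x ^ ρ / 768 ≤ ((v:ℝ) + 2) * ((k:ℝ) + 1) := by
    rw [hwρ]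
    calc x * w / 768 = (w / 24) * (x / 32) := by ring
      _ ≤ ((v:ℝ) + 2) * ((k:ℝ) + 1) :=
        mul_le_mul (by linarith) hk2.le (by positivity) (by positivity)
  have hfin : x ^ ρ * V ≤ 6144 * r * (p * (1 - p) * I) := by
    have h1 : x ^ ρ / 768 * Wh ≤ 4 * r * (p * (1 - p) * I) :=
      le_trans (mul_le_mul_of_nonneg_right hprod hWh0) hst2
    have h2 : 0 ≤ x ^ ρ := Real.rpow_nonneg hx0.le _
    calc x ^ ρ * V ≤ x ^ ρ * (2 * Wh) := mul_le_mul_of_nonneg_left hVW h2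
      _ = 1536 * (x ^ ρ / 768 * Wh) := by ring
      _ ≤ 1536 * (4 * r * (p * (1 - p) * I)) := mul_le_mul_of_nonneg_left h1 (by norm_num)
      _ = 6144 * r * (p * (1 - p) * I) := by ring
  have hℓρ : l * ℓ ^ ρ ≤ 2 := by
    have h1 : ℓ ^ ρ ≤ 1 + ℓ ^ 2 := by
      rcases le_or_gt ℓ 1 with h | h
      · have : ℓ ^ ρ ≤ 1 := Real.rpow_le_one hℓ0.le h (by linarith only [hρ1])
        linarith only [this, sq_nonneg ℓ]
      · have := Real.rpow_le_rpow_of_exponent_le h.le hρ2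
        rw [Real.rpow_two] at this
        linarith
    have h2 : 1 + ℓ ^ 2 ≤ 2 * (1 / l) := by
      rw [← hexpℓ]
      have := Real.quadratic_le_exp_of_nonneg hℓ0.le
      linarith
    calc l * ℓ ^ ρ ≤ l * (2 * (1 / l)) := mul_le_mul_of_nonneg_left (le_trans h1 h2) hl0.le
      _ = 2 := by field_simp
  have hxρ : x ^ ρ * ℓ ^ ρ = L ^ ρ := by
    rw [← Real.mul_rpow hx0.le hℓ0.le, hxℓ]
  have hℓρ0 : 0 ≤ ℓ ^ ρ := Real.rpow_nonneg hℓ0.le _
  have hgoal : L ^ ρ * V ≤ 2 ^ 15 * (r:ℝ) ^ 2 * I := by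
    calc L ^ ρ * V = ℓ ^ ρ * (x ^ ρ * V) := by rw [← hxρ]; ring
      _ ≤ ℓ ^ ρ * (6144 * r * (p * (1 - p) * I)) := mul_le_mul_of_nonneg_left hfin hℓρ0
      _ = 6144 * r * I * ((p * (1 - p)) * ℓ ^ ρ) := by ring
      _ ≤ 6144 * r * I * (l * ℓ ^ ρ) :=
          mul_le_mul_of_nonneg_left (mul_le_mul_of_nonneg_right hpql hℓρ0) (by positivity)
      _ ≤ 6144 * r * I * 2 := mul_le_mul_of_nonneg_left hℓρ (by positivity)
      _ = 12288 * r * I := by ring
      _ ≤ 2 ^ 15 * (r:ℝ) ^ 2 * I := by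
          refine mul_le_mul_of_nonneg_right ?_ hI0
          nlinarith only [hr2]
  have : V ≤ 2 ^ 15 * (r:ℝ) ^ 2 / L ^ ρ * I := by
    rw [div_mul_eq_mul_div, le_div_iff₀ hLρ0]
    linarith
  linarith

end Crest.Agent.Row56
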