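import Crest.Agent.Row56.Bonami

/-! The four-function overlap inequality, and the hypercontractive inequality for functions
supported on few vertices. -/

set_option autoImplicit false
set_option linter.unusedSectionVars false

namespace Crest.Agent.Row56

open Finset Crest.FinProb

lemma two_cs {p : ℝ} (hp0 : 0 ≤ p) (hp1 : p ≤ 1) (a b c d : ℝ) :
    p * (a * b) + (1 - p) * (c * d)
      ≤ Real.sqrt (p * a ^ 2 + (1 - p) * c ^ 2) * Real.sqrt (p * b ^ 2 + (1 - p) * d ^ 2) := by
  have h1 : 0 ≤ 1 - p := by linarith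
  rw [← Real.sqrt_mul (by positivity)]
  refine Real.le_sqrt_of_sq_le ?_
  nlinarith [mul_nonneg (mul_nonneg hp0 h1) (sq_nonneg (a * d - b * c))]

/-- The two-point inequality, light coordinate. -/
lemma two_point_light {p : ℝ} (hp0 : 0 ≤ p) (hp1 : p ≤ 1) (u v : Fin 4 → ℝ)
    (hu : ∀ k, 0 ≤ u k) (hv : ∀ k, 0 ≤ v k) (j k : Fin 4) (hjk : j ≠ k)
    (hj : u j = v j) (hk : u k = v k) :
    p * ∏ i, u i + (1 - p) * ∏ i, v i
      ≤ ∏ i, Real.sqrt (p * u i ^ 2 + (1 - p) * v i ^ 2) := by
  have hs : ∀ i, u i = v i → Real.sqrt (p * u i ^ 2 + (1 - p) * v i ^ 2) = u i := by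
    intro i hi
    rw [← hi, ← add_mul]
    have : p + (1 - p) = 1 := by ring
    rw [this, one_mul, Real.sqrt_sq (hu i)]
  have gen : ∀ a b c d : Fin 4, u a = v a → u b = v b →
      p * (u a * u b * (u c * u d)) + (1 - p) * (v a * v b * (v c * v d))
      ≤ Real.sqrt (p * u a ^ 2 + (1 - p) * v a ^ 2) * Real.sqrt (p * u b ^ 2 + (1 - p) * v b ^ 2)
        * (Real.sqrt (p * u c ^ 2 + (1 - p) * v c ^ 2)
          * Real.sqrt (p * u d ^ 2 + (1 - p) * v d ^ 2)) := by
    intro a b c d ha hb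
    rw [hs a ha, hs b hb, ← ha, ← hb]
    have h1 := two_cs hp0 hp1 (u c) (u d) (v c) (v d)
    calc p * (u a * u b * (u c * u d)) + (1 - p) * (u a * u b * (v c * v d))
        = u a * u b * (p * (u c * u d) + (1 - p) * (v c * v d)) := by ring
      _ ≤ _ := mul_le_mul_of_nonneg_left h1 (mul_nonneg (hu a) (hu b))
  simp only [Fin.prod_univ_four]
  fin_cases j <;> fin_cases k
  · exact absurd rfl hjk
  · refine le_trans (le_of_eq ?_) (le_trans (gen 0 1 2 3 hj hk) (le_of_eq ?_)) <;> ring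
  · refine le_trans (le_of_eq ?_) (le_trans (gen 0 2 1 3 hj hk) (le_of_eq ?_)) <;> ring
  · refine le_trans (le_of_eq ?_) (le_trans (gen 0 3 1 2 hj hk) (le_of_eq ?_)) <;> ring
  · refine le_trans (le_of_eq ?_) (le_trans (gen 1 0 2 3 hj hk) (le_of_eq ?_)) <;> ring
  · exact absurd rfl hjk
  · refine le_trans (le_of_eq ?_) (le_trans (gen 1 2 0 3 hj hk) (le_of_eq ?_)) <;> ring
  · refine le_trans (le_of_eq ?_) (le_trans (gen 1 3 0 2 hj hk) (le_of_eq ?_)) <;> ring
  · refine le_trans (le_of_eq ?_) (le_trans (gen 2 0 1 3 hj hk) (le_of_eq ?_)) <;> ring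
  · refine le_trans (le_of_eq ?_) (le_trans (gen 2 1 0 3 hj hk) (le_of_eq ?_)) <;> ring
  · exact absurd rfl hjk
  · refine le_trans (le_of_eq ?_) (le_trans (gen 2 3 0 1 hj hk) (le_of_eq ?_)) <;> ring
  · refine le_trans (le_of_eq ?_) (le_trans (gen 3 0 1 2 hj hk) (le_of_eq ?_)) <;> ring
  · refine le_trans (le_of_eq ?_) (le_trans (gen 3 1 0 2 hj hk) (le_of_eq ?_)) <;> ring
  · refine le_trans (le_of_eq ?_) (le_trans (gen 3 2 0 1 hj hk) (le_of_eq ?_)) <;> ring
  · exact absurd rfl hjk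

/-- The two-point inequality, heavy coordinate. -/
lemma two_point_heavy {p l : ℝ} (hl : 0 < l) (hlp : l ≤ p) (hlq : l ≤ 1 - p) (u v : Fin 4 → ℝ)
    (hu : ∀ k, 0 ≤ u k) (hv : ∀ k, 0 ≤ v k) :
    p * ∏ i, u i + (1 - p) * ∏ i, v i
      ≤ (1 / l) * ∏ i, Real.sqrt (p * u i ^ 2 + (1 - p) * v i ^ 2) := by
  have hp0 : 0 ≤ p := by linarith
  have hp1 : p ≤ 1 := by linarith
  set N : Fin 4 → ℝ := fun i => Real.sqrt (p * u i ^ 2 + (1 - p) * v i ^ 2) with hN
  have hNn : ∀ i, 0 ≤ N i := fun i => Real.sqrt_nonneg _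
  have hsl : 0 < Real.sqrt l := Real.sqrt_pos.mpr hl
  have hu' : ∀ i, Real.sqrt l * u i ≤ N i := by
    intro i
    refine Real.le_sqrt_of_sq_le ?_
    rw [mul_pow, Real.sq_sqrt hl.le]
    have h1 : l * u i ^ 2 ≤ p * u i ^ 2 := mul_le_mul_of_nonneg_right hlp (sq_nonneg _)
    have h2 : 0 ≤ (1 - p) * v i ^ 2 := mul_nonneg (by linarith) (sq_nonneg _)
    linarith
  have hv' : ∀ i, Real.sqrt l * v i ≤ N i := by
    intro i
    refine Real.le_sqrt_of_sq_le ?_
    rw [mul_pow, Real.sq_sqrt hl.le]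
    have h1 : l * v i ^ 2 ≤ (1 - p) * v i ^ 2 := mul_le_mul_of_nonneg_right hlq (sq_nonneg _)
    have h2 : 0 ≤ p * u i ^ 2 := mul_nonneg (by linarith) (sq_nonneg _)
    linarith
  have hu2 : u 2 * u 3 ≤ (1 / l) * (N 2 * N 3) := by
    rw [div_mul_eq_mul_div, one_mul, le_div_iff₀ hl]
    calc u 2 * u 3 * l = (Real.sqrt l * u 2) * (Real.sqrt l * u 3) := by
          have := Real.mul_self_sqrt hl.le
          calc u 2 * u 3 * l = u 2 * u 3 * (Real.sqrt l * Real.sqrt l) := by rw [this]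
            _ = _ := by ring
      _ ≤ N 2 * N 3 := mul_le_mul (hu' 2) (hu' 3) (mul_nonneg hsl.le (hu 3)) (hNn 2)
  have hv2 : v 2 * v 3 ≤ (1 / l) * (N 2 * N 3) := by
    rw [div_mul_eq_mul_div, one_mul, le_div_iff₀ hl]
    calc v 2 * v 3 * l = (Real.sqrt l * v 2) * (Real.sqrt l * v 3) := by
          have := Real.mul_self_sqrt hl.le
          calc v 2 * v 3 * l = v 2 * v 3 * (Real.sqrt l * Real.sqrt l) := by rw [this]
            _ = _ := by ring
      _ ≤ N 2 * N 3 := mul_le_mul (hv' 2) (hv' 3) (mul_nonneg hsl.le (hv 3)) (hNn 2)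
  have hcs := two_cs hp0 hp1 (u 0) (u 1) (v 0) (v 1)
  have hNN : 0 ≤ (1 / l) * (N 2 * N 3) := by
    have := hNn 2; have := hNn 3; positivity
  simp only [Fin.prod_univ_four]
  calc p * (u 0 * u 1 * u 2 * u 3) + (1 - p) * (v 0 * v 1 * v 2 * v 3)
      = p * (u 0 * u 1) * (u 2 * u 3) + (1 - p) * (v 0 * v 1) * (v 2 * v 3) := by ring
    _ ≤ p * (u 0 * u 1) * ((1 / l) * (N 2 * N 3))
        + (1 - p) * (v 0 * v 1) * ((1 / l) * (N 2 * N 3)) := by
        have a1 : 0 ≤ p * (u 0 * u 1) := mul_nonneg hp0 (mul_nonneg (hu 0) (hu 1))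
        have a2 : 0 ≤ (1 - p) * (v 0 * v 1) :=
          mul_nonneg (by linarith) (mul_nonneg (hv 0) (hv 1))
        have := mul_le_mul_of_nonneg_left hu2 a1
        have := mul_le_mul_of_nonneg_left hv2 a2
        linarith
    _ = (p * (u 0 * u 1) + (1 - p) * (v 0 * v 1)) * ((1 / l) * (N 2 * N 3)) := by ring
    _ ≤ (N 0 * N 1) * ((1 / l) * (N 2 * N 3)) := mul_le_mul_of_nonneg_right hcs hNN
    _ = (1 / l) * (N 0 * N 1 * N 2 * N 3) := by ring

variable {ι : Type*} [Fintype ι] [DecidableEq ι]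

/-- The heavy coordinates: those lying in at least three of the four sets. -/
def heavy (E : Fin 4 → Finset ι) : Finset ι :=
  Finset.univ.filter (fun e => 3 ≤ (Finset.univ.filter (fun k => e ∈ E k)).card)

lemma av_update {p : ℝ} (F : Finset ι) (e : ι) (he : e ∉ F) (f : (ι → Bool) → ℝ)
    (hf : ∀ x b, f (Function.update x e b) = f x) (x : ι → Bool) (b : Bool) :
    av p F f (Function.update x e b) = av p F f x := by
  unfold av
  refine Ex_congr (fun y => ?_)
  have : F.piecewise y (Function.update x e b) = Function.update (F.piecewise y x) e b := by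
    funext i
    by_cases hi : i = e
    · subst hi; simp [Finset.piecewise, he]
    · by_cases hF : i ∈ F <;> simp [Finset.piecewise, hi, hF]
  rw [this, hf]

lemma av_nonneg {p : ℝ} (hp0 : 0 ≤ p) (hp1 : p ≤ 1) (F : Finset ι) {f : (ι → Bool) → ℝ}
    (hf : ∀ x, 0 ≤ f x) (x : ι → Bool) : 0 ≤ av p F f x :=
  Ex_nonneg hp0 hp1 (fun _ => hf _)

lemma overlap_aux {p l : ℝ} (hl : 0 < l) (hl1 : l ≤ 1) (hlp : l ≤ p) (hlq : l ≤ 1 - p)
    (g : Fin 4 → (ι → Bool) → ℝ) (E : Fin 4 → Finset ι)
    (hdep : ∀ k e, e ∉ E k → ∀ x b, g k (Function.update x e b) = g k x) (F : Finset ι) :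
    ∀ x, av p F (fun y => |∏ k, g k y|) x
      ≤ (1 / l) ^ (F ∩ heavy E).card * ∏ k, Real.sqrt (av p F (fun y => g k y ^ 2) x) := by
  have hp0 : 0 ≤ p := by linarith
  have hp1 : p ≤ 1 := by linarith
  induction F using Finset.induction_on with
  | empty =>
    intro x
    simp only [av_empty, Finset.empty_inter, Finset.card_empty, pow_zero, one_mul]
    rw [Finset.abs_prod]
    refine le_of_eq (Finset.prod_congr rfl (fun k _ => ?_))
    rw [Real.sqrt_sq_eq_abs]
  | @insert e F he ih =>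
    intro x
    rw [av_insert p F e he]
    set x1 := Function.update x e true with hx1
    set x0 := Function.update x e false with hx0
    set u : Fin 4 → ℝ := fun k => Real.sqrt (av p F (fun y => g k y ^ 2) x1) with hu
    set v : Fin 4 → ℝ := fun k => Real.sqrt (av p F (fun y => g k y ^ 2) x0) with hv
    have hun : ∀ k, 0 ≤ u k := fun k => Real.sqrt_nonneg _
    have hvn : ∀ k, 0 ≤ v k := fun k => Real.sqrt_nonneg _
    have hnorm : ∀ k, Real.sqrt (av p (insert e F) (fun y => g k y ^ 2) x)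
        = Real.sqrt (p * u k ^ 2 + (1 - p) * v k ^ 2) := by
      intro k
      rw [av_insert p F e he, hu, hv]
      simp only
      rw [Real.sq_sqrt (av_nonneg hp0 hp1 F (fun y => sq_nonneg _) _),
        Real.sq_sqrt (av_nonneg hp0 hp1 F (fun y => sq_nonneg _) _)]
    simp only [hnorm]
    have hl1' : 1 ≤ 1 / l := by
      rw [le_div_iff₀ hl]; linarith
    have hC : 0 ≤ (1 / l) ^ (F ∩ heavy E).card := by positivity
    have hstep : p * av p F (fun y => |∏ k, g k y|) x1
        + (1 - p) * av p F (fun y => |∏ k, g k y|) x0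
        ≤ (1 / l) ^ (F ∩ heavy E).card * (p * ∏ k, u k + (1 - p) * ∏ k, v k) := by
      have h1 := mul_le_mul_of_nonneg_left (ih x1) hp0
      have h0 := mul_le_mul_of_nonneg_left (ih x0) (by linarith : 0 ≤ 1 - p)
      calc _ ≤ p * ((1 / l) ^ (F ∩ heavy E).card * ∏ k, u k)
            + (1 - p) * ((1 / l) ^ (F ∩ heavy E).card * ∏ k, v k) := by linarith
        _ = _ := by ring
    refine le_trans hstep ?_
    by_cases hheavy : e ∈ heavy E
    · have hcard : (insert e F ∩ heavy E).card = (F ∩ heavy E).card + 1 := by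
        rw [Finset.insert_inter_of_mem hheavy, Finset.card_insert_of_notMem]
        intro h; exact he (Finset.mem_inter.mp h).1
      rw [hcard, pow_succ, mul_assoc]
      exact mul_le_mul_of_nonneg_left (two_point_heavy hl hlp hlq u v hun hvn) hC
    · have hcard : (insert e F ∩ heavy E).card = (F ∩ heavy E).card := by
        rw [Finset.insert_inter_of_notMem hheavy]
      rw [hcard]
      refine mul_le_mul_of_nonneg_left ?_ hC
      -- at least two indices do not see `e`
      have hc : 2 ≤ (Finset.univ.filter (fun k : Fin 4 => e ∉ E k)).card := by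
        have h1 : ¬ 3 ≤ (Finset.univ.filter (fun k : Fin 4 => e ∈ E k)).card := by
          intro h; exact hheavy (by unfold heavy; simp [h])
        have h2 := Finset.card_filter_add_card_filter_not (s := (Finset.univ : Finset (Fin 4)))
          (fun k => e ∈ E k)
        simp only [Finset.card_univ, Fintype.card_fin] at h2
        omega
      obtain ⟨j, hj, k, hk, hjk⟩ := Finset.one_lt_card.mp (by omega :
        1 < (Finset.univ.filter (fun k : Fin 4 => e ∉ E k)).card)
      simp only [Finset.mem_filter, Finset.mem_univ, true_and] at hj hk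
      have hindep : ∀ k, e ∉ E k → u k = v k := by
        intro k hk
        simp only [hu, hv, hx1, hx0]
        rw [av_update F e he _ (fun x b => by rw [hdep k e hk]),
          av_update F e he _ (fun x b => by rw [hdep k e hk])]
      exact two_point_light hp0 hp1 u v hun hvn j k hjk (hindep j hj) (hindep k hk)

/-- The four-function overlap inequality. -/
lemma overlap {p l : ℝ} (hl : 0 < l) (hl1 : l ≤ 1) (hlp : l ≤ p) (hlq : l ≤ 1 - p)
    (g : Fin 4 → (ι → Bool) → ℝ) (E : Fin 4 → Finset ι)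
    (hdep : ∀ k e, e ∉ E k → ∀ x b, g k (Function.update x e b) = g k x) :
    |Ex p (fun x => ∏ k, g k x)|
      ≤ (1 / l) ^ (heavy E).card * ∏ k, Real.sqrt (Ex p (fun x => g k x ^ 2)) := by
  have hp0 : 0 ≤ p := by linarith
  have hp1 : p ≤ 1 := by linarith
  have h := overlap_aux hl hl1 hlp hlq g E hdep Finset.univ (fun _ => true)
  simp only [av_univ, Finset.univ_inter] at h
  refine le_trans ?_ h
  rw [abs_le]
  constructor
  · have : -Ex p (fun x => |∏ k, g k x|) = Ex p (fun x => (-1) * |∏ k, g k x|) := by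
      rw [Ex_const_mul]; ring
    rw [this]
    refine Ex_mono hp0 hp1 (fun x => ?_)
    have := neg_abs_le (∏ k, g k x)
    linarith
  · exact Ex_mono hp0 hp1 (fun x => le_abs_self _)

/-- If `R` does not depend on `e`, its coefficients at sets containing `e` vanish. -/
lemma fc_eq_zero_of_indep {p : ℝ} (hp0 : 0 < p) (hp1 : p < 1) (R : (ι → Bool) → ℝ) (e : ι)
    (hR : ∀ x b, R (Function.update x e b) = R x) (S : Finset ι) (he : e ∈ S) :
    fc p R S = 0 := by
  unfold fc
  have h1 : (fun x => R x * chi p S x) = fun x => ch p (x e) * (R x * chi p (S.erase e) x) := by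
    funext x
    rw [chi_of_mem p S e he]; ring
  rw [h1, Ex_coord_mul p e (fun b => ch p b) (fun x => R x * chi p (S.erase e) x)
    (fun x b => by rw [hR, chi_update_of_not_mem p _ e (Finset.notMem_erase e S)]),
    ch_mean hp0 hp1, zero_mul]

lemma Ex_proj_mul_eq_zero {p : ℝ} (hp0 : 0 < p) (hp1 : p < 1) (P : Finset ι → Prop)
    [DecidablePred P] (f R : (ι → Bool) → ℝ)
    (hR : ∀ S, P S → ∃ e ∈ S, ∀ x b, R (Function.update x e b) = R x) :
    Ex p (fun x => proj p P f x * R x) = 0 := by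
  rw [parseval hp0 hp1]
  refine Finset.sum_eq_zero (fun S _ => ?_)
  rw [fc_proj hp0 hp1]
  split_ifs with h
  · obtain ⟨e, he, hRe⟩ := hR S h
    rw [fc_eq_zero_of_indep hp0 hp1 R e hRe S he, mul_zero]
  · rw [zero_mul]

lemma proj_indep {p : ℝ} (P : Finset ι → Prop) [DecidablePred P] (f : (ι → Bool) → ℝ) (e : ι)
    (hP : ∀ S, P S → e ∉ S) (x : ι → Bool) (b : Bool) :
    proj p P f (Function.update x e b) = proj p P f x := by
  unfold proj
  refine Finset.sum_congr rfl (fun S hS => ?_)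
  simp only [Finset.mem_filter, Finset.mem_univ, true_and] at hS
  rw [chi_update_of_not_mem p S e (hP S hS)]

end Crest.Agent.Row56
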