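import Crest.Agent.Row56.Bridge

/-! Russo's formula and integration of the differential inequality. -/

set_option autoImplicit false
set_option linter.unusedSectionVars false
set_option linter.unusedVariables false

namespace Crest.Agent.Row56

open Finset Crest.FinProb

variable {ι : Type*} [Fintype ι] [DecidableEq ι]

/-- Russo's formula. -/
lemma russo {p : ℝ} (hp0 : 0 < p) (hp1 : p < 1) (F : (ι → Bool) → ℝ) :
    HasDerivAt (fun p => Ex p F) (∑ e, Ex p (D e F)) p := by
  have hq0 : 0 < 1 - p := by linarith
  have hpq : 0 < p * (1 - p) := mul_pos hp0 hq0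
  have hcoord : ∀ b : Bool, HasDerivAt (fun p : ℝ => if b then p else 1 - p)
      (if b then 1 else -1) p := by
    intro b
    cases b
    · simpa using (hasDerivAt_id' p).const_sub 1
    · simpa using hasDerivAt_id' p
  have hw : ∀ x : ι → Bool, HasDerivAt (fun p => bernoulliWeight p x)
      (∑ i, (∏ j ∈ Finset.univ.erase i, if x j then p else 1 - p) • (if x i then (1:ℝ) else -1))
      p := by
    intro x
    unfold bernoulliWeight
    exact HasDerivAt.fun_finsetProd (fun i _ => hcoord (x i))
  have hEx : HasDerivAt (fun p => Ex p F)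
      (∑ x : ι → Bool, (∑ i, (∏ j ∈ Finset.univ.erase i, if x j then p else 1 - p) •
        (if x i then (1:ℝ) else -1)) * F x) p := by
    unfold Ex
    exact HasDerivAt.fun_sum (fun x _ => (hw x).mul_const (F x))
  convert hEx using 1
  -- each term
  have hterm : ∀ x : ι → Bool, ∀ i, (∏ j ∈ Finset.univ.erase i, if x j then p else 1 - p) •
      (if x i then (1:ℝ) else -1)
      = bernoulliWeight p x * ((1 / Real.sqrt (p * (1 - p))) * ch p (x i)) := by
    intro x i
    have h1 : bernoulliWeight p x = (if x i then p else 1 - p) *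
        ∏ j ∈ Finset.univ.erase i, (if x j then p else 1 - p) := by
      unfold bernoulliWeight
      rw [Finset.mul_prod_erase Finset.univ (fun j => if x j then p else 1 - p)
        (Finset.mem_univ i)]
    have h2 : (if x i then p else 1 - p) * ((1 / Real.sqrt (p * (1 - p))) * ch p (x i))
        = if x i then (1:ℝ) else -1 := by
      rw [← ch_diff hp0 hp1]
      have h3 := ch_true_mul_false hp0 hp1
      have h4 := ch_true_sq hp0 hp1
      have h5 := ch_false_sq hp0 hp1
      cases x i
      · simp only [Bool.false_eq_true, if_false]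
        have : (1 - p) * ((ch p true - ch p false) * ch p false)
            = (1 - p) * (ch p true * ch p false) - (1 - p) * ch p false ^ 2 := by ring
        rw [this, h3, h5]
        field_simp
        ring
      · simp only [if_true]
        have : p * ((ch p true - ch p false) * ch p true)
            = p * ch p true ^ 2 - p * (ch p true * ch p false) := by ring
        rw [this, h3, h4]
        field_simp
        ring
    rw [h1, smul_eq_mul, ← h2]
    ring
  simp only [hterm]
  simp only [Finset.sum_mul]
  rw [Finset.sum_comm]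
  refine Finset.sum_congr rfl (fun e _ => ?_)
  rw [← fc_empty, fc_D hp0 hp1, if_neg (Finset.notMem_empty e)]
  unfold fc Ex
  rw [Finset.mul_sum]
  refine Finset.sum_congr rfl (fun x _ => ?_)
  have : chi p (insert e ∅) x = ch p (x e) := by
    unfold chi; simp
  simp only [this]
  ring

/-- Integration of the differential inequality. -/
lemma threshold {F : (ι → Bool) → ℝ} (hB : IsBool F)
    (hmono : ∀ e x, F (Function.update x e false) ≤ F (Function.update x e true))
    (hne : ∃ x, F x = 1) (hnu : ∃ x, F x = 0) {K ε p q : ℝ} (hK : 0 < K)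
    (hineq : ∀ s, 0 < s → s < 1 → K * var s F ≤ tinf s F)
    (hε0 : 0 < ε) (hε : ε < 1 / 2) (hp0 : 0 < p) (hpq : p ≤ q) (hq1 : q < 1)
    (hp : ε ≤ Ex p F) (hq : p + 4 / K * Real.log (1 / (2 * ε)) ≤ q) :
    1 - ε ≤ Ex q F := by
  have hDD : ∀ e x, D e F x ^ 2 = D e F x := by
    intro e x
    have h := hmono e x
    unfold D
    rcases hB (Function.update x e true) with h1 | h1 <;>
      rcases hB (Function.update x e false) with h2 | h2 <;> rw [h1, h2] at h ⊢
    · norm_num
    · norm_num at h
    · norm_num
    · norm_num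
  have hμpos : ∀ s, 0 < s → s < 1 → 0 < Ex s F := by
    intro s hs0 hs1
    obtain ⟨x, hx⟩ := hne
    unfold Ex
    refine Finset.sum_pos' (fun y _ => mul_nonneg (wt_nonneg hs0.le hs1.le y) (hB.nonneg y))
      ⟨x, Finset.mem_univ x, ?_⟩
    rw [hx, mul_one]
    exact wt_pos hs0 hs1 x
  have hμlt : ∀ s, 0 < s → s < 1 → Ex s F < 1 := by
    intro s hs0 hs1
    obtain ⟨x, hx⟩ := hnu
    have h1 : 0 < Ex s (fun y => 1 - F y) := by
      unfold Ex
      refine Finset.sum_pos' (fun y _ => mul_nonneg (wt_nonneg hs0.le hs1.le y) ?_)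
        ⟨x, Finset.mem_univ x, ?_⟩
      · simp only
        rcases hB y with h | h <;> rw [h] <;> norm_num
      · simp only
        rw [hx, sub_zero, mul_one]
        exact wt_pos hs0 hs1 x
    rw [Ex_sub, Ex_const] at h1
    linarith
  have hder : ∀ s, 0 < s → s < 1 → HasDerivAt (fun s => Ex s F) (tinf s F) s := by
    intro s hs0 hs1
    have h := russo hs0 hs1 F
    have h2 : ∑ e, Ex s (D e F) = tinf s F := by
      unfold tinf inf
      refine Finset.sum_congr rfl (fun e _ => Ex_congr (fun x => (hDD e x).symm))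
    rwa [h2] at h
  -- the logit
  set G : ℝ → ℝ := fun s => Real.log (Ex s F) - Real.log (1 - Ex s F) - K * s with hG
  have hGder : ∀ s, 0 < s → s < 1 → HasDerivAt G
      (tinf s F / Ex s F - (-(tinf s F)) / (1 - Ex s F) - K) s := by
    intro s hs0 hs1
    have h1 := (hder s hs0 hs1).log (hμpos s hs0 hs1).ne'
    have h2 := ((hder s hs0 hs1).const_sub 1).log (by linarith [hμlt s hs0 hs1] : 1 - Ex s F ≠ 0)
    have h3 : HasDerivAt (fun s : ℝ => K * s) K s := by
      simpa using (hasDerivAt_id s).const_mul K
    exact (h1.sub h2).sub h3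
  have hGmono : MonotoneOn G (Set.Icc p q) := by
    refine monotoneOn_of_deriv_nonneg (convex_Icc p q) ?_ ?_ ?_
    · intro s hs
      have hs0 : 0 < s := lt_of_lt_of_le hp0 hs.1
      have hs1 : s < 1 := lt_of_le_of_lt hs.2 hq1
      exact (hGder s hs0 hs1).continuousAt.continuousWithinAt
    · intro s hs
      rw [interior_Icc] at hs
      have hs0 : 0 < s := lt_trans hp0 hs.1
      have hs1 : s < 1 := lt_trans hs.2 hq1
      exact (hGder s hs0 hs1).differentiableAt.differentiableWithinAt
    · intro s hs
      rw [interior_Icc] at hs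
      have hs0 : 0 < s := lt_trans hp0 hs.1
      have hs1 : s < 1 := lt_trans hs.2 hq1
      rw [(hGder s hs0 hs1).deriv]
      have h1 := hμpos s hs0 hs1
      have h2 := hμlt s hs0 hs1
      have h2' : 0 < 1 - Ex s F := by linarith
      have h3 := hineq s hs0 hs1
      rw [hB.var_eq] at h3
      have h4 : tinf s F / Ex s F - (-(tinf s F)) / (1 - Ex s F)
          = tinf s F / (Ex s F * (1 - Ex s F)) := by
        field_simp
        ring
      rw [h4, sub_nonneg, le_div_iff₀ (mul_pos h1 h2')]
      exact h3
  have hGpq : G p ≤ G q := hGmono (Set.left_mem_Icc.mpr hpq) (Set.right_mem_Icc.mpr hpq) hpq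
  by_contra hcon
  push Not at hcon
  have hq0 : 0 < q := lt_of_lt_of_le hp0 hpq
  have hp1 : p < 1 := lt_of_le_of_lt hpq hq1
  simp only [hG] at hGpq
  have m1 := hμpos q hq0 hq1
  have m2 := hμlt q hq0 hq1
  have m3 := hμpos p hp0 hp1
  have m4 := hμlt p hp0 hp1
  have l1 : Real.log ε ≤ Real.log (Ex p F) := Real.log_le_log hε0 hp
  have l2 : Real.log (1 - Ex p F) ≤ Real.log (1 - ε) :=
    Real.log_le_log (by linarith) (by linarith)
  have l3 : Real.log (Ex q F) ≤ Real.log (1 - ε) := Real.log_le_log m1 hcon.le
  have l4 : Real.log ε < Real.log (1 - Ex q F) := Real.log_lt_log hε0 (by linarith)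
  have l5 : 4 * Real.log (1 / (2 * ε)) ≤ K * (q - p) := by
    have h5 : 4 / K * Real.log (1 / (2 * ε)) ≤ q - p := by linarith
    have h6 := mul_le_mul_of_nonneg_left h5 hK.le
    have h7 : K * (4 / K * Real.log (1 / (2 * ε))) = 4 * Real.log (1 / (2 * ε)) := by
      field_simp
    linarith
  have l6 : 2 * (Real.log (1 - ε) - Real.log ε) ≤ 4 * Real.log (1 / (2 * ε)) := by
    have h1 : Real.log (1 / (2 * ε)) = - (Real.log 2 + Real.log ε) := by
      rw [one_div, Real.log_inv, Real.log_mul (by norm_num) hε0.ne']
    rw [h1]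
    -- log (1-ε) + log ε + 2 log 2 ≤ 0
    have h2 : Real.log (4 * (ε * (1 - ε))) ≤ 0 := by
      refine Real.log_nonpos ?_ ?_
      · have : 0 ≤ 1 - ε := by linarith
        positivity
      · nlinarith [sq_nonneg (2 * ε - 1)]
    rw [Real.log_mul (by norm_num) (by
      have : 0 < 1 - ε := by linarith
      positivity), Real.log_mul hε0.ne' (by linarith)] at h2
    have h3 : Real.log 4 = 2 * Real.log 2 := by
      rw [show (4:ℝ) = 2 ^ 2 by norm_num, Real.log_pow]; norm_num
    rw [h3] at h2
    linarith
  linarith

end Crest.Agent.Row56
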