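import Crest.Agent.Row56.Sym

/-! Step 1: the Fourier weight of an invariant Boolean function on few vertices is small. -/

set_option autoImplicit false
set_option linter.unusedSectionVars false
set_option linter.unusedVariables false

namespace Crest.Agent.Row56

open Finset Crest.FinProb

section gen

variable {ι : Type*} [Fintype ι] [DecidableEq ι]

lemma proj_add_proj_not {p : ℝ} (hp0 : 0 < p) (hp1 : p < 1) (P : Finset ι → Prop)
    [DecidablePred P] (f : (ι → Bool) → ℝ) (x : ι → Bool) :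
    proj p P f x + proj p (fun S => ¬ P S) f x = f x := by
  unfold proj
  rw [Finset.sum_filter_add_sum_filter_not, ← expansion hp0 hp1 f x]

lemma proj_proj {p : ℝ} (hp0 : 0 < p) (hp1 : p < 1) (P Q : Finset ι → Prop)
    [DecidablePred P] [DecidablePred Q] (h : ∀ S, P S → Q S) (f : (ι → Bool) → ℝ) :
    proj p P (proj p Q f) = proj p P f := by
  funext x
  unfold proj
  refine Finset.sum_congr rfl (fun S hS => ?_)
  simp only [Finset.mem_filter, Finset.mem_univ, true_and] at hS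
  have := fc_proj hp0 hp1 Q f S
  rw [if_pos (h S hS)] at this
  unfold proj at this
  rw [this]

lemma av_le_one {p : ℝ} (hp0 : 0 ≤ p) (hp1 : p ≤ 1) (G : Finset ι) {F : (ι → Bool) → ℝ}
    (hF : IsBool F) (x : ι → Bool) : av p G F x ≤ 1 := by
  have h1 : av p G F x ≤ Ex p (fun _ : ι → Bool => (1:ℝ)) := by
    refine Ex_mono hp0 hp1 (fun y => ?_)
    rcases hF (G.piecewise y x) with h | h <;> rw [h] <;> norm_num
  rwa [Ex_const] at h1

lemma IsBool.nonneg {F : (ι → Bool) → ℝ} (hF : IsBool F) (x : ι → Bool) : 0 ≤ F x := by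
  rcases hF x with h | h <;> rw [h] <;> norm_num

/-- For a Boolean function, the `L¹` norm of `F - av F` is twice its second moment. -/
lemma L1_identity {p : ℝ} (hp0 : 0 < p) (hp1 : p < 1) (G : Finset ι) {F : (ι → Bool) → ℝ}
    (hF : IsBool F) :
    Ex p (fun x => |proj p (fun S => ¬ Disjoint S G) F x|)
      = 2 * Ex p (fun x => proj p (fun S => ¬ Disjoint S G) F x ^ 2) := by
  have h1 : ∀ x, |proj p (fun S => ¬ Disjoint S G) F x|
      = F x * F x - 2 * (F x * av p G F x) + av p G F x := by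
    intro x
    have h2 := proj_add_proj_not hp0 hp1 (fun S => Disjoint S G) F x
    have h3 : proj p (fun S => Disjoint S G) F x = av p G F x := by
      rw [av_eq_proj hp0 hp1]
    rw [h3] at h2
    have h4 : proj p (fun S => ¬ Disjoint S G) F x = F x - av p G F x := by linarith
    rw [h4]
    have h5 := av_nonneg hp0.le hp1.le G hF.nonneg x
    have h6 := av_le_one hp0.le hp1.le G hF x
    rcases hF x with h | h
    · rw [h, zero_sub, abs_neg, abs_of_nonneg h5]; ring
    · rw [h, abs_of_nonneg (by linarith)]; ring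
  rw [Ex_congr h1, Ex_add, Ex_sub, Ex_const_mul, Ex_av, Ex_proj_sq hp0 hp1]
  have h2 : Ex p F = Ex p (fun x => F x * F x) := by
    refine Ex_congr (fun x => ?_)
    rcases hF x with h | h <;> rw [h] <;> norm_num
  rw [h2, parseval hp0 hp1, parseval hp0 hp1, Finset.sum_filter]
  simp only [fc_av hp0 hp1]
  have h3 : ∀ S : Finset ι, (if ¬ Disjoint S G then fc p F S ^ 2 else 0)
      = fc p F S * fc p F S - fc p F S * (if Disjoint S G then fc p F S else 0) := by
    intro S
    by_cases h : Disjoint S G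
    · simp [h]
    · simp [h, sq]
  simp only [h3, Finset.sum_sub_distrib]
  ring

end gen

open Crest.CombinatoricsR.HypergraphCube

variable {n r : ℕ}

lemma not_disjoint_iff_mem_supp (i : Fin n) (S : Finset (HyperedgeSlot n r)) :
    ¬ Disjoint S (Finset.univ.filter (fun e : HyperedgeSlot n r => i ∈ vs e))
      ↔ i ∈ supp vs S := by
  rw [Finset.not_disjoint_iff]
  unfold supp
  rw [Finset.mem_biUnion]
  constructor
  · rintro ⟨e, he, h⟩
    exact ⟨e, he, (Finset.mem_filter.mp h).2⟩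
  · rintro ⟨e, he, h⟩
    exact ⟨e, he, Finset.mem_filter.mpr ⟨Finset.mem_univ _, h⟩⟩

/-- counting bound for binomials -/
lemma choose_lower (n v t : ℕ) (ht : t ≤ v) (hv : 2 * v ≤ n) (hn : 1 ≤ n) :
    (1:ℝ) ≤ (2 * v / n : ℝ) ^ t * ((n - 1).choose t : ℝ) := by
  rcases Nat.eq_zero_or_pos t with h0 | hpos
  · subst h0; simp
  · have h1 := Nat.pow_le_choose (α := ℝ) t (n - 1)
    have e1 : n - 1 + 1 - t = n - t := by omega
    rw [e1] at h1
    have hfac : (t.factorial : ℝ) ≤ (v : ℝ) ^ t := by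
      have h2 : t.factorial ≤ t ^ t := Nat.factorial_le_pow t
      have h3 : t ^ t ≤ v ^ t := Nat.pow_le_pow_left ht t
      exact_mod_cast le_trans h2 h3
    have hfac0 : (0:ℝ) < t.factorial := by exact_mod_cast Nat.factorial_pos t
    have hn0 : (0:ℝ) < n := by exact_mod_cast hn
    have hv0 : (0:ℝ) < v := by exact_mod_cast (by omega : 0 < v)
    have hnt : (n : ℝ) / 2 ≤ ((n - t : ℕ) : ℝ) := by
      rw [Nat.cast_sub (by omega)]
      have : (2:ℝ) * t ≤ n := by exact_mod_cast (by omega : 2 * t ≤ n)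
      linarith
    have h4 : ((n : ℝ) / 2) ^ t / (v : ℝ) ^ t ≤ ((n - 1).choose t : ℝ) := by
      refine le_trans ?_ h1
      refine div_le_div₀ (by positivity) ?_ hfac0 hfac
      exact pow_le_pow_left₀ (by positivity) hnt t
    calc (1:ℝ) = (2 * v / n : ℝ) ^ t * (((n : ℝ) / 2) ^ t / (v : ℝ) ^ t) := by
          rw [← div_pow, ← mul_pow]
          have : (2 * v / n : ℝ) * ((n : ℝ) / 2 / v) = 1 := by field_simp
          rw [this, one_pow]
      _ ≤ _ := mul_le_mul_of_nonneg_left h4 (by positivity)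

lemma om_le {p : ℝ} (F : (HyperedgeSlot n r → Bool) → ℝ) (hF : Inv F) (i : Fin n) (v : ℕ)
    (hv : 2 * v ≤ n) (T : Finset (Fin n)) (hiT : i ∈ T) (hT : T.card ≤ v + 1) :
    om p F T ≤ Wt p F (fun S => i ∈ supp vs S ∧ (supp vs S).card ≤ v + 1)
      * (2 * v / n : ℝ) ^ (T.card - 1) := by
  have hn : 1 ≤ n := by have := i.isLt; omega
  set W := Wt p F (fun S => i ∈ supp vs S ∧ (supp vs S).card ≤ v + 1) with hW
  set t := T.card - 1 with ht
  have hTpos : 1 ≤ T.card := Finset.card_pos.mpr ⟨i, hiT⟩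
  have h1 : ((n - 1).choose t : ℝ) * om p F T ≤ W := by
    rw [hW, Wt_supp p F (fun T => i ∈ T ∧ T.card ≤ v + 1)]
    have hcard : ((Finset.univ.erase i).powersetCard t).card = (n - 1).choose t := by
      rw [Finset.card_powersetCard, Finset.card_erase_of_mem (Finset.mem_univ i)]
      simp
    have hsum : ∑ U ∈ (Finset.univ.erase i).powersetCard t, om p F (insert i U)
        = ((n - 1).choose t : ℝ) * om p F T := by
      rw [Finset.sum_congr rfl (g := fun _ => om p F T), Finset.sum_const, nsmul_eq_mul, hcard]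
      intro U hU
      rw [Finset.mem_powersetCard] at hU
      refine om_card p F hF _ _ ?_
      rw [Finset.card_insert_of_notMem, hU.2]
      · omega
      · intro h
        exact Finset.notMem_erase i _ (hU.1 h)
    rw [← hsum]
    have himg : ∑ U ∈ (Finset.univ.erase i).powersetCard t, om p F (insert i U)
        = ∑ T' ∈ ((Finset.univ.erase i).powersetCard t).image (fun U => insert i U),
          om p F T' := by
      rw [Finset.sum_image]
      intro U hU U' hU' heq
      have hU1 := (Finset.mem_powersetCard.mp (Finset.mem_coe.mp hU)).1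
      have hU1' := (Finset.mem_powersetCard.mp (Finset.mem_coe.mp hU')).1
      have hi1 : i ∉ U := fun h => Finset.notMem_erase i _ (hU1 h)
      have hi2 : i ∉ U' := fun h => Finset.notMem_erase i _ (hU1' h)
      have := congrArg (fun X => X.erase i) heq
      simpa [Finset.erase_insert hi1, Finset.erase_insert hi2] using this
    rw [himg]
    refine Finset.sum_le_sum_of_subset_of_nonneg ?_ (fun _ _ _ => om_nonneg _ _ _)
    intro T' hT'
    rw [Finset.mem_image] at hT'
    obtain ⟨U, hU, rfl⟩ := hT'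
    rw [Finset.mem_powersetCard] at hU
    rw [Finset.mem_filter]
    refine ⟨Finset.mem_univ _, Finset.mem_insert_self _ _, ?_⟩
    rw [Finset.card_insert_of_notMem, hU.2]
    · omega
    · intro h
      exact Finset.notMem_erase i _ (hU.1 h)
  have h2 := choose_lower n v t (by omega) hv hn
  have hom := om_nonneg p F T
  calc om p F T = 1 * om p F T := by ring
    _ ≤ ((2 * v / n : ℝ) ^ t * ((n - 1).choose t : ℝ)) * om p F T :=
        mul_le_mul_of_nonneg_right h2 hom
    _ = (2 * v / n : ℝ) ^ t * (((n - 1).choose t : ℝ) * om p F T) := by ring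
    _ ≤ (2 * v / n : ℝ) ^ t * W := mul_le_mul_of_nonneg_left h1 (by positivity)
    _ = _ := by ring

lemma card_slots_subset (Z : Finset (Fin n)) :
    (Finset.univ.filter (fun e : HyperedgeSlot n r => vs e ⊆ Z)).card ≤ Z.card.choose r := by
  rw [← Finset.card_powersetCard]
  refine Finset.card_le_card_of_injOn (fun e => e.1) ?_ ?_
  · intro e he
    rw [Finset.mem_coe, Finset.mem_filter] at he
    rw [Finset.mem_coe, Finset.mem_powersetCard]
    exact ⟨he.2, e.2⟩
  · intro e _ e' _ h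
    exact Subtype.ext h

lemma choose_upper (z r : ℕ) (hr : 2 ≤ r) (hz : 1 ≤ z) :
    z.choose r ≤ (z - 1) * z ^ (r - 1) := by
  obtain ⟨z', rfl⟩ : ∃ z', z = z' + 1 := ⟨z - 1, by omega⟩
  obtain ⟨r', rfl⟩ : ∃ r', r = r' + 2 := ⟨r - 2, by omega⟩
  have h1 := Nat.add_one_mul_choose_eq z' (r' + 1)
  -- (z'+1) * C(z', r'+1) = C(z'+1, r'+2) * (r'+2)
  have h2 : z'.choose (r' + 1) ≤ z' ^ (r' + 1) := Nat.choose_le_pow z' (r' + 1)
  have h3 : (z' + 1).choose (r' + 2) ≤ (z' + 1).choose (r' + 1 + 1) * (r' + 1 + 1) :=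
    Nat.le_mul_of_pos_right _ (by omega)
  have e1 : z' + 1 - 1 = z' := by omega
  have e2 : r' + 2 - 1 = r' + 1 := by omega
  rw [e1, e2]
  calc (z' + 1).choose (r' + 2) ≤ (z' + 1).choose (r' + 1 + 1) * (r' + 1 + 1) := h3
    _ = (z' + 1) * z'.choose (r' + 1) := by rw [← h1]
    _ ≤ (z' + 1) * z' ^ (r' + 1) := Nat.mul_le_mul_left _ h2
    _ = z' * ((z' + 1) * z' ^ r') := by ring
    _ ≤ z' * ((z' + 1) * (z' + 1) ^ r') := by
        refine Nat.mul_le_mul_left _ (Nat.mul_le_mul_left _ ?_)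
        exact Nat.pow_le_pow_left (by omega) _
    _ = z' * (z' + 1) ^ (r' + 1) := by ring

/-- The hypercontractive constant of Step 1. -/
noncomputable def HH (n r v : ℕ) (l : ℝ) : ℝ :=
  (1 + 6 * (2 * v / n : ℝ) + 4 * ((1 / l) ^ ((2 * v + 1) ^ (r - 1)) * Real.sqrt (2 * v / n) ^ 3)
    + (1 / l) ^ ((2 * v + 1) ^ (r - 1)) * Real.sqrt (2 * v / n) ^ 4) ^ (n - 1)

lemma HH_nonneg (n r v : ℕ) {l : ℝ} (hl : 0 < l) : 0 ≤ HH n r v l := by
  unfold HH
  generalize (2 * v + 1) ^ (r - 1) = m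
  refine pow_nonneg ?_ _
  have h1 : (0:ℝ) ≤ 2 * v / n := by positivity
  have h2 : (0:ℝ) ≤ (1 / l) ^ m := by positivity
  have h3 : 0 ≤ Real.sqrt (2 * v / n) := Real.sqrt_nonneg _
  generalize Real.sqrt (2 * v / n) = s at h3
  generalize (2 * v / n : ℝ) = t at h1
  generalize (1 / l) ^ m = u at h2
  positivity

lemma step1_vertex {p l : ℝ} (hl : 0 < l) (hlp : l ≤ p) (hlq : l ≤ 1 - p) (hr : 2 ≤ r)
    (F : (HyperedgeSlot n r → Bool) → ℝ) (hF : Inv F) (hB : IsBool F) (i : Fin n) (v : ℕ)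
    (hv : 2 * v ≤ n) :
    (Wt p F (fun S => i ∈ supp vs S ∧ (supp vs S).card ≤ v + 1)) ^ 2
      ≤ 4 * HH n r v l * (Wt p F (fun S => i ∈ supp vs S)) ^ 3 := by
  have hp0 : 0 < p := by linarith
  have hp1 : p < 1 := by linarith
  have hl1 : l ≤ 1 := by linarith
  have hn : 1 ≤ n := by have := i.isLt; omega
  set G := Finset.univ.filter (fun e : HyperedgeSlot n r => i ∈ vs e) with hG
  set W := Wt p F (fun S => i ∈ supp vs S ∧ (supp vs S).card ≤ v + 1) with hW
  have hWn : 0 ≤ W := Wt_nonneg _ _ _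
  set h := proj p (fun S => ¬ Disjoint S G) F with hh
  have hpp : proj p (fun S => i ∈ supp vs S ∧ (supp vs S).card ≤ v + 1) h
      = proj p (fun S => i ∈ supp vs S ∧ (supp vs S).card ≤ v + 1) F := by
    rw [hh]
    exact proj_proj hp0 hp1 _ _ (fun S hS => (not_disjoint_iff_mem_supp i S).mpr hS.1) F
  have hWg : Ex p (fun x => proj p (fun S => i ∈ supp vs S ∧ (supp vs S).card ≤ v + 1) F x ^ 2)
      = W := Ex_proj_sq hp0 hp1 _ F
  have hδ : Ex p (fun x => h x ^ 2) = Wt p F (fun S => i ∈ supp vs S) := by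
    rw [hh, Ex_proj_sq hp0 hp1]
    unfold Wt
    refine Finset.sum_congr ?_ (fun _ _ => rfl)
    ext S
    simp only [Finset.mem_filter, Finset.mem_univ, true_and]
    exact not_disjoint_iff_mem_supp i S
  have hα0 : (0:ℝ) ≤ 2 * v / n := by positivity
  have hhyp := vertex_hyp (i := i) (v := v) (B := Real.sqrt W) (α := Real.sqrt (2 * v / n))
    (κ := (1 / l) ^ ((2 * v + 1) ^ (r - 1))) hl hlp hlq vs F
    (Real.sqrt_nonneg _) (Real.sqrt_nonneg _) (by positivity)
    (by
      intro T hiT hT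
      rw [Ex_proj_sq hp0 hp1, mul_pow, Real.sq_sqrt hWn, ← pow_mul, mul_comm (T.card - 1) 2,
        pow_mul, Real.sq_sqrt hα0]
      exact om_le F hF i v hv T hiT hT)
    (by
      intro Z hiZ hZ
      have hl1' : 1 ≤ 1 / l := by
        rw [le_div_iff₀ hl]; linarith
      have hZ1 : 1 ≤ Z.card := Finset.card_pos.mpr ⟨i, hiZ⟩
      rw [← pow_mul]
      refine pow_le_pow_right₀ hl1' ?_
      refine le_trans (card_slots_subset Z) (le_trans (choose_upper _ _ hr hZ1) ?_)
      rw [mul_comm]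
      exact Nat.mul_le_mul_right _ (Nat.pow_le_pow_left hZ _))
  rw [Fintype.card_fin, Real.sq_sqrt hα0] at hhyp
  have hB4 : Real.sqrt W ^ 4 = W ^ 2 := by
    have : Real.sqrt W ^ 4 = (Real.sqrt W ^ 2) ^ 2 := by ring
    rw [this, Real.sq_sqrt hWn]
  rw [hB4] at hhyp
  have hHn : 0 ≤ HH n r v l := HH_nonneg n r v hl
  have hlev := level_ineq hp0 hp1 (fun S => i ∈ supp vs S ∧ (supp vs S).card ≤ v + 1) h
    (c := 2) (K := HH n r v l) hHn (le_of_eq (L1_identity hp0 hp1 G hB))
    (by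
      rw [hpp, hWg]
      exact le_trans hhyp (le_of_eq (mul_comm _ _)))
  rw [hpp, hWg, hδ] at hlev
  refine le_trans hlev (le_of_eq ?_)
  ring

/-- Step 1. -/
lemma step1 {p l : ℝ} (hl : 0 < l) (hlp : l ≤ p) (hlq : l ≤ 1 - p) (hr : 2 ≤ r) (hn : 1 ≤ n)
    (F : (HyperedgeSlot n r → Bool) → ℝ) (hF : Inv F) (hB : IsBool F) (v : ℕ)
    (hv : 2 * v ≤ n) :
    (Wt p F (fun S => S ≠ ∅ ∧ (supp vs S).card ≤ v + 1)) ^ 2
      ≤ 4 * HH n r v l * (r * (p * (1 - p) * tinf p F)) ^ 3 / n := by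
  have hp0 : 0 < p := by linarith
  have hp1 : p < 1 := by linarith
  have hn0 : (0:ℝ) < n := by exact_mod_cast hn
  set i : Fin n := ⟨0, by omega⟩ with hi
  set W := Wt p F (fun S => i ∈ supp vs S ∧ (supp vs S).card ≤ v + 1) with hW
  set Y := Wt p F (fun S => i ∈ supp vs S) with hY
  set U := (r : ℝ) * (p * (1 - p) * tinf p F) with hU
  have hWn : 0 ≤ W := Wt_nonneg _ _ _
  have hYn : 0 ≤ Y := Wt_nonneg _ _ _
  have hHn : 0 ≤ HH n r v l := HH_nonneg n r v hl
  have h1 : W ^ 2 ≤ 4 * HH n r v l * Y ^ 3 := step1_vertex hl hlp hlq hr F hF hB i v hv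
  have h2 : (n:ℝ) * Y ≤ U := n_mul_Wt_vertex_le hp0 hp1 F hF i
  have h3 : Wt p F (fun S => S ≠ ∅ ∧ (supp vs S).card ≤ v + 1) ≤ n * W := by
    have e1 : (n:ℝ) * W = ∑ S : Finset (HyperedgeSlot n r), if (supp vs S).card ≤ v + 1 then
          ((supp vs S).card : ℝ) * fc p F S ^ 2 else 0 := by
      rw [← sum_Wt_vertex p F (fun c => c ≤ v + 1),
        Finset.sum_congr rfl (fun j _ => Wt_vertex p F hF j i (fun c => c ≤ v + 1)),
        Finset.sum_const, nsmul_eq_mul]
      simp [hW]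
    rw [e1, Wt_eq]
    refine Finset.sum_le_sum (fun S _ => ?_)
    by_cases hS : S ≠ ∅
    · by_cases hc : (supp vs S).card ≤ v + 1
      · rw [if_pos ⟨hS, hc⟩, if_pos hc]
        have := supp_nonempty (by omega : 1 ≤ r) S hS
        have h5 : (1:ℝ) ≤ (supp vs S).card := by exact_mod_cast (by omega)
        nlinarith [sq_nonneg (fc p F S)]
      · rw [if_neg (fun h => hc h.2), if_neg hc]
    · rw [if_neg (fun h => hS h.1)]
      split_ifs
      · exact mul_nonneg (Nat.cast_nonneg _) (sq_nonneg _)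
      · exact le_rfl
  have h3n : 0 ≤ Wt p F (fun S => S ≠ ∅ ∧ (supp vs S).card ≤ v + 1) := Wt_nonneg _ _ _
  generalize HH n r v l = H at h1 hHn ⊢
  generalize Wt p F (fun S => S ≠ ∅ ∧ (supp vs S).card ≤ v + 1) = W' at h3 h3n ⊢
  clear_value W Y U
  calc W' ^ 2
      ≤ (n * W) ^ 2 := pow_le_pow_left₀ h3n h3 2
    _ = n ^ 2 * W ^ 2 := by ring
    _ ≤ n ^ 2 * (4 * H * Y ^ 3) := mul_le_mul_of_nonneg_left h1 (by positivity)
    _ = 4 * H * (n * Y) ^ 3 / n := by field_simp
    _ ≤ 4 * H * U ^ 3 / n := by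
        refine div_le_div_of_nonneg_right ?_ hn0.le
        refine mul_le_mul_of_nonneg_left ?_ (by positivity)
        exact pow_le_pow_left₀ (by positivity) h2 3

end Crest.Agent.Row56
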