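import Crest.Agent.Row56.Step1

/-! Step 2: the block argument. -/

set_option autoImplicit false
set_option linter.unusedSectionVars false
set_option linter.unusedVariables false

namespace Crest.Agent.Row56

open Finset Crest.FinProb

section gen

variable {ι : Type*} [Fintype ι] [DecidableEq ι]

/-- The function `F` with the coordinates outside `G` frozen to `x`. -/
def restr (G : Finset ι) (F : (ι → Bool) → ℝ) (x : ι → Bool) (y : ι → Bool) : ℝ :=
  F (G.piecewise y x)

lemma piecewise_update_mem (G : Finset ι) (e : ι) (he : e ∈ G) (x y : ι → Bool) (b : Bool) :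
    G.piecewise (Function.update y e b) x = Function.update (G.piecewise y x) e b := by
  funext i
  by_cases hi : i = e
  · subst hi; simp [Finset.piecewise, he]
  · by_cases hG : i ∈ G <;> simp [Finset.piecewise, hi, hG]

lemma piecewise_update_notMem (G : Finset ι) (e : ι) (he : e ∉ G) (x y : ι → Bool) (b : Bool) :
    G.piecewise (Function.update y e b) x = G.piecewise y x := by
  funext i
  by_cases hi : i = e
  · subst hi; simp [Finset.piecewise, he]
  · by_cases hG : i ∈ G <;> simp [Finset.piecewise, hi, hG]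

lemma D_restr_mem (G : Finset ι) (F : (ι → Bool) → ℝ) (x : ι → Bool) (e : ι) (he : e ∈ G)
    (y : ι → Bool) : D e (restr G F x) y = D e F (G.piecewise y x) := by
  unfold D restr
  rw [piecewise_update_mem G e he, piecewise_update_mem G e he]

lemma D_restr_notMem (G : Finset ι) (F : (ι → Bool) → ℝ) (x : ι → Bool) (e : ι) (he : e ∉ G)
    (y : ι → Bool) : D e (restr G F x) y = 0 := by
  unfold D restr
  rw [piecewise_update_notMem G e he, piecewise_update_notMem G e he, sub_self]

lemma inf_restr_notMem (p : ℝ) (G : Finset ι) (F : (ι → Bool) → ℝ) (x : ι → Bool) (e : ι)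
    (he : e ∉ G) : inf p e (restr G F x) = 0 := by
  unfold inf
  rw [Ex_congr (g := fun _ => 0) (fun y => by rw [D_restr_notMem G F x e he]; norm_num)]
  exact Ex_const p 0

lemma Ex_inf_restr (p : ℝ) (G : Finset ι) (F : (ι → Bool) → ℝ) (e : ι) (he : e ∈ G) :
    Ex p (fun x => inf p e (restr G F x)) = inf p e F := by
  unfold inf
  rw [← Ex_Ex_piecewise p G (fun x => D e F x ^ 2)]
  refine Ex_congr (fun x => Ex_congr (fun y => ?_))
  rw [D_restr_mem G F x e he]

lemma Ex_tinf_restr (p : ℝ) (G : Finset ι) (F : (ι → Bool) → ℝ) :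
    Ex p (fun x => tinf p (restr G F x)) = ∑ e ∈ G, inf p e F := by
  unfold tinf
  rw [Ex_sum]
  rw [← Finset.sum_subset (Finset.subset_univ G)]
  · exact Finset.sum_congr rfl (fun e he => Ex_inf_restr p G F e he)
  · intro e _ he
    rw [Ex_congr (g := fun _ => 0) (fun x => inf_restr_notMem p G F x e he)]
    exact Ex_const p 0

lemma Ex_var_restr {p : ℝ} (hp0 : 0 < p) (hp1 : p < 1) (G : Finset ι) (F : (ι → Bool) → ℝ) :
    Ex p (fun x => var p (restr G F x)) = Wt p F (fun S => ¬ Disjoint S G) := by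
  unfold var
  rw [Ex_sub]
  have h1 : Ex p (fun x => Ex p (fun y => restr G F x y ^ 2)) = Ex p (fun x => F x ^ 2) :=
    Ex_Ex_piecewise p G (fun x => F x ^ 2)
  have h2 : Ex p (fun x => Ex p (restr G F x) ^ 2) = Ex p (fun x => av p G F x ^ 2) := rfl
  rw [h1, h2, parseval_sq hp0 hp1, av_eq_proj hp0 hp1, Ex_proj_sq hp0 hp1, Finset.sum_filter,
    Wt_eq, ← Finset.sum_sub_distrib]
  refine Finset.sum_congr rfl (fun S _ => ?_)
  by_cases h : Disjoint S G <;> simp [h]

lemma IsBool.restr {F : (ι → Bool) → ℝ} (hF : IsBool F) (G : Finset ι) (x : ι → Bool) :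
    IsBool (restr G F x) := fun y => hF _

lemma IsBool.var_eq {F : (ι → Bool) → ℝ} (hF : IsBool F) (p : ℝ) :
    var p F = Ex p F * (1 - Ex p F) := by
  unfold var
  have : Ex p (fun x => F x ^ 2) = Ex p F := by
    refine Ex_congr (fun x => ?_)
    rcases hF x with h | h <;> rw [h] <;> norm_num
  rw [this]; ring

lemma IsBool.var_le {F : (ι → Bool) → ℝ} (hF : IsBool F) (p : ℝ) :
    var p F ≤ 1 / 4 := by
  rw [hF.var_eq]
  nlinarith [sq_nonneg (Ex p F - 1 / 2)]

/-- The pointwise consequence of the KKL inequality. -/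
lemma kkl_pointwise {p : ℝ} (hp0 : 0 < p) (hp1 : p < 1) {b : ℝ} (hb4 : 4 ≤ b)
    (hb : 3 * m4 p ≤ b ^ 2) (h : (ι → Bool) → ℝ) (hh : IsBool h) (k : ℕ) {a s : ℝ} (hs : 0 < s)
    (hsa : s ^ 4 ≤ a) (hinf : ∀ e, a * inf p e h ≤ tinf p h)
    (h1 : b ^ k * ((k : ℝ) + 1) ≤ s) (h2 : (k : ℝ) + 1 ≤ 8 * (p * (1 - p)) * s ^ 2) :
    var p h ≤ 2 * (p * (1 - p)) / ((k : ℝ) + 1) * tinf p h := by
  have hpq : 0 < p * (1 - p) := mul_pos hp0 (by linarith)
  have hb0 : 0 < b := by linarith
  have hk : (0:ℝ) < (k:ℝ) + 1 := by positivity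
  have ha : 0 < a := lt_of_lt_of_le (by positivity) hsa
  have hJ := tinf_nonneg hp0.le hp1.le h
  have hkkl := kkl hp0 hp1 hb4 hb h hh k ha hinf
  set J := tinf p h with hJdef
  rcases le_or_gt J (s ^ 2) with hc | hc
  · refine le_trans hkkl ?_
    have e1 : Real.sqrt (J / a) ≤ 1 / s := by
      rw [Real.sqrt_le_iff]
      refine ⟨by positivity, ?_⟩
      rw [div_le_iff₀ ha]
      calc J ≤ s ^ 2 := hc
        _ = (1 / s) ^ 2 * s ^ 4 := by field_simp
        _ ≤ (1 / s) ^ 2 * a := mul_le_mul_of_nonneg_left hsa (by positivity)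
    have e2 : b ^ k * Real.sqrt (J / a) ≤ 1 / ((k:ℝ) + 1) := by
      calc b ^ k * Real.sqrt (J / a) ≤ b ^ k * (1 / s) :=
            mul_le_mul_of_nonneg_left e1 (by positivity)
        _ ≤ 1 / ((k:ℝ) + 1) := by
            rw [mul_one_div, div_le_div_iff₀ hs hk]
            linarith
    calc p * (1 - p) * J * (b ^ k * Real.sqrt (J / a) + 1 / ((k:ℝ) + 1))
        ≤ p * (1 - p) * J * (1 / ((k:ℝ) + 1) + 1 / ((k:ℝ) + 1)) := by
          refine mul_le_mul_of_nonneg_left ?_ (by positivity)
          linarith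
      _ = 2 * (p * (1 - p)) / ((k : ℝ) + 1) * J := by ring
  · refine le_trans (hh.var_le p) ?_
    have e3 : 1 / 4 ≤ 2 * (p * (1 - p)) / ((k : ℝ) + 1) * s ^ 2 := by
      rw [div_mul_eq_mul_div, div_le_div_iff₀ (by norm_num) hk]
      linarith
    refine le_trans e3 ?_
    exact mul_le_mul_of_nonneg_left hc.le (by positivity)

end gen

open Crest.CombinatoricsR.HypergraphCube

variable {n r : ℕ}

/-- The slots touching `A`. -/
def EA (r : ℕ) (A : Finset (Fin n)) : Finset (HyperedgeSlot n r) :=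
  Finset.univ.filter (fun e => ¬ Disjoint (vs e) A)

lemma mem_EA (A : Finset (Fin n)) (e : HyperedgeSlot n r) :
    e ∈ EA r A ↔ ∃ i ∈ vs e, i ∈ A := by
  unfold EA
  rw [Finset.mem_filter, Finset.not_disjoint_iff]
  simp

lemma not_disjoint_EA (A : Finset (Fin n)) (S : Finset (HyperedgeSlot n r)) :
    ¬ Disjoint S (EA r A) ↔ ¬ Disjoint (supp vs S) A := by
  rw [Finset.not_disjoint_iff, Finset.not_disjoint_iff]
  unfold supp
  constructor
  · rintro ⟨e, he, h⟩
    obtain ⟨i, hi, hiA⟩ := (mem_EA A e).mp h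
    exact ⟨i, Finset.mem_biUnion.mpr ⟨e, he, hi⟩, hiA⟩
  · rintro ⟨i, hi, hiA⟩
    obtain ⟨e, he, hie⟩ := Finset.mem_biUnion.mp hi
    exact ⟨e, he, (mem_EA A e).mpr ⟨i, hie, hiA⟩⟩

lemma swap_mem_iff (A : Finset (Fin n)) (i j : Fin n) (hi : i ∈ A) (hj : j ∈ A) (k : Fin n) :
    Equiv.swap i j k ∈ A ↔ k ∈ A := by
  by_cases h1 : k = i
  · subst h1; simp [hi, hj]
  · by_cases h2 : k = j
    · subst h2; simp [hi, hj]
    · rw [Equiv.swap_apply_of_ne_of_ne h1 h2]

lemma slotPerm_swap_mem_EA (A : Finset (Fin n)) (i j : Fin n) (hi : i ∈ A) (hj : j ∈ A)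
    (e : HyperedgeSlot n r) (he : e ∈ EA r A) : slotPerm (Equiv.swap i j) e ∈ EA r A := by
  rw [mem_EA] at he ⊢
  obtain ⟨k, hk, hkA⟩ := he
  refine ⟨Equiv.swap i j k, ?_, (swap_mem_iff A i j hi hj k).mpr hkA⟩
  rw [vs_slotPerm, Finset.mem_map]
  exact ⟨k, hk, rfl⟩

lemma slotPerm_swap_notMem_EA (A : Finset (Fin n)) (i j : Fin n) (hi : i ∈ A) (hj : j ∈ A)
    (e : HyperedgeSlot n r) (he : e ∉ EA r A) : slotPerm (Equiv.swap i j) e = e := by
  rw [mem_EA] at he
  push Not at he
  refine Subtype.ext ?_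
  change e.1.map (Equiv.swap i j).toEmbedding = e.1
  have h : ∀ k ∈ e.1, Equiv.swap i j k = k := by
    intro k hk
    have hkA := he k hk
    refine Equiv.swap_apply_of_ne_of_ne ?_ ?_
    · rintro rfl; exact hkA hi
    · rintro rfl; exact hkA hj
  ext k
  rw [Finset.mem_map]
  constructor
  · rintro ⟨k', hk', rfl⟩
    have := h k' hk'
    simpa [this] using hk'
  · intro hk
    exact ⟨k, hk, h k hk⟩

lemma restr_inv (F : (HyperedgeSlot n r → Bool) → ℝ) (hF : Inv F) (A : Finset (Fin n))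
    (x : HyperedgeSlot n r → Bool) (i j : Fin n) (hi : i ∈ A) (hj : j ∈ A)
    (y : HyperedgeSlot n r → Bool) :
    restr (EA r A) F x (fun e => y (slotPerm (Equiv.swap i j) e)) = restr (EA r A) F x y := by
  unfold restr
  rw [← hF (Equiv.swap i j) ((EA r A).piecewise y x)]
  congr 1
  funext e
  by_cases he : e ∈ EA r A
  · have h1 := slotPerm_swap_mem_EA A i j hi hj e he
    simp [Finset.piecewise, he, h1]
  · have h1 := slotPerm_swap_notMem_EA A i j hi hj e he
    rw [h1]
    simp [Finset.piecewise, he]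

lemma orbit_bound {p : ℝ} (hp0 : 0 < p) (hp1 : p < 1) (F : (HyperedgeSlot n r → Bool) → ℝ)
    (hF : Inv F) (A : Finset (Fin n)) (x : HyperedgeSlot n r → Bool) (e : HyperedgeSlot n r) :
    ((A.card : ℝ) - r) * inf p e (restr (EA r A) F x) ≤ tinf p (restr (EA r A) F x) := by
  set h := restr (EA r A) F x with hh
  have hJ := tinf_nonneg hp0.le hp1.le h
  by_cases he : e ∈ EA r A
  · obtain ⟨i, hi, hiA⟩ := (mem_EA A e).mp he
    have hsame : ∀ j ∈ A \ vs e, inf p (slotPerm (Equiv.swap i j) e) h = inf p e h := by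
      intro j hj
      rw [Finset.mem_sdiff] at hj
      exact inf_map hp0 hp1 (slotPerm (Equiv.swap i j)) h
        (fun y => restr_inv F hF A x i j hiA hj.1 y) e
    have hinj : Set.InjOn (fun j => slotPerm (Equiv.swap i j) e) ((A \ vs e : Finset (Fin n)) : Set (Fin n)) := by
      intro j hj j' hj' heq
      rw [Finset.mem_coe, Finset.mem_sdiff] at hj hj'
      have h1 : j ∈ vs (slotPerm (Equiv.swap i j) e) := by
        rw [vs_slotPerm, Finset.mem_map]
        exact ⟨i, hi, by simp⟩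
      simp only at heq
      rw [heq, vs_slotPerm, Finset.mem_map] at h1
      obtain ⟨k, hk, hkj⟩ := h1
      simp only [Equiv.coe_toEmbedding] at hkj
      by_cases hki : k = i
      · rw [hki, Equiv.swap_apply_left] at hkj
        exact hkj.symm
      · by_cases hkj' : k = j'
        · exact absurd (hkj' ▸ hk) hj'.2
        · rw [Equiv.swap_apply_of_ne_of_ne hki hkj'] at hkj
          exact absurd (hkj ▸ hk) hj.2
    have hsum : ∑ j ∈ A \ vs e, inf p (slotPerm (Equiv.swap i j) e) h ≤ tinf p h := by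
      unfold tinf
      rw [← Finset.sum_image (f := fun e' => inf p e' h) hinj]
      exact Finset.sum_le_sum_of_subset_of_nonneg (Finset.subset_univ _)
        (fun e' _ _ => inf_nonneg hp0.le hp1.le e' h)
    rw [Finset.sum_congr rfl hsame, Finset.sum_const, nsmul_eq_mul] at hsum
    refine le_trans ?_ hsum
    refine mul_le_mul_of_nonneg_right ?_ (inf_nonneg hp0.le hp1.le e h)
    have h1 : A.card ≤ (A \ vs e).card + (vs e).card := by
      have := Finset.card_le_card (show A ⊆ (A \ vs e) ∪ vs e from by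
        intro k hk
        by_cases hk' : k ∈ vs e
        · exact Finset.mem_union_right _ hk'
        · exact Finset.mem_union_left _ (Finset.mem_sdiff.mpr ⟨hk, hk'⟩))
      exact le_trans this (Finset.card_union_le _ _)
    have h2 : (vs e).card = r := e.2
    rw [h2] at h1
    have h3 : (A.card : ℝ) ≤ ((A \ vs e).card : ℝ) + r := by exact_mod_cast h1
    linarith
  · rw [hh, inf_restr_notMem p _ F x e he, mul_zero]
    exact hJ

lemma sum_inf_EA_le {p : ℝ} (hp0 : 0 < p) (hp1 : p < 1) (F : (HyperedgeSlot n r → Bool) → ℝ)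
    (hF : Inv F) (A : Finset (Fin n)) :
    (n : ℝ) * ∑ e ∈ EA r A, inf p e F ≤ A.card * (r * tinf p F) := by
  have h1 : ∑ e ∈ EA r A, inf p e F
      ≤ ∑ i ∈ A, ∑ e ∈ Finset.univ.filter (fun e : HyperedgeSlot n r => i ∈ vs e), inf p e F := by
    have h2 : EA r A ⊆ A.biUnion
        (fun i => Finset.univ.filter (fun e : HyperedgeSlot n r => i ∈ vs e)) := by
      intro e he
      obtain ⟨i, hi, hiA⟩ := (mem_EA A e).mp he
      exact Finset.mem_biUnion.mpr ⟨i, hiA, Finset.mem_filter.mpr ⟨Finset.mem_univ _, hi⟩⟩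
    refine le_trans (Finset.sum_le_sum_of_subset_of_nonneg h2
      (fun e _ _ => inf_nonneg hp0.le hp1.le e F)) ?_
    exact sum_biUnion_le' A _ (fun e => inf p e F)
      (fun e => inf_nonneg hp0.le hp1.le e F)
  calc (n : ℝ) * ∑ e ∈ EA r A, inf p e F
      ≤ n * ∑ i ∈ A, ∑ e ∈ Finset.univ.filter (fun e : HyperedgeSlot n r => i ∈ vs e),
        inf p e F := mul_le_mul_of_nonneg_left h1 (Nat.cast_nonneg _)
    _ = ∑ i ∈ A, (r * tinf p F) := by
        rw [Finset.mul_sum]
        exact Finset.sum_congr rfl (fun i _ => sum_inf_vertex hp0 hp1 F hF i)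
    _ = A.card * (r * tinf p F) := by rw [Finset.sum_const, nsmul_eq_mul]
where
  sum_biUnion_le' {α β : Type} [DecidableEq α] [DecidableEq β] (A : Finset α)
      (t : α → Finset β) (g : β → ℝ) (hg : ∀ b, 0 ≤ g b) :
      ∑ b ∈ A.biUnion t, g b ≤ ∑ a ∈ A, ∑ b ∈ t a, g b := by
    induction A using Finset.induction_on with
    | empty => simp
    | @insert a A ha ih =>
      rw [Finset.biUnion_insert, Finset.sum_insert ha]
      have h := Finset.sum_union_inter (s₁ := t a) (s₂ := A.biUnion t) (f := g)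
      have h2 : 0 ≤ ∑ b ∈ t a ∩ A.biUnion t, g b := Finset.sum_nonneg (fun b _ => hg b)
      linarith

/-- Step 2, upper bound. -/
lemma step2_upper {p : ℝ} (hp0 : 0 < p) (hp1 : p < 1) {b : ℝ} (hb4 : 4 ≤ b)
    (hb : 3 * m4 p ≤ b ^ 2) (F : (HyperedgeSlot n r → Bool) → ℝ)
    (hF : Inv F) (hB : IsBool F) (A : Finset (Fin n)) (k : ℕ) {s : ℝ} (hs : 0 < s)
    (hsa : s ^ 4 ≤ (A.card : ℝ) - r)
    (h1 : b ^ k * ((k : ℝ) + 1) ≤ s) (h2 : (k : ℝ) + 1 ≤ 8 * (p * (1 - p)) * s ^ 2) :
    (n : ℝ) * Wt p F (fun S => ¬ Disjoint (supp vs S) A)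
      ≤ 2 * (p * (1 - p)) / ((k : ℝ) + 1) * (A.card * (r * tinf p F)) := by
  have hpq : 0 < p * (1 - p) := mul_pos hp0 (by linarith)
  have hW : Wt p F (fun S => ¬ Disjoint (supp vs S) A)
      = Ex p (fun x => var p (restr (EA r A) F x)) := by
    rw [Ex_var_restr hp0 hp1, Wt_eq, Wt_eq]
    refine Finset.sum_congr rfl (fun S _ => ?_)
    by_cases h : Disjoint S (EA r A)
    · have h' : Disjoint (supp vs S) A := by
        by_contra hcon
        exact ((not_disjoint_EA A S).mpr hcon) h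
      simp [h, h']
    · have h' : ¬ Disjoint (supp vs S) A := (not_disjoint_EA A S).mp h
      simp [h, h']
  rw [hW]
  have h3 : Ex p (fun x => var p (restr (EA r A) F x))
      ≤ 2 * (p * (1 - p)) / ((k : ℝ) + 1) * ∑ e ∈ EA r A, inf p e F := by
    rw [← Ex_tinf_restr, ← Ex_const_mul]
    refine Ex_mono hp0.le hp1.le (fun x => ?_)
    exact kkl_pointwise hp0 hp1 hb4 hb _ (hB.restr _ x) k hs hsa
      (fun e => orbit_bound hp0 hp1 F hF A x e) h1 h2
  calc (n : ℝ) * Ex p (fun x => var p (restr (EA r A) F x))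
      ≤ n * (2 * (p * (1 - p)) / ((k : ℝ) + 1) * ∑ e ∈ EA r A, inf p e F) :=
        mul_le_mul_of_nonneg_left h3 (Nat.cast_nonneg _)
    _ = 2 * (p * (1 - p)) / ((k : ℝ) + 1) * (n * ∑ e ∈ EA r A, inf p e F) := by ring
    _ ≤ _ := mul_le_mul_of_nonneg_left (sum_inf_EA_le hp0 hp1 F hF A) (by positivity)

lemma choose_ratio (n m t : ℕ) (hm : m ≤ n) :
    (n - m).choose t * n ^ t ≤ n.choose t * (n - m) ^ t := by
  have h : ∀ t, (n - m).descFactorial t * n ^ t ≤ n.descFactorial t * (n - m) ^ t := by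
    intro t
    induction t with
    | zero => simp
    | succ t ih =>
      rw [Nat.descFactorial_succ, Nat.descFactorial_succ, pow_succ, pow_succ]
      have h1 : (n - m - t) * n ≤ (n - t) * (n - m) := by
        rcases le_or_gt (n - m) t with h2 | h2
        · have : n - m - t = 0 := by omega
          rw [this, Nat.zero_mul]; exact Nat.zero_le _
        · obtain ⟨c, hc⟩ : ∃ c, n = m + t + c := ⟨n - m - t, by omega⟩
          have e1 : n - m - t = c := by omega
          have e2 : n - t = m + c := by omega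
          have e3 : n - m = t + c := by omega
          rw [e1, e2, e3, hc]
          nlinarith
      calc (n - m - t) * (n - m).descFactorial t * (n ^ t * n)
          = ((n - m - t) * n) * ((n - m).descFactorial t * n ^ t) := by ring
        _ ≤ ((n - t) * (n - m)) * (n.descFactorial t * (n - m) ^ t) :=
            Nat.mul_le_mul h1 ih
        _ = _ := by ring
  have h2 := h t
  rw [Nat.descFactorial_eq_factorial_mul_choose, Nat.descFactorial_eq_factorial_mul_choose] at h2
  have h3 : t.factorial * ((n - m).choose t * n ^ t)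
      ≤ t.factorial * (n.choose t * (n - m) ^ t) := by
    calc _ = t.factorial * (n - m).choose t * n ^ t := by ring
      _ ≤ _ := h2
      _ = _ := by ring
  exact Nat.le_of_mul_le_mul_left h3 (Nat.factorial_pos t)

/-- Vertex weight as a function of the cardinality. -/
noncomputable def bet (p : ℝ) (F : (HyperedgeSlot n r → Bool) → ℝ) (t : ℕ) : ℝ :=
  om p F (Finset.univ.filter (fun i : Fin n => i.val < t))

lemma om_eq_bet (p : ℝ) (F : (HyperedgeSlot n r → Bool) → ℝ) (hF : Inv F)
    (T : Finset (Fin n)) : om p F T = bet p F T.card := by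
  unfold bet
  refine om_card p F hF _ _ ?_
  have hT : T.card ≤ n := by
    have := Finset.card_le_univ T
    simpa using this
  rw [Fin.card_filter_val_lt]
  omega

lemma step2_lower_aux (p : ℝ) (F : (HyperedgeSlot n r → Bool) → ℝ) (hF : Inv F)
    (A : Finset (Fin n)) (q : ℕ) (hn : 1 ≤ n) :
    Wt p F (fun S => q ≤ (supp vs S).card ∧ Disjoint (supp vs S) A)
      ≤ (1 - (A.card : ℝ) / n) ^ q * Wt p F (fun S => q ≤ (supp vs S).card) := by
  have hA : A.card ≤ n := by
    have := Finset.card_le_univ A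
    simpa using this
  have hn0 : (0:ℝ) < n := by exact_mod_cast hn
  set g : ℕ → ℝ := fun t => if q ≤ t then bet p F t else 0 with hg
  have hgn : ∀ t, 0 ≤ g t := by
    intro t; simp only [hg]; split_ifs
    · exact om_nonneg _ _ _
    · exact le_rfl
  have e1 : Wt p F (fun S => q ≤ (supp vs S).card)
      = ∑ t ∈ Finset.range (n + 1), (n.choose t : ℝ) * g t := by
    rw [Wt_supp p F (fun T => q ≤ T.card), Finset.sum_filter]
    have h := Finset.sum_powerset_apply_card (fun t => g t) (x := (Finset.univ : Finset (Fin n)))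
    simp only [Finset.powerset_univ, Finset.card_univ, Fintype.card_fin, nsmul_eq_mul] at h
    rw [← h]
    refine Finset.sum_congr rfl (fun T _ => ?_)
    simp only [hg]
    rw [om_eq_bet p F hF T]
  have e2 : Wt p F (fun S => q ≤ (supp vs S).card ∧ Disjoint (supp vs S) A)
      = ∑ t ∈ Finset.range (n + 1), ((n - A.card).choose t : ℝ) * g t := by
    rw [Wt_supp p F (fun T => q ≤ T.card ∧ Disjoint T A)]
    have h := Finset.sum_powerset_apply_card (fun t => g t) (x := Aᶜ)
    rw [Finset.card_compl, Fintype.card_fin] at h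
    simp only [nsmul_eq_mul] at h
    have h2 : ∑ t ∈ Finset.range (n + 1), ((n - A.card).choose t : ℝ) * g t
        = ∑ t ∈ Finset.range (n - A.card + 1), ((n - A.card).choose t : ℝ) * g t := by
      symm
      refine Finset.sum_subset ?_ ?_
      · intro t ht
        rw [Finset.mem_range] at ht ⊢
        omega
      · intro t _ ht
        rw [Finset.mem_range] at ht
        rw [Nat.choose_eq_zero_of_lt (by omega)]
        simp
    rw [h2, ← h]
    rw [Finset.sum_filter]
    have h3 : Aᶜ.powerset = Finset.univ.filter (fun T => Disjoint T A) := by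
      ext T
      simp only [Finset.mem_powerset, Finset.mem_filter, Finset.mem_univ, true_and]
      rw [Finset.subset_compl_iff_disjoint_right]
    rw [h3, Finset.sum_filter]
    refine Finset.sum_congr rfl (fun T _ => ?_)
    simp only [hg]
    rw [om_eq_bet p F hF T]
    by_cases h4 : Disjoint T A <;> by_cases h5 : q ≤ T.card <;> simp [h4, h5]
  rw [e1, e2, Finset.mul_sum]
  refine Finset.sum_le_sum (fun t ht => ?_)
  by_cases hqt : q ≤ t
  · have hx0 : 0 ≤ 1 - (A.card : ℝ) / n := by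
      rw [sub_nonneg, div_le_one hn0]
      exact_mod_cast hA
    have hx1 : 1 - (A.card : ℝ) / n ≤ 1 := by
      have : 0 ≤ (A.card : ℝ) / n := by positivity
      linarith
    have h1 : ((n - A.card).choose t : ℝ) ≤ (1 - (A.card : ℝ) / n) ^ t * (n.choose t : ℝ) := by
      have h2 := choose_ratio n A.card t hA
      have h3 : ((n - A.card).choose t : ℝ) * (n:ℝ) ^ t
          ≤ (n.choose t : ℝ) * ((n:ℝ) - A.card) ^ t := by
        have h4 : (((n - A.card).choose t * n ^ t : ℕ) : ℝ)
            ≤ ((n.choose t * (n - A.card) ^ t : ℕ) : ℝ) := by exact_mod_cast h2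
        push_cast at h4
        rw [Nat.cast_sub hA] at h4
        exact h4
      have h5 : 1 - (A.card : ℝ) / n = ((n:ℝ) - A.card) / n := by field_simp
      rw [h5, div_pow, div_mul_eq_mul_div, le_div_iff₀ (by positivity)]
      linarith
    have h6 : (1 - (A.card : ℝ) / n) ^ t ≤ (1 - (A.card : ℝ) / n) ^ q :=
      pow_le_pow_of_le_one hx0 hx1 hqt
    calc ((n - A.card).choose t : ℝ) * g t
        ≤ ((1 - (A.card : ℝ) / n) ^ q * (n.choose t : ℝ)) * g t := by
          refine mul_le_mul_of_nonneg_right (le_trans h1 ?_) (hgn t)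
          exact mul_le_mul_of_nonneg_right h6 (Nat.cast_nonneg _)
      _ = _ := by ring
  · simp only [hg, if_neg hqt, mul_zero, le_refl]

/-- Step 2, lower bound. -/
lemma step2_lower (p : ℝ) (F : (HyperedgeSlot n r → Bool) → ℝ) (hF : Inv F)
    (A : Finset (Fin n)) (q : ℕ) (hn : 1 ≤ n) (hAq : A.card * q ≤ n) :
    (A.card : ℝ) * q * Wt p F (fun S => q ≤ (supp vs S).card)
      ≤ 2 * n * Wt p F (fun S => ¬ Disjoint (supp vs S) A) := by
  have hn0 : (0:ℝ) < n := by exact_mod_cast hn
  have hA : A.card ≤ n := by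
    have := Finset.card_le_univ A
    simpa using this
  have h1 := step2_lower_aux p F hF A q hn
  set Wq := Wt p F (fun S => q ≤ (supp vs S).card) with hWq
  have hWqn : 0 ≤ Wq := Wt_nonneg _ _ _
  have h2 : Wq ≤ Wt p F (fun S => q ≤ (supp vs S).card ∧ Disjoint (supp vs S) A)
      + Wt p F (fun S => ¬ Disjoint (supp vs S) A) := by
    rw [hWq, Wt_eq, Wt_eq, Wt_eq, ← Finset.sum_add_distrib]
    refine Finset.sum_le_sum (fun S _ => ?_)
    by_cases h4 : Disjoint (supp vs S) A <;> by_cases h5 : q ≤ (supp vs S).card <;>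
      simp [h4, h5, sq_nonneg]
  set X := (A.card : ℝ) / n with hX
  have hX0 : 0 ≤ X := by positivity
  have hX1 : X ≤ 1 := by
    rw [hX, div_le_one hn0]; exact_mod_cast hA
  have hXq : X * q ≤ 1 := by
    rw [hX, div_mul_eq_mul_div, div_le_one hn0]; exact_mod_cast hAq
  -- (1 - X)^q ≤ 1 - q X / 2
  have h3 : (1 - X) ^ q ≤ 1 - X * q / 2 := by
    have hb : 1 + (q:ℝ) * X ≤ (1 + X) ^ q := one_add_mul_le_pow (by linarith) q
    have h5 : (1 - X) ^ q * (1 + X) ^ q ≤ 1 := by
      rw [← mul_pow]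
      refine pow_le_one₀ ?_ ?_
      · nlinarith
      · nlinarith
    have h6 : 0 ≤ (1 - X) ^ q := pow_nonneg (by linarith) _
    have h7 : (1 - X) ^ q * (1 + (q:ℝ) * X) ≤ 1 :=
      le_trans (mul_le_mul_of_nonneg_left hb h6) h5
    have hqX0 : 0 ≤ (q:ℝ) * X := by positivity
    have hqX1 : (q:ℝ) * X ≤ 1 := by linarith
    -- 1/(1+y) ≤ 1 - y/2 for y in [0,1]
    have h8 : 1 ≤ (1 - X * q / 2) * (1 + (q:ℝ) * X) := by nlinarith
    have h9 : 0 < 1 + (q:ℝ) * X := by linarith
    exact le_of_mul_le_mul_right (le_trans h7 h8) h9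
  have h4 : Wq ≤ (1 - X * q / 2) * Wq + Wt p F (fun S => ¬ Disjoint (supp vs S) A) := by
    have := mul_le_mul_of_nonneg_right h3 hWqn
    linarith
  have h5 : X * q / 2 * Wq ≤ Wt p F (fun S => ¬ Disjoint (supp vs S) A) := by linarith
  calc (A.card : ℝ) * q * Wq = 2 * n * (X * q / 2 * Wq) := by
        rw [hX]; field_simp
    _ ≤ _ := mul_le_mul_of_nonneg_left h5 (by positivity)

end Crest.Agent.Row56
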