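import Crest.Agent.Row56.Vertex
import Crest.Prelude.Def_HypergraphCube

/-! Consequences of invariance under renaming vertices. -/

set_option autoImplicit false
set_option linter.unusedSectionVars false
set_option linter.unusedVariables false

namespace Crest.Agent.Row56

open Finset Crest.FinProb

section perm

variable {ι : Type*} [Fintype ι] [DecidableEq ι]

lemma wt_comp_perm (p : ℝ) (π : Equiv.Perm ι) (x : ι → Bool) :
    bernoulliWeight p (fun e => x (π e)) = bernoulliWeight p x := by
  unfold bernoulliWeight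
  exact Equiv.prod_comp π (fun i => if x i then p else 1 - p)

lemma Ex_comp_perm (p : ℝ) (π : Equiv.Perm ι) (f : (ι → Bool) → ℝ) :
    Ex p (fun x => f (fun e => x (π e))) = Ex p f := by
  unfold Ex
  refine Finset.sum_bij' (fun x _ => fun e => x (π e)) (fun x _ => fun e => x (π.symm e))
    ?_ ?_ ?_ ?_ ?_
  · intro x _; simp
  · intro x _; simp
  · intro x _; funext e; simp
  · intro x _; funext e; simp
  · intro x _; simp only; rw [wt_comp_perm]

lemma chi_map (p : ℝ) (π : Equiv.Perm ι) (S : Finset ι) (x : ι → Bool) :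
    chi p (S.map π.toEmbedding) x = chi p S (fun e => x (π e)) := by
  unfold chi
  rw [Finset.prod_map]
  rfl

lemma fc_map (p : ℝ) (π : Equiv.Perm ι) (F : (ι → Bool) → ℝ)
    (hF : ∀ x, F (fun e => x (π e)) = F x) (S : Finset ι) :
    fc p F (S.map π.toEmbedding) = fc p F S := by
  unfold fc
  rw [← Ex_comp_perm p π (fun x => F x * chi p S x)]
  refine Ex_congr (fun x => ?_)
  rw [hF, chi_map]

lemma sum_fc_map (p : ℝ) (π : Equiv.Perm ι) (F : (ι → Bool) → ℝ)
    (hF : ∀ x, F (fun e => x (π e)) = F x) (P Q : Finset ι → Prop) [DecidablePred P]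
    [DecidablePred Q] (hPQ : ∀ S, P S ↔ Q (S.map π.toEmbedding)) :
    ∑ S ∈ Finset.univ.filter P, fc p F S ^ 2 = ∑ S ∈ Finset.univ.filter Q, fc p F S ^ 2 := by
  refine Finset.sum_bij' (fun S _ => S.map π.toEmbedding)
    (fun S _ => S.map π.symm.toEmbedding) ?_ ?_ ?_ ?_ ?_
  · intro S hS
    simp only [Finset.mem_filter, Finset.mem_univ, true_and] at hS ⊢
    exact (hPQ S).mp hS
  · intro S hS
    simp only [Finset.mem_filter, Finset.mem_univ, true_and] at hS ⊢
    rw [hPQ]
    have : (S.map π.symm.toEmbedding).map π.toEmbedding = S := by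
      ext e; simp
    rw [this]; exact hS
  · intro S _
    ext e; simp
  · intro S _
    ext e; simp
  · intro S _
    rw [fc_map p π F hF]

lemma inf_map {p : ℝ} (hp0 : 0 < p) (hp1 : p < 1) (π : Equiv.Perm ι) (F : (ι → Bool) → ℝ)
    (hF : ∀ x, F (fun e => x (π e)) = F x) (e : ι) : inf p (π e) F = inf p e F := by
  have hpq : 0 < p * (1 - p) := mul_pos hp0 (by linarith)
  have h : p * (1 - p) * inf p e F = p * (1 - p) * inf p (π e) F := by
    rw [inf_eq hp0 hp1, inf_eq hp0 hp1]
    refine sum_fc_map p π F hF _ _ (fun S => ?_)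
    simp
  exact (mul_left_cancel₀ hpq.ne' h).symm

end perm

section weights

variable {ι : Type*} [Fintype ι] [DecidableEq ι]

/-- Fourier weight on the sets satisfying `P`. -/
noncomputable def Wt (p : ℝ) (F : (ι → Bool) → ℝ) (P : Finset ι → Prop) [DecidablePred P] : ℝ :=
  ∑ S ∈ Finset.univ.filter P, fc p F S ^ 2

lemma Wt_nonneg (p : ℝ) (F : (ι → Bool) → ℝ) (P : Finset ι → Prop) [DecidablePred P] :
    0 ≤ Wt p F P := Finset.sum_nonneg (fun _ _ => sq_nonneg _)

lemma Wt_eq (p : ℝ) (F : (ι → Bool) → ℝ) (P : Finset ι → Prop) [DecidablePred P] :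
    Wt p F P = ∑ S : Finset ι, if P S then fc p F S ^ 2 else 0 := by
  unfold Wt; rw [Finset.sum_filter]

lemma Wt_mono (p : ℝ) (F : (ι → Bool) → ℝ) (P Q : Finset ι → Prop) [DecidablePred P]
    [DecidablePred Q] (h : ∀ S, P S → Q S) : Wt p F P ≤ Wt p F Q := by
  unfold Wt
  refine Finset.sum_le_sum_of_subset_of_nonneg ?_ (fun _ _ _ => sq_nonneg _)
  intro S hS
  simp only [Finset.mem_filter, Finset.mem_univ, true_and] at hS ⊢
  exact h S hS

end weights

open Crest.CombinatoricsR.HypergraphCube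

variable {n r : ℕ}

/-- The permutation of the slots given by a vertex permutation. -/
def slotPerm (σ : Equiv.Perm (Fin n)) : Equiv.Perm (HyperedgeSlot n r) where
  toFun := relabelSlot σ
  invFun := relabelSlot σ.symm
  left_inv := by
    intro e
    unfold relabelSlot
    ext j; simp
  right_inv := by
    intro e
    unfold relabelSlot
    ext j; simp

/-- The vertices of a slot. -/
def vs (e : HyperedgeSlot n r) : Finset (Fin n) := e.1

lemma vs_slotPerm (σ : Equiv.Perm (Fin n)) (e : HyperedgeSlot n r) :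
    vs (slotPerm σ e) = (vs e).map σ.toEmbedding := rfl

lemma supp_map (σ : Equiv.Perm (Fin n)) (S : Finset (HyperedgeSlot n r)) :
    supp vs (S.map (slotPerm σ).toEmbedding) = (supp vs S).map σ.toEmbedding := by
  unfold supp
  ext j
  simp only [Finset.mem_biUnion, Finset.mem_map, Equiv.coe_toEmbedding]
  constructor
  · rintro ⟨e', ⟨e, he, rfl⟩, hj⟩
    rw [vs_slotPerm, Finset.mem_map] at hj
    obtain ⟨i, hi, rfl⟩ := hj
    exact ⟨i, ⟨e, he, hi⟩, rfl⟩
  · rintro ⟨i, ⟨e, he, hi⟩, rfl⟩
    refine ⟨slotPerm σ e, ⟨e, he, rfl⟩, ?_⟩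
    rw [vs_slotPerm, Finset.mem_map]
    exact ⟨i, hi, rfl⟩

/-- Invariance of a real function under renaming of vertices. -/
def Inv (F : (HyperedgeSlot n r → Bool) → ℝ) : Prop :=
  ∀ σ : Equiv.Perm (Fin n), ∀ x, F (fun e => x (slotPerm σ e)) = F x

/-- Weight of vertex sets. -/
noncomputable def om (p : ℝ) (F : (HyperedgeSlot n r → Bool) → ℝ) (T : Finset (Fin n)) : ℝ :=
  Wt p F (fun S => supp vs S = T)

lemma om_nonneg (p : ℝ) (F : (HyperedgeSlot n r → Bool) → ℝ) (T : Finset (Fin n)) :
    0 ≤ om p F T := Wt_nonneg _ _ _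

lemma om_map (p : ℝ) (F : (HyperedgeSlot n r → Bool) → ℝ) (hF : Inv F)
    (σ : Equiv.Perm (Fin n)) (T : Finset (Fin n)) :
    om p F (T.map σ.toEmbedding) = om p F T := by
  unfold om Wt
  refine (sum_fc_map p (slotPerm σ) F (hF σ) _ _ (fun S => ?_)).symm
  rw [supp_map]
  constructor
  · intro h; rw [h]
  · intro h
    exact Finset.map_injective _ h

lemma exists_perm_map {α : Type*} [Fintype α] [DecidableEq α] (T T' : Finset α)
    (h : T.card = T'.card) : ∃ σ : Equiv.Perm α, T.map σ.toEmbedding = T' := by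
  classical
  let e : {x // x ∈ T} ≃ {x // x ∈ T'} := Finset.equivOfCardEq h
  refine ⟨e.extendSubtype, ?_⟩
  refine Finset.eq_of_subset_of_card_le ?_ ?_
  · intro y hy
    rw [Finset.mem_map] at hy
    obtain ⟨x, hx, rfl⟩ := hy
    exact Equiv.extendSubtype_mem e x hx
  · rw [Finset.card_map, h]

lemma om_card (p : ℝ) (F : (HyperedgeSlot n r → Bool) → ℝ) (hF : Inv F)
    (T T' : Finset (Fin n)) (h : T.card = T'.card) : om p F T = om p F T' := by
  obtain ⟨σ, hσ⟩ := exists_perm_map T T' h
  rw [← hσ, om_map p F hF]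

/-- Weights by vertex sets. -/
lemma Wt_supp (p : ℝ) (F : (HyperedgeSlot n r → Bool) → ℝ) (Q : Finset (Fin n) → Prop)
    [DecidablePred Q] :
    Wt p F (fun S => Q (supp vs S)) = ∑ T ∈ Finset.univ.filter Q, om p F T := by
  unfold om
  simp only [Wt_eq]
  rw [Finset.sum_comm]
  refine Finset.sum_congr rfl (fun S _ => ?_)
  rw [Finset.sum_ite_eq]
  simp

lemma inf_slot {p : ℝ} (hp0 : 0 < p) (hp1 : p < 1) (F : (HyperedgeSlot n r → Bool) → ℝ)
    (hF : Inv F) (e e' : HyperedgeSlot n r) : inf p e F = inf p e' F := by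
  obtain ⟨σ, hσ⟩ := exists_perm_map e.1 e'.1 (by rw [e.2, e'.2])
  have : slotPerm σ e = e' := Subtype.ext hσ
  rw [← this, inf_map hp0 hp1 (slotPerm σ) F (hF σ)]

/-- The influences of the slots through a vertex add up to `r / n` of the total influence. -/
lemma sum_inf_vertex {p : ℝ} (hp0 : 0 < p) (hp1 : p < 1) (F : (HyperedgeSlot n r → Bool) → ℝ)
    (hF : Inv F) (i : Fin n) :
    (n : ℝ) * ∑ e ∈ Finset.univ.filter (fun e : HyperedgeSlot n r => i ∈ vs e), inf p e F
      = r * tinf p F := by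
  have hsame : ∀ j : Fin n,
      ∑ e ∈ Finset.univ.filter (fun e : HyperedgeSlot n r => j ∈ vs e), inf p e F
      = ∑ e ∈ Finset.univ.filter (fun e : HyperedgeSlot n r => i ∈ vs e), inf p e F := by
    intro j
    refine Finset.sum_bij' (fun e _ => slotPerm (Equiv.swap i j) e)
      (fun e _ => slotPerm (Equiv.swap i j) e) ?_ ?_ ?_ ?_ ?_
    · intro e he
      simp only [Finset.mem_filter, Finset.mem_univ, true_and] at he ⊢
      rw [vs_slotPerm, Finset.mem_map]
      exact ⟨j, he, by simp⟩
    · intro e he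
      simp only [Finset.mem_filter, Finset.mem_univ, true_and] at he ⊢
      rw [vs_slotPerm, Finset.mem_map]
      exact ⟨i, he, by simp⟩
    · intro e _
      have : slotPerm (Equiv.swap i j) (slotPerm (Equiv.swap i j) e) = e := by
        have h1 : (slotPerm (Equiv.swap i j)).symm e = slotPerm (Equiv.swap i j) e := rfl
        rw [← h1]
        exact (slotPerm (Equiv.swap i j)).apply_symm_apply e
      exact this
    · intro e _
      have : slotPerm (Equiv.swap i j) (slotPerm (Equiv.swap i j) e) = e := by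
        have h1 : (slotPerm (Equiv.swap i j)).symm e = slotPerm (Equiv.swap i j) e := rfl
        rw [← h1]
        exact (slotPerm (Equiv.swap i j)).apply_symm_apply e
      exact this
    · intro e _
      exact inf_slot hp0 hp1 F hF _ _
  have h1 : ∑ j : Fin n,
      ∑ e ∈ Finset.univ.filter (fun e : HyperedgeSlot n r => j ∈ vs e), inf p e F
      = r * tinf p F := by
    simp only [Finset.sum_filter]
    rw [Finset.sum_comm]
    unfold tinf
    rw [Finset.mul_sum]
    refine Finset.sum_congr rfl (fun e _ => ?_)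
    rw [← Finset.sum_filter, Finset.sum_const, nsmul_eq_mul]
    congr 2
    have : Finset.univ.filter (fun j => j ∈ vs e) = e.1 := by
      ext j
      rw [Finset.mem_filter]
      exact ⟨fun h => h.2, fun h => ⟨Finset.mem_univ _, h⟩⟩
    rw [this, e.2]
  rw [← h1, Finset.sum_congr rfl (fun j _ => hsame j), Finset.sum_const, nsmul_eq_mul]
  simp

/-- The vertex weights: equal for all vertices. -/
lemma Wt_vertex (p : ℝ) (F : (HyperedgeSlot n r → Bool) → ℝ) (hF : Inv F) (i j : Fin n)
    (Q : ℕ → Prop) [DecidablePred Q] :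
    Wt p F (fun S => i ∈ supp vs S ∧ Q (supp vs S).card)
      = Wt p F (fun S => j ∈ supp vs S ∧ Q (supp vs S).card) := by
  unfold Wt
  refine sum_fc_map p (slotPerm (Equiv.swap i j)) F (hF _) _ _ (fun S => ?_)
  rw [supp_map, Finset.card_map, Finset.mem_map]
  constructor
  · rintro ⟨h1, h2⟩
    exact ⟨⟨i, h1, by simp⟩, h2⟩
  · rintro ⟨⟨k, hk, hkj⟩, h2⟩
    refine ⟨?_, h2⟩
    have : k = i := by
      have := congrArg (Equiv.swap i j) hkj
      simpa using this
    rw [← this]; exact hk

lemma sum_Wt_vertex (p : ℝ) (F : (HyperedgeSlot n r → Bool) → ℝ)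
    (Q : ℕ → Prop) [DecidablePred Q] :
    ∑ i, Wt p F (fun S => i ∈ supp vs S ∧ Q (supp vs S).card)
      = ∑ S : Finset (HyperedgeSlot n r), if Q (supp vs S).card then
          ((supp vs S).card : ℝ) * fc p F S ^ 2 else 0 := by
  simp only [Wt_eq]
  rw [Finset.sum_comm]
  refine Finset.sum_congr rfl (fun S _ => ?_)
  split_ifs with h
  · have : ∀ i : Fin n, (if i ∈ supp vs S ∧ Q (supp vs S).card then fc p F S ^ 2 else 0)
        = if i ∈ supp vs S then fc p F S ^ 2 else 0 := by
      intro i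
      by_cases hi : i ∈ supp vs S <;> simp [hi, h]
    rw [Finset.sum_congr rfl (fun i _ => this i), ← Finset.sum_filter, Finset.sum_const,
      nsmul_eq_mul]
    congr 2
    simp
  · refine Finset.sum_eq_zero (fun i _ => ?_)
    rw [if_neg]
    rintro ⟨_, h2⟩
    exact h h2

lemma supp_card_le (S : Finset (HyperedgeSlot n r)) : (supp vs S).card ≤ r * S.card := by
  unfold supp
  refine le_trans Finset.card_biUnion_le ?_
  rw [Finset.sum_congr rfl (g := fun _ => r) (fun e _ => e.2), Finset.sum_const, smul_eq_mul,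
    mul_comm]

lemma supp_nonempty (hr : 1 ≤ r) (S : Finset (HyperedgeSlot n r)) (hS : S ≠ ∅) :
    r ≤ (supp vs S).card := by
  obtain ⟨e, he⟩ := Finset.nonempty_iff_ne_empty.mpr hS
  calc r = (vs e).card := e.2.symm
    _ ≤ (supp vs S).card := Finset.card_le_card (Finset.subset_biUnion_of_mem vs he)

/-- The vertex energy is at most `r` times the energy. -/
lemma n_mul_Wt_vertex_le {p : ℝ} (hp0 : 0 < p) (hp1 : p < 1)
    (F : (HyperedgeSlot n r → Bool) → ℝ) (hF : Inv F) (i : Fin n) :
    (n : ℝ) * Wt p F (fun S => i ∈ supp vs S) ≤ r * (p * (1 - p) * tinf p F) := by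
  have h1 := sum_Wt_vertex p F (fun _ => True)
  have h2 : ∀ j : Fin n, Wt p F (fun S => j ∈ supp vs S ∧ True)
      = Wt p F (fun S => i ∈ supp vs S ∧ True) := fun j => Wt_vertex p F hF j i (fun _ => True)
  rw [Finset.sum_congr rfl (fun j _ => h2 j), Finset.sum_const, nsmul_eq_mul] at h1
  have h3 : Wt p F (fun S => i ∈ supp vs S ∧ True) = Wt p F (fun S => i ∈ supp vs S) := by
    simp only [Wt_eq, and_true]
  rw [h3] at h1
  simp only [if_true, Finset.card_univ, Fintype.card_fin] at h1
  rw [h1, tinf_eq hp0 hp1, Finset.mul_sum]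
  refine Finset.sum_le_sum (fun S _ => ?_)
  rw [← mul_assoc]
  refine mul_le_mul_of_nonneg_right ?_ (sq_nonneg _)
  exact_mod_cast supp_card_le S

end Crest.Agent.Row56
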