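import Crest.Agent.Row56.Overlap

/-! Hypercontractive inequality for functions supported on few vertices. -/

set_option autoImplicit false
set_option linter.unusedSectionVars false
set_option linter.unusedVariables false

namespace Crest.Agent.Row56

open Finset Crest.FinProb

variable {ι : Type*} [Fintype ι] [DecidableEq ι]
variable {V : Type*} [Fintype V] [DecidableEq V]

/-- Vertex support of a set of coordinates. -/
def supp (vs : ι → Finset V) (S : Finset ι) : Finset V := S.biUnion vs

/-- Weight of a multiplicity pattern. -/
noncomputable def phi (α κ : ℝ) (c : ℕ) : ℝ :=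
  if c = 0 then 1 else if c = 1 then 0 else if c = 2 then α ^ 2 else
    if c = 3 then κ * α ^ 3 else if c = 4 then κ * α ^ 4 else 0

lemma phi_nonneg {α κ : ℝ} (hα : 0 ≤ α) (hκ : 0 ≤ κ) (c : ℕ) : 0 ≤ phi α κ c := by
  unfold phi
  split_ifs <;> positivity

lemma phi_of_ne_one {α κ : ℝ} (c : ℕ) (hc1 : c ≠ 1) (hc4 : c ≤ 4) :
    phi α κ c = (if 3 ≤ c then κ else 1) * α ^ c := by
  unfold phi
  interval_cases c <;> simp at hc1 ⊢

/-- number of indices `k` with `c k = true`. -/
def cnt (c : Fin 4 → Bool) : ℕ := (Finset.univ.filter (fun k => c k = true)).card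

lemma sum_phi (α κ : ℝ) : ∑ c : Fin 4 → Bool, phi α κ (cnt c)
    = 1 + 6 * α ^ 2 + 4 * (κ * α ^ 3) + κ * α ^ 4 := by
  have h : ∀ F : ℕ → ℝ, ∑ c : Fin 4 → Bool, F (cnt c)
      = F 0 + 4 * F 1 + 6 * F 2 + 4 * F 3 + F 4 := by
    intro F
    have h1 : ∑ c : Fin 4 → Bool, F (cnt c)
        = ∑ m ∈ Finset.range 5, ((Finset.univ.filter
            (fun c : Fin 4 → Bool => cnt c = m)).card : ℝ) * F m := by
      rw [← Finset.sum_fiberwise_of_maps_to (s := Finset.univ) (t := Finset.range 5)
        (g := fun c : Fin 4 → Bool => cnt c)]
      · refine Finset.sum_congr rfl (fun m _ => ?_)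
        rw [Finset.sum_congr rfl (g := fun _ => F m), Finset.sum_const, nsmul_eq_mul]
        intro c hc
        simp only [Finset.mem_filter, Finset.mem_univ, true_and] at hc
        rw [hc]
      · intro c _
        simp only [Finset.mem_range]
        have : cnt c ≤ 4 := by
          unfold cnt
          refine le_trans (Finset.card_le_univ _) ?_
          simp
        omega
    rw [h1]
    have c0 : (Finset.univ.filter (fun c : Fin 4 → Bool => cnt c = 0)).card = 1 := by decide
    have c1 : (Finset.univ.filter (fun c : Fin 4 → Bool => cnt c = 1)).card = 4 := by decide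
    have c2 : (Finset.univ.filter (fun c : Fin 4 → Bool => cnt c = 2)).card = 6 := by decide
    have c3 : (Finset.univ.filter (fun c : Fin 4 → Bool => cnt c = 3)).card = 4 := by decide
    have c4 : (Finset.univ.filter (fun c : Fin 4 → Bool => cnt c = 4)).card = 1 := by decide
    simp only [Finset.sum_range_succ, Finset.sum_range_zero, c0, c1, c2, c3, c4]
    push_cast
    ring
  rw [h (phi α κ)]
  unfold phi
  norm_num

/-- Sum over quadruples of sets as a product over vertices. -/
lemma sum_quad (w : V → (Fin 4 → Bool) → ℝ) :
    ∑ T : Fin 4 → Finset V, ∏ j, w j (fun k => decide (j ∈ T k))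
      = ∏ j, ∑ c : Fin 4 → Bool, w j c := by
  have h := Finset.prod_univ_sum (fun _ : V => (Finset.univ : Finset (Fin 4 → Bool))) w
  rw [h, Fintype.piFinset_univ]
  refine Finset.sum_bij' (fun T _ => fun j k => decide (j ∈ T k))
    (fun c _ => fun k => Finset.univ.filter (fun j => c j k = true)) ?_ ?_ ?_ ?_ ?_
  · intro T _; simp
  · intro c _; simp
  · intro T _; funext k; ext j; simp
  · intro c _; funext j k; simp
  · intro T _; rfl

/-- Vertex hypercontractivity. -/
lemma vertex_hyp {p l : ℝ} (hl : 0 < l) (hlp : l ≤ p) (hlq : l ≤ 1 - p)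
    (vs : ι → Finset V) (f : (ι → Bool) → ℝ) (i : V) (v : ℕ) {B α κ : ℝ}
    (hB : 0 ≤ B) (hα : 0 ≤ α) (hκ : 0 ≤ κ)
    (hω : ∀ T : Finset V, i ∈ T → T.card ≤ v + 1 →
      Ex p (fun x => proj p (fun S => supp vs S = T) f x ^ 2) ≤ (B * α ^ (T.card - 1)) ^ 2)
    (hκZ : ∀ Z : Finset V, i ∈ Z → Z.card ≤ 2 * v + 1 →
      (1 / l) ^ (Finset.univ.filter (fun e => vs e ⊆ Z)).card ≤ κ ^ (Z.card - 1)) :
    Ex p (fun x => proj p (fun S => i ∈ supp vs S ∧ (supp vs S).card ≤ v + 1) f x ^ 4)
      ≤ B ^ 4 * (1 + 6 * α ^ 2 + 4 * (κ * α ^ 3) + κ * α ^ 4) ^ (Fintype.card V - 1) := by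
  have hp0 : 0 < p := by linarith
  have hp1 : p < 1 := by linarith
  have hl1 : l ≤ 1 := by linarith
  set fT : Finset V → (ι → Bool) → ℝ := fun T => proj p (fun S => supp vs S = T) f with hfT
  set 𝒯 : Finset (Finset V) := Finset.univ.filter (fun T => i ∈ T ∧ T.card ≤ v + 1) with h𝒯
  -- decomposition
  have hdec : ∀ x, proj p (fun S => i ∈ supp vs S ∧ (supp vs S).card ≤ v + 1) f x
      = ∑ T ∈ 𝒯, fT T x := by
    intro x
    rw [hfT]
    unfold proj
    simp only [Finset.sum_filter]
    rw [Finset.sum_comm]
    refine Finset.sum_congr rfl (fun S _ => ?_)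
    rw [Finset.sum_ite_eq]
    simp only [h𝒯, Finset.mem_filter, Finset.mem_univ, true_and]
  have hexp : Ex p (fun x => proj p (fun S => i ∈ supp vs S ∧ (supp vs S).card ≤ v + 1) f x ^ 4)
      = ∑ T ∈ Fintype.piFinset (fun _ : Fin 4 => 𝒯), Ex p (fun x => ∏ k, fT (T k) x) := by
    rw [← Ex_sum]
    refine Ex_congr (fun x => ?_)
    rw [hdec]
    have h := Finset.prod_univ_sum (fun _ : Fin 4 => 𝒯) (fun _ T => fT T x)
    rw [← h]
    simp
  rw [hexp]
  -- the per-vertex weight
  set w : V → (Fin 4 → Bool) → ℝ := fun j c =>
    if j = i then (if c = (fun _ => true) then 1 else 0) else phi α κ (cnt c) with hw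
  have hwn : ∀ j c, 0 ≤ w j c := by
    intro j c
    simp only [hw]
    split_ifs
    · exact zero_le_one
    · exact le_rfl
    · exact phi_nonneg hα hκ _
  have hterm : ∀ T ∈ Fintype.piFinset (fun _ : Fin 4 => 𝒯),
      Ex p (fun x => ∏ k, fT (T k) x) ≤ B ^ 4 * ∏ j, w j (fun k => decide (j ∈ T k)) := by
    intro T hT
    have hTk : ∀ k, i ∈ T k ∧ (T k).card ≤ v + 1 := by
      intro k
      have := (Fintype.mem_piFinset.mp hT) k
      simpa [h𝒯] using this
    -- split off the root
    have hroot : ∏ j, w j (fun k => decide (j ∈ T k))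
        = ∏ j ∈ Finset.univ.erase i, phi α κ (cnt (fun k => decide (j ∈ T k))) := by
      rw [← Finset.mul_prod_erase Finset.univ _ (Finset.mem_univ i)]
      have h1 : w i (fun k => decide (i ∈ T k)) = 1 := by
        simp only [hw, if_true]
        rw [if_pos]
        funext k
        simp [(hTk k).1]
      rw [h1, one_mul]
      refine Finset.prod_congr rfl (fun j hj => ?_)
      simp only [hw]
      rw [if_neg (Finset.ne_of_mem_erase hj)]
    rw [hroot]
    by_cases hsingle : ∃ j, cnt (fun k => decide (j ∈ T k)) = 1
    · -- some vertex covered exactly once: expectation vanishes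
      obtain ⟨j, hj⟩ := hsingle
      unfold cnt at hj
      obtain ⟨k0, hk0⟩ := Finset.card_eq_one.mp hj
      have hk0mem : j ∈ T k0 := by
        have : k0 ∈ Finset.univ.filter (fun k => decide (j ∈ T k) = true) := by
          rw [hk0]; exact Finset.mem_singleton_self _
        simpa using this
      have hother : ∀ k, k ≠ k0 → j ∉ T k := by
        intro k hk hjk
        have : k ∈ Finset.univ.filter (fun k => decide (j ∈ T k) = true) := by
          simp [hjk]
        rw [hk0] at this
        exact hk (Finset.mem_singleton.mp this)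
      have hzero : Ex p (fun x => ∏ k, fT (T k) x) = 0 := by
        have e1 : (fun x => ∏ k, fT (T k) x)
            = fun x => proj p (fun S => supp vs S = T k0) f x
              * ∏ k ∈ Finset.univ.erase k0, fT (T k) x := by
          funext x
          rw [← Finset.mul_prod_erase Finset.univ (fun k => fT (T k) x) (Finset.mem_univ k0)]
        rw [e1]
        refine Ex_proj_mul_eq_zero hp0 hp1 _ _ _ (fun S hS => ?_)
        have hjS : j ∈ supp vs S := by rw [hS]; exact hk0mem
        unfold supp at hjS
        rw [Finset.mem_biUnion] at hjS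
        obtain ⟨e, heS, hje⟩ := hjS
        refine ⟨e, heS, fun x b => ?_⟩
        refine Finset.prod_congr rfl (fun k hk => ?_)
        simp only [hfT]
        refine proj_indep _ _ e (fun S' hS' heS' => ?_) x b
        have : j ∈ supp vs S' := by
          unfold supp
          exact Finset.mem_biUnion.mpr ⟨e, heS', hje⟩
        rw [hS'] at this
        exact hother k (Finset.ne_of_mem_erase hk) this
      rw [hzero]
      refine mul_nonneg (by positivity) (Finset.prod_nonneg (fun j _ => phi_nonneg hα hκ _))
    · push Not at hsingle
      -- the overlap bound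
      have hov := overlap hl hl1 hlp hlq (fun k => fT (T k))
        (fun k => Finset.univ.filter (fun e => vs e ⊆ T k))
        (by
          intro k e he x b
          simp only [hfT]
          refine proj_indep _ _ e (fun S hS heS => ?_) x b
          refine he ?_
          simp only [Finset.mem_filter, Finset.mem_univ, true_and]
          rw [← hS]
          unfold supp
          exact Finset.subset_biUnion_of_mem vs heS)
      refine le_trans (le_abs_self _) (le_trans hov ?_)
      -- heavy vertices
      set Z : Finset V := Finset.univ.filter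
        (fun j => 3 ≤ cnt (fun k => decide (j ∈ T k))) with hZ
      have hiZ : i ∈ Z := by
        simp only [hZ, Finset.mem_filter, Finset.mem_univ, true_and]
        unfold cnt
        have : (Finset.univ.filter (fun k => decide (i ∈ T k) = true)) = Finset.univ := by
          ext k; simp [(hTk k).1]
        rw [this]; simp
      have hZcard : Z.card ≤ 2 * v + 1 := by
        have hsub : Z.erase i ⊆ (T 0).erase i ∪ (T 1).erase i := by
          intro j hj
          rw [Finset.mem_erase] at hj
          obtain ⟨hji, hjZ⟩ := hj
          simp only [hZ, Finset.mem_filter, Finset.mem_univ, true_and] at hjZ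
          rw [Finset.mem_union, Finset.mem_erase, Finset.mem_erase]
          by_contra hcon
          push Not at hcon
          have h0 : j ∉ T 0 := hcon.1 hji
          have h1 : j ∉ T 1 := hcon.2 hji
          have hle : cnt (fun k => decide (j ∈ T k)) ≤ 2 := by
            unfold cnt
            have : Finset.univ.filter (fun k => decide (j ∈ T k) = true)
                ⊆ ({2, 3} : Finset (Fin 4)) := by
              intro k hk
              simp only [Finset.mem_filter, Finset.mem_univ, true_and, decide_eq_true_eq] at hk
              fin_cases k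
              · exact absurd hk h0
              · exact absurd hk h1
              · simp
              · simp
            exact le_trans (Finset.card_le_card this) (by decide)
          omega
        have h1 := Finset.card_le_card hsub
        have h2 := Finset.card_union_le ((T 0).erase i) ((T 1).erase i)
        have h3 := Finset.card_erase_of_mem hiZ
        have h4 := Finset.card_erase_of_mem (hTk 0).1
        have h5 := Finset.card_erase_of_mem (hTk 1).1
        have h6 := (hTk 0).2
        have h7 := (hTk 1).2
        omega
      have hheavy : heavy (fun k => Finset.univ.filter (fun e => vs e ⊆ T k))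
          ⊆ Finset.univ.filter (fun e => vs e ⊆ Z) := by
        intro e he
        unfold heavy at he
        simp only [Finset.mem_filter, Finset.mem_univ, true_and] at he ⊢
        intro j hj
        simp only [hZ, Finset.mem_filter, Finset.mem_univ, true_and]
        unfold cnt
        refine le_trans he (Finset.card_le_card ?_)
        intro k hk
        simp only [Finset.mem_filter, Finset.mem_univ, true_and, decide_eq_true_eq] at hk ⊢
        exact hk hj
      have hl1' : 1 ≤ 1 / l := by
        rw [le_div_iff₀ hl]; linarith
      have hfac1 : (1 / l) ^ (heavy (fun k => Finset.univ.filter (fun e => vs e ⊆ T k))).card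
          ≤ κ ^ (Z.card - 1) :=
        le_trans (pow_le_pow_right₀ hl1' (Finset.card_le_card hheavy)) (hκZ Z hiZ hZcard)
      have hfac2 : ∏ k, Real.sqrt (Ex p (fun x => fT (T k) x ^ 2))
          ≤ ∏ k : Fin 4, (B * α ^ ((T k).card - 1)) := by
        refine Finset.prod_le_prod (fun k _ => Real.sqrt_nonneg _) (fun k _ => ?_)
        refine Real.sqrt_le_iff.mpr ⟨by positivity, ?_⟩
        exact hω (T k) (hTk k).1 (hTk k).2
      -- rewrite the product of phis
      have hphi : ∏ j ∈ Finset.univ.erase i, phi α κ (cnt (fun k => decide (j ∈ T k)))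
          = κ ^ (Z.card - 1) * ∏ k : Fin 4, α ^ ((T k).card - 1) := by
        have e1 : ∀ j ∈ Finset.univ.erase i, phi α κ (cnt (fun k => decide (j ∈ T k)))
            = (if j ∈ Z then κ else 1) * ∏ k : Fin 4, (if j ∈ T k then α else 1) := by
          intro j _
          rw [phi_of_ne_one _ (hsingle j) (by
            unfold cnt
            refine le_trans (Finset.card_le_univ _) ?_
            simp)]
          congr 1
          · by_cases hj : j ∈ Z
            · rw [if_pos hj]
              simp only [hZ, Finset.mem_filter, Finset.mem_univ, true_and] at hj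
              rw [if_pos hj]
            · rw [if_neg hj]
              simp only [hZ, Finset.mem_filter, Finset.mem_univ, true_and] at hj
              rw [if_neg hj]
          · unfold cnt
            rw [Finset.prod_ite, Finset.prod_const_one, mul_one, Finset.prod_const]
            congr 2
            ext k; simp
        rw [Finset.prod_congr rfl e1, Finset.prod_mul_distrib]
        congr 1
        · rw [Finset.prod_ite, Finset.prod_const_one, mul_one, Finset.prod_const]
          congr 1
          have : (Finset.univ.erase i).filter (fun j => j ∈ Z) = Z.erase i := by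
            ext j; simp [Finset.mem_erase, and_comm]
          rw [this, Finset.card_erase_of_mem hiZ]
        · rw [Finset.prod_comm]
          refine Finset.prod_congr rfl (fun k _ => ?_)
          rw [Finset.prod_ite, Finset.prod_const_one, mul_one, Finset.prod_const]
          congr 1
          have : (Finset.univ.erase i).filter (fun j => j ∈ T k) = (T k).erase i := by
            ext j; simp [Finset.mem_erase, and_comm]
          rw [this, Finset.card_erase_of_mem (hTk k).1]
      rw [hphi]
      have hprod : ∏ k : Fin 4, (B * α ^ ((T k).card - 1))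
          = B ^ 4 * ∏ k : Fin 4, α ^ ((T k).card - 1) := by
        rw [Finset.prod_mul_distrib]; simp
      calc (1 / l) ^ (heavy (fun k => Finset.univ.filter (fun e => vs e ⊆ T k))).card
            * ∏ k, Real.sqrt (Ex p (fun x => fT (T k) x ^ 2))
          ≤ κ ^ (Z.card - 1) * ∏ k : Fin 4, (B * α ^ ((T k).card - 1)) :=
            mul_le_mul hfac1 hfac2 (Finset.prod_nonneg (fun k _ => Real.sqrt_nonneg _))
              (by positivity)
        _ = B ^ 4 * (κ ^ (Z.card - 1) * ∏ k : Fin 4, α ^ ((T k).card - 1)) := by
            rw [hprod]; ring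
  refine le_trans (Finset.sum_le_sum hterm) ?_
  rw [← Finset.mul_sum]
  refine mul_le_mul_of_nonneg_left ?_ (by positivity)
  have hall : ∑ T ∈ Fintype.piFinset (fun _ : Fin 4 => 𝒯), ∏ j, w j (fun k => decide (j ∈ T k))
      ≤ ∑ T : Fin 4 → Finset V, ∏ j, w j (fun k => decide (j ∈ T k)) :=
    Finset.sum_le_sum_of_subset_of_nonneg (Finset.subset_univ _)
      (fun T _ _ => Finset.prod_nonneg (fun j _ => hwn j _))
  refine le_trans hall ?_
  rw [sum_quad, ← Finset.mul_prod_erase Finset.univ _ (Finset.mem_univ i)]
  have h1 : ∑ c : Fin 4 → Bool, w i c = 1 := by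
    simp only [hw, if_true]
    simp
  have h2 : ∀ j ∈ Finset.univ.erase i, ∑ c : Fin 4 → Bool, w j c
      = 1 + 6 * α ^ 2 + 4 * (κ * α ^ 3) + κ * α ^ 4 := by
    intro j hj
    simp only [hw]
    rw [← sum_phi]
    refine Finset.sum_congr rfl (fun c _ => ?_)
    rw [if_neg (Finset.ne_of_mem_erase hj)]
  rw [h1, one_mul, Finset.prod_congr rfl h2, Finset.prod_const,
    Finset.card_erase_of_mem (Finset.mem_univ i), Finset.card_univ]

end Crest.Agent.Row56
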